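import Vale.Agent.IsingFIID.Cov

/-!
# Expectations under a free Ising measure as finite sums; the covariance bound (P161 part (a))
-/

namespace Vale.Agent.IsingFIID

open SimpleGraph MeasureTheory

variable {V : Type*} {G : SimpleGraph V} {θ : ℝ} {μ : Measure (V → Bool)}

lemma spin_eq_one_or (b : Bool) : spin b = 1 ∨ spin b = -1 := by
  cases b <;> simp [spin]

lemma abs_spin (b : Bool) : |spin b| = 1 := by
  cases b <;> simp [spin]

section

variable [DecidableEq V]

lemma spin_decide (S : Finset V) (v : V) : spin (decide (v ∈ S)) = spinF S v := by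
  unfold spin spinF
  by_cases h : v ∈ S <;> simp [h]

/-- The cylinder event `σ = 1_S` on `D`. -/
def cyl (D S : Finset V) : Set (V → Bool) := {σ | ∀ v ∈ D, σ v = decide (v ∈ S)}

lemma measurableSet_cyl (D S : Finset V) : MeasurableSet (cyl D S) := by
  have : cyl D S = ⋂ v ∈ D, {σ : V → Bool | σ v = decide (v ∈ S)} := by
    ext σ
    simp [cyl]
  rw [this]
  refine Finset.measurableSet_biInter _ fun v _ => ?_
  exact (measurable_pi_apply v) (measurableSet_singleton _)

lemma real_cyl (hμ : IsFreeIsing G θ μ) {D : Finset V}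
    (hD : (G.induce (D : Set V)).Connected) (S : Finset V) :
    μ.real (cyl D S) = wt G θ D (spinF S) := by
  unfold cyl
  rw [hμ.marginal D hD (fun v => decide (v ∈ S))]
  unfold wt
  congr 1
  refine Finset.prod_congr rfl fun e _ => ?_
  induction e using Sym2.ind with
  | _ u v =>
    rw [edgeWt_mk]
    simp only [bond, Sym2.lift_mk, spin_decide]

/-- A local function as a finite sum of cylinder indicators. -/
lemma local_eq_sum {D : Finset V} {f : (V → ℝ) → ℝ} (hf : DependsOn f (D : Set V))
    (σ : V → Bool) :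
    f (fun v => spin (σ v)) = ∑ S ∈ D.powerset, (cyl D S).indicator (fun _ => f (spinF S)) σ := by
  set T : Finset V := D.filter (fun v => σ v = true) with hT
  have hTD : T ∈ D.powerset := Finset.mem_powerset.2 (Finset.filter_subset _ _)
  have hσT : σ ∈ cyl D T := by
    intro v hv
    by_cases h : σ v = true
    · rw [h]; symm; simpa [hT, hv] using h
    · have h' : σ v = false := by simpa using h
      rw [h']; symm; simp [hT, hv, h']
  rw [Finset.sum_eq_single T]
  · rw [Set.indicator_of_mem hσT]
    apply hf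
    intro v hv
    rw [hσT v (by exact_mod_cast hv), spin_decide]
  · intro S hS hne
    rw [Set.indicator_of_notMem]
    intro hσS
    apply hne
    have hSD := Finset.mem_powerset.1 hS
    ext v
    by_cases hv : v ∈ D
    · have h1 := hσS v hv
      have h2 := hσT v hv
      rw [h1] at h2
      simpa using h2
    · constructor
      · intro h; exact absurd (hSD h) hv
      · intro h; exact absurd (Finset.mem_powerset.1 hTD h) hv
  · intro h; exact absurd hTD h

theorem integral_eq_Zsum_of_cyl [IsProbabilityMeasure μ] {D : Finset V}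
    (hcyl : ∀ S, μ.real (cyl D S) = wt G θ D (spinF S)) {f : (V → ℝ) → ℝ}
    (hf : DependsOn f (D : Set V)) :
    ∫ σ, f (fun v => spin (σ v)) ∂μ = Zsum G θ D f := by
  simp_rw [local_eq_sum hf]
  rw [integral_finsetSum]
  · unfold Zsum
    refine Finset.sum_congr rfl fun S _ => ?_
    rw [integral_indicator_const _ (measurableSet_cyl D S), hcyl S, smul_eq_mul]
  · intro S _
    exact (integrable_const _).indicator (measurableSet_cyl D S)

theorem integral_eq_Zsum (hμ : IsFreeIsing G θ μ) {D : Finset V}
    (hD : (G.induce (D : Set V)).Connected) {f : (V → ℝ) → ℝ} (hf : DependsOn f (D : Set V)) :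
    ∫ σ, f (fun v => spin (σ v)) ∂μ = Zsum G θ D f := by
  have := hμ.prob
  exact integral_eq_Zsum_of_cyl (fun S => real_cyl hμ hD S) hf

end

/-- The site weights of the observations. -/
noncomputable def siteW [DecidableEq V] (h : ℝ) (A : Finset (V × ℕ)) (y : V × ℕ → unitInterval)
    (v : V) (s : ℝ) : ℝ :=
  ∏ i ∈ A.filter (fun i => i.1 = v), (1 + h * s * phi (y i))

lemma abs_phi_le (t : unitInterval) : |phi t| ≤ 1 := by
  unfold phi
  rw [abs_le]
  constructor
  · linarith [t.2.1]
  · linarith [t.2.2]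

lemma factor_pos {h : ℝ} (hh : 0 ≤ h) (hh1 : h < 1) {s : ℝ} (hs : |s| ≤ 1) (t : unitInterval) :
    0 < 1 + h * s * phi t := by
  have : |h * s * phi t| ≤ h := by
    rw [abs_mul, abs_mul, abs_of_nonneg hh]
    have h1 := mul_le_mul hs (abs_phi_le t) (abs_nonneg _) zero_le_one
    calc h * |s| * |phi t| = h * (|s| * |phi t|) := by ring
      _ ≤ h * (1 * 1) := mul_le_mul_of_nonneg_left h1 hh
      _ = h := by ring
  have := (abs_le.1 this).1
  linarith

lemma siteW_pos [DecidableEq V] {h : ℝ} (hh : 0 ≤ h) (hh1 : h < 1) (A : Finset (V × ℕ))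
    (y : V × ℕ → unitInterval) (v : V) : 0 < siteW h A y v 1 ∧ 0 < siteW h A y v (-1) := by
  constructor
  · exact Finset.prod_pos fun i _ => factor_pos hh hh1 (by norm_num) _
  · exact Finset.prod_pos fun i _ => factor_pos hh hh1 (by norm_num) _

lemma prod_siteW [DecidableEq V] (h : ℝ) (A : Finset (V × ℕ)) (y : V × ℕ → unitInterval)
    {D : Finset V} (hAD : ∀ i ∈ A, i.1 ∈ D) (η : V → ℝ) :
    ∏ v ∈ D, siteW h A y v (η v) = ∏ i ∈ A, (1 + h * η i.1 * phi (y i)) := by
  rw [← Finset.prod_fiberwise_of_maps_to hAD]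
  refine Finset.prod_congr rfl fun v _ => ?_
  unfold siteW
  refine Finset.prod_congr rfl fun i hi => ?_
  rw [(Finset.mem_filter.1 hi).2]

/-- `∫ f(σ) lik dμ` as a weighted finite sum. -/
theorem integral_lik_eq_Wsum [DecidableEq V] (hμ : IsFreeIsing G θ μ) {D : Finset V}
    (hD : (G.induce (D : Set V)).Connected) {f : (V → ℝ) → ℝ} (hf : DependsOn f (D : Set V))
    (h : ℝ) (A : Finset (V × ℕ)) (hAD : ∀ i ∈ A, i.1 ∈ D) (y : V × ℕ → unitInterval) :
    ∫ σ, f (fun v => spin (σ v)) * lik h A σ y ∂μ = Wsum G θ D (siteW h A y) f := by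
  unfold Wsum
  rw [← integral_eq_Zsum hμ hD]
  · refine integral_congr_ae (Filter.Eventually.of_forall fun σ => ?_)
    simp only
    rw [prod_siteW h A y hAD, mul_comm]
    rfl
  · intro a b hab
    show (∏ v ∈ D, siteW h A y v (a v)) * f a = (∏ v ∈ D, siteW h A y v (b v)) * f b
    rw [hf hab]
    congr 1
    exact Finset.prod_congr rfl fun v hv => by rw [hab v (by exact_mod_cast hv)]

/-- **The covariance bound**, for all observations. -/
theorem covBound {G : SimpleGraph V} (hG : G.IsTree) {θ : ℝ} (h0 : 0 ≤ θ) (h1 : θ < 1)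
    {μ : Measure (V → Bool)} (hμ : IsFreeIsing G θ μ) {h : ℝ} (hh : 0 ≤ h) (hh1 : h < 1) :
    CovBound μ h (fun u w => θ ^ G.dist u w) := by
  classical
  intro A y u w
  obtain ⟨D, hsub, hD⟩ := extend_finset_to_connected hG.connected.preconnected
    (t := insert u (insert w (A.image Prod.fst))) ⟨u, Finset.mem_insert_self _ _⟩
  have hu : u ∈ D := hsub (Finset.mem_insert_self _ _)
  have hw : w ∈ D := hsub (Finset.mem_insert_of_mem (Finset.mem_insert_self _ _))
  have hAD : ∀ i ∈ A, i.1 ∈ D := fun i hi =>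
    hsub (Finset.mem_insert_of_mem (Finset.mem_insert_of_mem (Finset.mem_image_of_mem _ hi)))
  have duw : DependsOn (fun η : V → ℝ => η u * η w) (D : Set V) := fun a b h => by
    simp only [h u (by exact_mod_cast hu), h w (by exact_mod_cast hw)]
  have du : DependsOn (fun η : V → ℝ => η u) (D : Set V) := fun a b h =>
    h u (by exact_mod_cast hu)
  have dw : DependsOn (fun η : V → ℝ => η w) (D : Set V) := fun a b h =>
    h w (by exact_mod_cast hw)
  have d1 : DependsOn (fun _ : V → ℝ => (1:ℝ)) (D : Set V) := fun _ _ _ => rfl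
  have e1 : pden μ h A y = Wsum G θ D (siteW h A y) (fun _ => 1) := by
    rw [← integral_lik_eq_Wsum hμ hD d1 h A hAD y]
    simp [pden]
  have eu : nden μ h A u y = Wsum G θ D (siteW h A y) (fun η => η u) :=
    integral_lik_eq_Wsum hμ hD du h A hAD y
  have ew : nden μ h A w y = Wsum G θ D (siteW h A y) (fun η => η w) :=
    integral_lik_eq_Wsum hμ hD dw h A hAD y
  have euw : nden2 μ h A u w y = Wsum G θ D (siteW h A y) (fun η => η u * η w) :=
    integral_lik_eq_Wsum hμ hD duw h A hAD y
  rw [e1, eu, ew, euw]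
  exact cov_bound hG h0 h1 hD (siteW h A y) (siteW_pos hh hh1 A y) u hu w hw

end Vale.Agent.IsingFIID
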