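import Vale.Agent.IsingFIID.Resample
import Vale.Agent.FUSF.Spread

/-!
# P161, splitting one uniform label per vertex
-/

open MeasureTheory Function
open scoped ENNReal

namespace Vale.Agent.IsingFIID

/-- Reindexing an iid family along an injection. -/
theorem map_comp_injective {α β : Type*} {e : α → β} (he : Injective e) :
    (unif β).map (fun z a => z (e a)) = unif α := by
  refine Measure.eq_infinitePi _ fun s t ht => ?_
  have hm : Measurable fun (z : β → unitInterval) a => z (e a) :=
    measurable_pi_lambda _ fun a => measurable_pi_apply _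
  rw [Measure.map_apply hm (MeasurableSet.pi s.countable_toSet fun i _ => ht i)]
  set t' : β → Set unitInterval := Function.extend e t (fun _ => Set.univ) with ht'
  have hte : ∀ a, t' (e a) = t a := fun a => he.extend_apply t _ a
  have hpre : (fun (z : β → unitInterval) a => z (e a)) ⁻¹' (Set.pi (s : Set α) t) =
      Set.pi ((s.map ⟨e, he⟩ : Finset β) : Set β) t' := by
    ext z
    simp only [Set.mem_preimage, Set.mem_pi, Finset.mem_coe, Finset.mem_map,
      Embedding.coeFn_mk]
    constructor
    · rintro h _ ⟨a, ha, rfl⟩
      rw [hte]
      exact h a ha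
    · intro h a ha
      have := h (e a) ⟨a, ha, rfl⟩
      rwa [hte] at this
  rw [hpre]
  unfold unif
  rw [Measure.infinitePi_pi]
  · rw [Finset.prod_map]
    refine Finset.prod_congr rfl fun a _ => ?_
    simp only [Embedding.coeFn_mk, hte]
  · intro b hb
    rw [Finset.mem_map] at hb
    obtain ⟨a, _, rfl⟩ := hb
    simp only [Embedding.coeFn_mk, hte]
    exact ht a

theorem exists_labels (V : Type*) : ∃ lab : unitInterval → unitInterval × (ℕ → unitInterval),
    Measurable lab ∧
    (unif V).map (fun x => ((fun v => (lab (x v)).1), (fun i : V × ℕ => (lab (x i.1)).2 i.2))) =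
      (unif V).prod (unif (V × ℕ)) := by
  obtain ⟨dec, hdec, hmap⟩ := FUSF.exists_decode ℕ (volume : Measure unitInterval)
  have hlab : Measurable fun t : unitInterval => (dec t 0, fun k : ℕ => dec t (k + 1)) :=
    ((measurable_pi_apply 0).comp hdec).prodMk
      (measurable_pi_lambda _ fun k => (measurable_pi_apply (k + 1)).comp hdec)
  refine ⟨fun t => (dec t 0, fun k => dec t (k + 1)), hlab, ?_⟩
  have hspread := FUSF.map_spread (V := V) (volume : Measure unitInterval) hdec hmap
  have hspread' : (unif V).map (fun U (p : V × ℕ) => dec (U p.1) p.2) = unif (V × ℕ) := hspread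
  -- the index map
  set e : V ⊕ (V × ℕ) → V × ℕ := Sum.elim (fun v => (v, 0)) (fun i => (i.1, i.2 + 1)) with he
  have hinj : Injective e := by
    rintro (a | ⟨a, k⟩) (b | ⟨b, l⟩) h
    · simp only [he, Sum.elim_inl, Prod.mk.injEq, and_true] at h
      rw [h]
    · simp [he] at h
    · simp [he] at h
    · simp only [he, Sum.elim_inr, Prod.mk.injEq, Nat.add_right_cancel_iff] at h
      rw [h.1, h.2]
  have h1 := map_comp_injective hinj
  have h2 : ((unif V).prod (unif (V × ℕ))).map (fun p => Sum.elim p.1 p.2)
      = unif (V ⊕ (V × ℕ)) :=
    FUSF.map_sumElim (α := V) (β := V × ℕ) (volume : Measure unitInterval)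
  -- measurability facts
  have mD : Measurable fun w : V ⊕ (V × ℕ) → unitInterval =>
      ((fun v => w (Sum.inl v)), (fun i => w (Sum.inr i))) :=
    (measurable_pi_lambda _ fun v => measurable_pi_apply _).prodMk
      (measurable_pi_lambda _ fun v => measurable_pi_apply _)
  have mE : Measurable fun p : (V → unitInterval) × (V × ℕ → unitInterval) =>
      (Sum.elim p.1 p.2 : V ⊕ (V × ℕ) → unitInterval) := by
    rw [measurable_pi_iff]
    rintro (a | b)
    · exact (measurable_pi_apply a).comp measurable_fst
    · exact (measurable_pi_apply b).comp measurable_snd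
  have mC : Measurable fun (z : V × ℕ → unitInterval) a => z (e a) :=
    measurable_pi_lambda _ fun a => measurable_pi_apply _
  have mS : Measurable fun (U : V → unitInterval) (p : V × ℕ) => dec (U p.1) p.2 :=
    measurable_pi_lambda _ fun p =>
      (measurable_pi_apply p.2).comp (hdec.comp (measurable_pi_apply p.1))
  have h3 : (unif (V ⊕ (V × ℕ))).map (fun w : V ⊕ (V × ℕ) → unitInterval =>
      ((fun v => w (Sum.inl v)), (fun i => w (Sum.inr i)))) = (unif V).prod (unif (V × ℕ)) := by
    rw [← h2, Measure.map_map mD mE]
    have : (fun w : V ⊕ (V × ℕ) → unitInterval =>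
        ((fun v => w (Sum.inl v)), (fun i => w (Sum.inr i)))) ∘
        (fun p : (V → unitInterval) × (V × ℕ → unitInterval) =>
      (Sum.elim p.1 p.2 : V ⊕ (V × ℕ) → unitInterval)) = id := by
      ext p <;> rfl
    rw [this, Measure.map_id]
  rw [← h3, ← h1, ← hspread', Measure.map_map mC mS, Measure.map_map mD (mC.comp mS)]
  rfl


theorem ae_injective {V : Type*} [Countable V] : ∀ᵐ s ∂(unif V), Injective s := by
  classical
  have hpair : ∀ u v : V, u ≠ v → ∀ᵐ s ∂(unif V), s u ≠ s v := by
    intro u v huv
    have hms : MeasurableSet {s : V → unitInterval | s u = s v} :=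
      measurableSet_eq_fun (measurable_pi_apply u) (measurable_pi_apply v)
    rw [ae_iff]
    have e1 : {s : V → unitInterval | ¬ s u ≠ s v} = {s | s u = s v} := by
      ext s; simp
    rw [e1, ← lintegral_indicator_one hms,
      lintegral_resample v (measurable_one.indicator hms)]
    have e2 : ∀ x : V → unitInterval, ∫⁻ t : unitInterval,
        ({s : V → unitInterval | s u = s v}).indicator
          (1 : (V → unitInterval) → ℝ≥0∞) (update x v t) = (0 : ℝ≥0∞) := by
      intro x
      have e3 : ∀ t : unitInterval,
          ({s : V → unitInterval | s u = s v}).indicator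
            (1 : (V → unitInterval) → ℝ≥0∞) (update x v t)
            = ({x u} : Set unitInterval).indicator (1 : unitInterval → ℝ≥0∞) t := by
        intro t
        by_cases ht : t = x u
        · subst ht
          rw [Set.indicator_of_mem, Set.indicator_of_mem (Set.mem_singleton _)]
          · rfl
          · show update x v (x u) u = update x v (x u) v
            rw [update_of_ne huv, update_self]
        · rw [Set.indicator_of_notMem, Set.indicator_of_notMem]
          · simpa using ht
          · show ¬ (update x v t u = update x v t v)
            rw [update_of_ne huv, update_self]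
            exact fun h => ht h.symm
      simp only [e3]
      rw [lintegral_indicator_one (measurableSet_singleton _)]
      simp
    rw [lintegral_congr e2]
    simp
  have hall : ∀ᵐ s ∂(unif V), ∀ u v : V, u ≠ v → s u ≠ s v := by
    rw [ae_all_iff]
    intro u
    rw [ae_all_iff]
    intro v
    by_cases huv : u = v
    · exact Filter.Eventually.of_forall fun s h => absurd huv h
    · filter_upwards [hpair u v huv] with s hs _ using hs
  filter_upwards [hall] with s hs u v h
  by_contra hne
  exact hs u v hne h

end Vale.Agent.IsingFIID
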