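import Vale.Agent.IsingFIID.Resample

/-!
# The one dimensional inverse distribution functions

`Fr s y = (1 - s) y + s y ^ 2` is the distribution function of the density `1 + s (2 y - 1)` on
`[0,1]`, and `Gr s` is its inverse, `|s| ≤ 1/2`.
-/

open MeasureTheory Function Set
open scoped unitInterval ENNReal

namespace Vale.Agent.IsingFIID

/-- The centred label, on the line. -/
def phiR (t : ℝ) : ℝ := 2 * t - 1

theorem phi_eq (t : I) : phi t = phiR t := rfl

noncomputable def Fr (s y : ℝ) : ℝ := (1 - s) * y + s * y ^ 2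

noncomputable def Gr (s u : ℝ) : ℝ := 2 * u / ((1 - s) + Real.sqrt ((1 - s) ^ 2 + 4 * s * u))

/-- Distribution function, as a self map of `[0,1]`. -/
noncomputable def FI (s : ℝ) (y : I) : I := Set.projIcc 0 1 zero_le_one (Fr s y)

/-- Inverse distribution function, as a self map of `[0,1]`. -/
noncomputable def GI (s : ℝ) (u : I) : I := Set.projIcc 0 1 zero_le_one (Gr s u)

theorem phi_abs_le (t : I) : |phi t| ≤ 1 := by
  unfold phi
  rw [abs_le]
  constructor <;> linarith [t.2.1, t.2.2]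

theorem phi_measurable' : Measurable fun t : I => phi t := by unfold phi; fun_prop

theorem Fr_mem {s : ℝ} (hs : |s| ≤ 1 / 2) (y : I) : Fr s y ∈ Icc (0 : ℝ) 1 := by
  obtain ⟨h1, h2⟩ := abs_le.1 hs
  have hy0 := y.2.1
  have hy1 := y.2.2
  unfold Fr
  constructor
  · nlinarith [mul_nonneg hy0 (sub_nonneg.2 hy1)]
  · nlinarith [mul_nonneg hy0 (sub_nonneg.2 hy1)]

theorem FI_coe {s : ℝ} (hs : |s| ≤ 1 / 2) (y : I) : (FI s y : ℝ) = Fr s y := by
  unfold FI
  rw [Set.projIcc_of_mem zero_le_one (Fr_mem hs y)]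

theorem sqrt_ge {s : ℝ} (hs : |s| ≤ 1 / 2) (u : I) :
    1 / 2 ≤ Real.sqrt ((1 - s) ^ 2 + 4 * s * u) := by
  obtain ⟨h1, h2⟩ := abs_le.1 hs
  have hu0 := u.2.1
  have hu1 := u.2.2
  apply Real.le_sqrt_of_sq_le
  rcases le_or_gt 0 s with h | h
  · nlinarith [mul_nonneg h hu0]
  · nlinarith [mul_nonneg (neg_nonneg.2 h.le) (sub_nonneg.2 hu1)]

theorem den_pos {s : ℝ} (hs : |s| ≤ 1 / 2) (u : I) :
    0 < (1 - s) + Real.sqrt ((1 - s) ^ 2 + 4 * s * u) := by
  have := sqrt_ge hs u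
  have := (abs_le.1 hs).2
  linarith

theorem disc_nonneg {s : ℝ} (hs : |s| ≤ 1 / 2) (u : I) : 0 ≤ (1 - s) ^ 2 + 4 * s * (u : ℝ) := by
  obtain ⟨h1, h2⟩ := abs_le.1 hs
  have hu0 := u.2.1
  have hu1 := u.2.2
  rcases le_or_gt 0 s with h | h
  · nlinarith [mul_nonneg h hu0]
  · nlinarith [mul_nonneg (neg_nonneg.2 h.le) (sub_nonneg.2 hu1)]

theorem Gr_mem {s : ℝ} (hs : |s| ≤ 1 / 2) (u : I) : Gr s u ∈ Icc (0 : ℝ) 1 := by
  obtain ⟨h1, h2⟩ := abs_le.1 hs
  have hu0 := u.2.1
  have hu1 := u.2.2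
  have hd := den_pos hs u
  have hsq := Real.sqrt_nonneg ((1 - s) ^ 2 + 4 * s * (u : ℝ))
  unfold Gr
  constructor
  · exact div_nonneg (by linarith) hd.le
  · rw [div_le_one hd]
    have h3 : 2 * (u : ℝ) - (1 - s) ≤ Real.sqrt ((1 - s) ^ 2 + 4 * s * u) := by
      apply Real.le_sqrt_of_sq_le
      nlinarith [mul_nonneg hu0 (sub_nonneg.2 hu1)]
    linarith

theorem GI_coe {s : ℝ} (hs : |s| ≤ 1 / 2) (u : I) : (GI s u : ℝ) = Gr s u := by
  unfold GI
  rw [Set.projIcc_of_mem zero_le_one (Gr_mem hs u)]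

theorem Fr_Gr {s : ℝ} (hs : |s| ≤ 1 / 2) (u : I) : Fr s (Gr s u) = u := by
  have hd := den_pos hs u
  have hsq := Real.sq_sqrt (disc_nonneg hs u)
  set r := Real.sqrt ((1 - s) ^ 2 + 4 * s * (u : ℝ)) with hr
  unfold Fr Gr
  rw [← hr]
  have hne : (1 - s) + r ≠ 0 := hd.ne'
  field_simp
  linear_combination (-(u : ℝ)) * hsq

theorem FI_GI {s : ℝ} (hs : |s| ≤ 1 / 2) (u : I) : FI s (GI s u) = u := by
  apply Subtype.ext
  rw [FI_coe hs, GI_coe hs, Fr_Gr hs]

theorem Fr_sub (s y y' : ℝ) : Fr s y - Fr s y' = (y - y') * (1 + s * (y + y' - 1)) := by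
  unfold Fr; ring

theorem slope_ge {s : ℝ} (hs : |s| ≤ 1 / 2) (y y' : I) :
    1 / 2 ≤ 1 + s * ((y : ℝ) + y' - 1) := by
  have h1 : |(y : ℝ) + y' - 1| ≤ 1 := by
    rw [abs_le]
    constructor <;> linarith [y.2.1, y.2.2, y'.2.1, y'.2.2]
  have h2 : |s * ((y : ℝ) + y' - 1)| ≤ 1 / 2 := by
    rw [abs_mul]
    calc |s| * |(y : ℝ) + y' - 1| ≤ (1 / 2) * 1 :=
          mul_le_mul hs h1 (abs_nonneg _) (by norm_num)
      _ = 1 / 2 := by ring
  have := (abs_le.1 h2).1
  linarith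

theorem abs_sub_le_Fr {s : ℝ} (hs : |s| ≤ 1 / 2) (y y' : I) :
    |(y : ℝ) - y'| ≤ 2 * |Fr s y - Fr s y'| := by
  rw [Fr_sub, abs_mul]
  have h := slope_ge hs y y'
  have h2 : (1 : ℝ) / 2 ≤ |1 + s * ((y : ℝ) + y' - 1)| := h.trans (le_abs_self _)
  nlinarith [abs_nonneg ((y : ℝ) - y')]

theorem FI_strictMono {s : ℝ} (hs : |s| ≤ 1 / 2) {y y' : I} (h : y < y') : FI s y < FI s y' := by
  rw [← Subtype.coe_lt_coe, FI_coe hs, FI_coe hs]
  have h1 := Fr_sub s (y' : ℝ) y
  have h2 := slope_ge hs y' y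
  have h3 : (0 : ℝ) < (y' : ℝ) - y := sub_pos.2 (Subtype.coe_lt_coe.2 h)
  nlinarith [mul_pos h3 (lt_of_lt_of_le (by norm_num : (0 : ℝ) < 1 / 2) h2)]

theorem FI_injective {s : ℝ} (hs : |s| ≤ 1 / 2) : Injective (FI s) := by
  intro y y' h
  rcases lt_trichotomy y y' with h1 | h1 | h1
  · exact absurd h (FI_strictMono hs h1).ne
  · exact h1
  · exact absurd h (FI_strictMono hs h1).ne'

theorem GI_FI {s : ℝ} (hs : |s| ≤ 1 / 2) (y : I) : GI s (FI s y) = y :=
  FI_injective hs (FI_GI hs _)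

theorem GI_le_iff {s : ℝ} (hs : |s| ≤ 1 / 2) (u a : I) : GI s u ≤ a ↔ u ≤ FI s a := by
  constructor
  · intro h
    rcases h.eq_or_lt with h | h
    · rw [← h, FI_GI hs]
    · have := FI_strictMono hs h
      rw [FI_GI hs] at this
      exact this.le
  · intro h
    by_contra hc
    push Not at hc
    have := FI_strictMono hs hc
    rw [FI_GI hs] at this
    exact absurd h (not_le.2 this)

theorem abs_Fr_sub_Fr (s s' : ℝ) (y : I) : |Fr s y - Fr s' y| ≤ |s - s'| / 4 := by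
  have h : Fr s y - Fr s' y = (s - s') * ((y : ℝ) ^ 2 - y) := by unfold Fr; ring
  rw [h, abs_mul]
  have h2 : |(y : ℝ) ^ 2 - y| ≤ 1 / 4 := by
    rw [abs_le]
    constructor
    · nlinarith [sq_nonneg ((y : ℝ) - 1 / 2)]
    · nlinarith [y.2.1, y.2.2]
  nlinarith [abs_nonneg (s - s')]

theorem abs_FI_sub_FI {s s' : ℝ} (hs : |s| ≤ 1 / 2) (hs' : |s'| ≤ 1 / 2) (y : I) :
    |(FI s y : ℝ) - FI s' y| ≤ |s - s'| / 4 := by
  rw [FI_coe hs, FI_coe hs']
  exact abs_Fr_sub_Fr s s' y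

theorem abs_GI_sub_GI {s s' : ℝ} (hs : |s| ≤ 1 / 2) (hs' : |s'| ≤ 1 / 2) (u u' : I) :
    |(GI s u : ℝ) - GI s' u'| ≤ 2 * |(u : ℝ) - u'| + |s - s'| / 2 := by
  have h1 := abs_sub_le_Fr hs (GI s u) (GI s' u')
  have h2 : Fr s (GI s u) = u := by rw [GI_coe hs, Fr_Gr hs]
  have h3 : Fr s' (GI s' u') = u' := by rw [GI_coe hs', Fr_Gr hs']
  have h4 := abs_Fr_sub_Fr s s' (GI s' u')
  have h5 : Fr s (GI s u) - Fr s (GI s' u')
      = ((u : ℝ) - u') - (Fr s (GI s' u') - Fr s' (GI s' u')) := by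
    rw [h2, h3]; ring
  rw [h5] at h1
  have h6 := abs_sub ((u : ℝ) - u') (Fr s (GI s' u') - Fr s' (GI s' u'))
  linarith

theorem measurable_FI : Measurable fun q : ℝ × I => FI q.1 q.2 := by
  unfold FI Fr
  have h1 : Measurable (Set.projIcc (0 : ℝ) 1 zero_le_one) := continuous_projIcc.measurable
  apply h1.comp
  fun_prop

theorem measurable_GI : Measurable fun q : ℝ × I => GI q.1 q.2 := by
  unfold GI Gr
  have h1 : Measurable (Set.projIcc (0 : ℝ) 1 zero_le_one) := continuous_projIcc.measurable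
  apply h1.comp
  fun_prop

theorem measurable_GI_right (s : ℝ) : Measurable (GI s) :=
  measurable_GI.comp (measurable_const.prodMk measurable_id)

theorem lintegral_Iic_density {s : ℝ} (hs : |s| ≤ 1 / 2) (a : I) :
    ∫⁻ y : I in Iic a, ENNReal.ofReal (1 + s * phi y) = ENNReal.ofReal (Fr s a) := by
  have h1 : (Iic a : Set I) = Subtype.val ⁻¹' (Iic (a : ℝ)) := by
    ext y; simp
  simp_rw [phi_eq]
  rw [h1, unitInterval.measurePreserving_coe.setLIntegral_comp_preimage_emb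
    unitInterval.measurableEmbedding_coe (fun x : ℝ => ENNReal.ofReal (1 + s * phiR x)),
    Measure.restrict_restrict measurableSet_Iic]
  have h2 : (Iic (a : ℝ) ∩ I : Set ℝ) = Icc 0 (a : ℝ) := by
    ext x
    simp only [mem_inter_iff, mem_Iic, mem_Icc]
    constructor
    · rintro ⟨h, h0, h1⟩; exact ⟨h0, h⟩
    · rintro ⟨h0, h⟩; exact ⟨h, h0, h.trans a.2.2⟩
  rw [h2, ← ofReal_integral_eq_lintegral_ofReal]
  · congr 1
    rw [integral_Icc_eq_integral_Ioc, ← intervalIntegral.integral_of_le a.2.1]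
    unfold phiR Fr
    have : ∀ x ∈ uIcc (0 : ℝ) a, HasDerivAt (fun y : ℝ => (1 - s) * y + s * y ^ 2)
        (1 + s * (2 * x - 1)) x := by
      intro x _
      have h4 := ((hasDerivAt_id' x).const_mul (1 - s)).add
        ((hasDerivAt_pow 2 x).const_mul s)
      refine h4.congr_deriv ?_
      norm_num
      ring
    rw [intervalIntegral.integral_eq_sub_of_hasDerivAt this
      (by apply Continuous.intervalIntegrable; fun_prop)]
    ring
  · have : Continuous fun x : ℝ => 1 + s * phiR x := by unfold phiR; fun_prop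
    exact this.continuousOn.integrableOn_Icc
  · refine (ae_restrict_iff' measurableSet_Icc).2 (Filter.Eventually.of_forall fun x hx => ?_)
    have h3 : |phiR x| ≤ 1 := phi_abs_le ⟨x, hx.1, hx.2.trans a.2.2⟩
    have h4 : |s * phiR x| ≤ 1 / 2 := by
      rw [abs_mul]
      calc |s| * |phiR x| ≤ (1 / 2) * 1 := mul_le_mul hs h3 (abs_nonneg _) (by norm_num)
        _ = 1 / 2 := by ring
    have := (abs_le.1 h4).1
    show (0 : ℝ) ≤ 1 + s * phiR x
    linarith

/-- The law of `GI s U` has density `1 + s * phi`. -/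
theorem map_GI {s : ℝ} (hs : |s| ≤ 1 / 2) :
    (volume : Measure I).map (GI s)
      = (volume : Measure I).withDensity (fun y => ENNReal.ofReal (1 + s * phi y)) := by
  have : IsProbabilityMeasure ((volume : Measure I).map (GI s)) :=
    Measure.isProbabilityMeasure_map (measurable_GI_right s).aemeasurable
  refine Measure.ext_of_Iic _ _ fun a => ?_
  rw [Measure.map_apply (measurable_GI_right s) measurableSet_Iic,
    withDensity_apply _ measurableSet_Iic, lintegral_Iic_density hs]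
  have h1 : GI s ⁻¹' (Iic a) = Iic (FI s a) := by
    ext u
    exact GI_le_iff hs u a
  rw [h1, unitInterval.volume_Iic, FI_coe hs]

/-- Change of variables. -/
theorem lintegral_GI {s : ℝ} (hs : |s| ≤ 1 / 2) {g : I → ℝ≥0∞} (hg : Measurable g) :
    ∫⁻ t : I, g (GI s t) = ∫⁻ y : I, g y * ENNReal.ofReal (1 + s * phi y) := by
  rw [← lintegral_map hg (measurable_GI_right s), map_GI hs,
    lintegral_withDensity_eq_lintegral_mul _ _ hg]
  · congr 1
    ext y
    simp [mul_comm]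
  · exact (measurable_const.add (measurable_const.mul phi_measurable')).ennreal_ofReal

/-- The mean of `phi` is zero. -/
theorem integral_phi : ∫ t : I, phi t = 0 := by
  have h1 : ∫ t : I, phi t = ∫ x, phiR x ∂((volume : Measure ℝ).restrict I) :=
    unitInterval.measurePreserving_coe.integral_comp unitInterval.measurableEmbedding_coe phiR
  rw [h1, integral_Icc_eq_integral_Ioc, ← intervalIntegral.integral_of_le zero_le_one]
  unfold phiR
  have : ∀ x ∈ uIcc (0 : ℝ) 1, HasDerivAt (fun y : ℝ => y ^ 2 - y) (2 * x - 1) x := by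
    intro x _
    have h4 := (hasDerivAt_pow 2 x).sub (hasDerivAt_id' x)
    refine h4.congr_deriv ?_
    norm_num
  rw [intervalIntegral.integral_eq_sub_of_hasDerivAt this
      (by apply Continuous.intervalIntegrable; fun_prop)]
  norm_num

theorem integral_add_phi (a b : ℝ) : ∫ t : I, (a + phi t * b) = a := by
  rw [integral_add (integrable_const _) ((integrable_of_bdd' phi_measurable' phi_abs_le).mul_const
    _), integral_mul_const b (fun t : I => phi t), integral_phi]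
  simp

end Vale.Agent.IsingFIID
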