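import Vale.Agent.IsingFIID.ObsDefs
import Vale.Agent.IsingFIID.OneDim

/-!
# P161, recovery of the spins from infinitely many observations
-/

open MeasureTheory Filter Topology ProbabilityTheory

namespace Vale.Agent.IsingFIID

variable {V : Type*}

theorem measurable_obs (h : ℝ) :
    Measurable (fun p : (V → Bool) × (V × ℕ → unitInterval) => obs h p.1 p.2) := by
  refine measurable_pi_iff.2 fun i => ?_
  have h1 : Measurable fun p : (V → Bool) × (V × ℕ → unitInterval) => spin (p.1 i.1) :=
    (measurable_of_finite spin).comp ((measurable_pi_apply i.1).comp measurable_fst)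
  have h2 : Measurable fun p : (V → Bool) × (V × ℕ → unitInterval) => p.2 i :=
    (measurable_pi_apply i).comp measurable_snd
  exact measurable_GI.comp ((h1.const_mul h).prodMk h2)

theorem measurable_recover :
    Measurable (recover : (V × ℕ → unitInterval) → V → Bool) := by
  refine measurable_pi_iff.2 fun v => ?_
  have h1 : ∀ K : ℕ, Measurable fun y : V × ℕ → unitInterval =>
      (∑ k ∈ Finset.range K, phi (y (v, k))) / K := fun K =>
    (Finset.measurable_fun_sum _ fun k _ =>
      phi_measurable'.comp (measurable_pi_apply ((v, k) : V × ℕ))).div_const _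
  have h2 : Measurable fun y : V × ℕ → unitInterval =>
      limsup (fun K : ℕ => (∑ k ∈ Finset.range K, phi (y (v, k))) / K) atTop := Measurable.limsup h1
  have h3 : MeasurableSet {y : V × ℕ → unitInterval |
      0 < limsup (fun K : ℕ => (∑ k ∈ Finset.range K, phi (y (v, k))) / K) atTop} :=
    measurableSet_lt measurable_const h2
  unfold recover
  exact measurable_to_bool (by
    convert h3 using 1
    ext y
    simp)

/-- The second moment of `phi`. -/
theorem integral_phi_sq : ∫ t : unitInterval, phi t ^ 2 = 1 / 3 := by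
  have h1 : ∫ t : unitInterval, phi t ^ 2
      = ∫ x, (phiR x) ^ 2 ∂((volume : Measure ℝ).restrict unitInterval) :=
    unitInterval.measurePreserving_coe.integral_comp unitInterval.measurableEmbedding_coe
      (fun x : ℝ => phiR x ^ 2)
  rw [h1, integral_Icc_eq_integral_Ioc, ← intervalIntegral.integral_of_le zero_le_one]
  unfold phiR
  have : ∀ x ∈ Set.uIcc (0 : ℝ) 1, HasDerivAt (fun y : ℝ => (4 / 3) * y ^ 3 - 2 * y ^ 2 + y)
      ((2 * x - 1) ^ 2) x := by
    intro x _
    have h4 := (((hasDerivAt_pow 3 x).const_mul (4 / 3)).sub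
      ((hasDerivAt_pow 2 x).const_mul 2)).add (hasDerivAt_id' x)
    refine h4.congr_deriv ?_
    norm_num
    ring
  rw [intervalIntegral.integral_eq_sub_of_hasDerivAt this
      (by apply Continuous.intervalIntegrable; fun_prop)]
  norm_num

/-- The mean of one observation. -/
theorem integral_phi_GI {s : ℝ} (hs : |s| ≤ 1 / 2) :
    ∫ t : unitInterval, phi (GI s t) = s / 3 := by
  have h0 : ∫ t : unitInterval, phi (GI s t)
      = ∫ y, phi y ∂((volume : Measure unitInterval).map (GI s)) :=
    (integral_map (measurable_GI_right s).aemeasurable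
      phi_measurable'.aestronglyMeasurable).symm
  have hm : Measurable fun y : unitInterval => ENNReal.ofReal (1 + s * phi y) :=
    (measurable_const.add (measurable_const.mul phi_measurable')).ennreal_ofReal
  have hpos : ∀ y : unitInterval, 0 ≤ 1 + s * phi y := fun y => by
    have h3 : |s * phi y| ≤ 1 / 2 := by
      rw [abs_mul]
      calc |s| * |phi y| ≤ (1 / 2) * 1 :=
            mul_le_mul hs (phi_abs_le y) (abs_nonneg _) (by norm_num)
        _ = 1 / 2 := by ring
    have := (abs_le.1 h3).1
    linarith
  rw [h0, map_GI hs, integral_withDensity_eq_integral_toReal_smul hm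
    (Filter.Eventually.of_forall fun _ => ENNReal.ofReal_lt_top)]
  have h1 : ∀ y : unitInterval, (ENNReal.ofReal (1 + s * phi y)).toReal • phi y
      = phi y + s * phi y ^ 2 := fun y => by
    rw [ENNReal.toReal_ofReal (hpos y), smul_eq_mul]; ring
  simp_rw [h1]
  have i1 : Integrable (fun y : unitInterval => phi y) :=
    integrable_of_bdd' phi_measurable' phi_abs_le
  have i2 : Integrable (fun y : unitInterval => phi y ^ 2) :=
    integrable_of_bdd' (phi_measurable'.pow_const 2) (C := 1) fun y => by
      rw [abs_pow]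
      exact pow_le_one₀ (abs_nonneg _) (phi_abs_le y)
  rw [integral_add i1 (i2.const_mul s), integral_const_mul, integral_phi, integral_phi_sq]
  ring

/-- Law of large numbers for the observations of one spin. -/
theorem lln_obs {s : ℝ} (hs : |s| ≤ 1 / 2) (v : V) :
    ∀ᵐ U ∂(unif (V × ℕ)), Tendsto (fun K : ℕ =>
      (∑ k ∈ Finset.range K, phi (GI s (U (v, k)))) / K) atTop (𝓝 (s / 3)) := by
  set X : ℕ → (V × ℕ → unitInterval) → ℝ := fun k U => phi (GI s (U (v, k))) with hX
  have hg : Measurable fun t : unitInterval => phi (GI s t) :=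
    phi_measurable'.comp (measurable_GI_right s)
  have hXm : ∀ k, Measurable (X k) := fun k => hg.comp (measurable_pi_apply _)
  have hint : Integrable (X 0) (unif (V × ℕ)) :=
    integrable_of_bdd (hXm 0) (C := 1) fun U => phi_abs_le _
  have hind : Pairwise fun i j => IndepFun (X i) (X j) (unif (V × ℕ)) := by
    have h1 : iIndepFun (fun (i : V × ℕ) (U : V × ℕ → unitInterval) => phi (GI s (U i)))
        (Measure.infinitePi fun _ : V × ℕ => (volume : Measure unitInterval)) :=
      iIndepFun_infinitePi (X := fun (_ : V × ℕ) (t : unitInterval) => phi (GI s t))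
        (fun _ => hg)
    intro i j hij
    have h2 : ((v, i) : V × ℕ) ≠ (v, j) := fun h => hij (by simpa using h)
    exact h1.indepFun h2
  have hident : ∀ i, IdentDistrib (X i) (X 0) (unif (V × ℕ)) (unif (V × ℕ)) := by
    intro i
    have h1 : ∀ k : ℕ, (unif (V × ℕ)).map (fun U => U (v, k))
        = (volume : Measure unitInterval) := fun k => by
      unfold unif; exact Measure.infinitePi_map_eval _ _
    have h2 : IdentDistrib (fun U : V × ℕ → unitInterval => U (v, i)) (fun U => U (v, 0))
        (unif (V × ℕ)) (unif (V × ℕ)) :=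
      ⟨(measurable_pi_apply _).aemeasurable, (measurable_pi_apply _).aemeasurable, by
        rw [h1, h1]⟩
    exact h2.comp hg
  have hlln := strong_law_ae_real X hint hind hident
  have hmean : ∫ U, X 0 U ∂(unif (V × ℕ)) = s / 3 := by
    rw [← integral_phi_GI hs]
    have h1 : (unif (V × ℕ)).map (fun U => U (v, 0)) = (volume : Measure unitInterval) := by
      unfold unif; exact Measure.infinitePi_map_eval _ _
    rw [← h1, integral_map (measurable_pi_apply ((v, 0) : V × ℕ)).aemeasurable
      hg.aestronglyMeasurable]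
  rw [hmean] at hlln
  exact hlln

/-- Almost surely, the spins are recovered from the observations, whatever the spins. -/
theorem recover_obs_all [Countable V] {h : ℝ} (hh : 0 < h) (hh1 : h ≤ 1 / 2) :
    ∀ᵐ U ∂(unif (V × ℕ)), ∀ σ : V → Bool, recover (obs h σ U) = σ := by
  have hs1 : |h| ≤ 1 / 2 := by rw [abs_of_pos hh]; exact hh1
  have hs2 : |-h| ≤ 1 / 2 := by rw [abs_neg]; exact hs1
  have h1 : ∀ᵐ U ∂(unif (V × ℕ)), ∀ v : V, Tendsto (fun K : ℕ =>
      (∑ k ∈ Finset.range K, phi (GI h (U (v, k)))) / K) atTop (𝓝 (h / 3)) :=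
    ae_all_iff.2 fun v => lln_obs hs1 v
  have h2 : ∀ᵐ U ∂(unif (V × ℕ)), ∀ v : V, Tendsto (fun K : ℕ =>
      (∑ k ∈ Finset.range K, phi (GI (-h) (U (v, k)))) / K) atTop (𝓝 ((-h) / 3)) :=
    ae_all_iff.2 fun v => lln_obs hs2 v
  filter_upwards [h1, h2] with U h1 h2 σ
  funext v
  unfold recover obs
  cases hσ : σ v with
  | true =>
    have h3 : (fun K : ℕ => (∑ k ∈ Finset.range K,
        phi (GI (h * spin (σ (v, k).1)) (U (v, k)))) / (K : ℝ))
        = fun K : ℕ => (∑ k ∈ Finset.range K, phi (GI h (U (v, k)))) / (K : ℝ) := by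
      funext K
      simp [spin, hσ]
    rw [h3, (h1 v).limsup_eq]
    simpa using hh
  | false =>
    have h3 : (fun K : ℕ => (∑ k ∈ Finset.range K,
        phi (GI (h * spin (σ (v, k).1)) (U (v, k)))) / (K : ℝ))
        = fun K : ℕ => (∑ k ∈ Finset.range K, phi (GI (-h) (U (v, k)))) / (K : ℝ) := by
      funext K
      simp [spin, hσ]
    rw [h3, (h2 v).limsup_eq]
    simp only [decide_eq_false_iff_not, not_lt]
    linarith

theorem recover_obs_ae [Countable V] {h : ℝ} (hh : 0 < h) (hh1 : h ≤ 1 / 2)
    (μ : Measure (V → Bool)) [IsProbabilityMeasure μ] :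
    ∀ᵐ p ∂(μ.prod (unif (V × ℕ))), recover (obs h p.1 p.2) = p.1 := by
  have h1 := recover_obs_all (V := V) hh hh1
  have h2 := (Measure.quasiMeasurePreserving_snd (μ := μ) (ν := unif (V × ℕ))).ae h1
  filter_upwards [h2] with p hp
  exact hp p.1

end Vale.Agent.IsingFIID
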