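import Vale.Agent.IsingFIID.Bridge

/-!
# Uniqueness and invariance of the free Ising measure (P161 part (a))
-/

namespace Vale.Agent.IsingFIID

open SimpleGraph MeasureTheory

variable {V : Type*}

/-- Two free Ising measures with the same parameter agree. -/
theorem IsFreeIsing.unique {G : SimpleGraph V} (hG : G.IsTree) {θ : ℝ} {μ ν : Measure (V → Bool)}
    (hμ : IsFreeIsing G θ μ) (hν : IsFreeIsing G θ ν) : μ = ν := by
  classical
  have := hμ.prob
  have := hν.prob
  have hmeas : ∀ I : Finset V, Measurable (I.restrict (π := fun _ => Bool)) :=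
    fun I => Finset.measurable_restrict I
  -- equality of the marginals on connected sets
  have hconn : ∀ D : Finset V, (G.induce (D : Set V)).Connected →
      μ.map D.restrict = ν.map D.restrict := by
    intro D hD
    refine Measure.ext_of_singleton fun η => ?_
    rw [Measure.map_apply (hmeas D) (measurableSet_singleton _),
      Measure.map_apply (hmeas D) (measurableSet_singleton _)]
    set η' : V → Bool := fun v => if h : v ∈ D then η ⟨v, h⟩ else false with hη'
    have hset : (D.restrict (π := fun _ : V => Bool)) ⁻¹' {η} = {σ : V → Bool | ∀ v ∈ D, σ v = η' v} := by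
      ext σ
      simp only [Set.mem_preimage, Set.mem_singleton_iff, Set.mem_ofPred_eq]
      constructor
      · intro h v hv
        have := congrFun h ⟨v, hv⟩
        simp only [Finset.restrict] at this
        rw [this, hη']
        simp [hv]
      · intro h
        ext ⟨v, hv⟩
        simp only [Finset.restrict]
        rw [h v hv, hη']
        simp [hv]
    rw [hset]
    have h1 := hμ.marginal D hD η'
    have h2 := hν.marginal D hD η'
    have h3 := h1.trans h2.symm
    rw [measureReal_def, measureReal_def] at h3
    exact (ENNReal.toReal_eq_toReal_iff' (measure_ne_top _ _) (measure_ne_top _ _)).1 h3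
  have hproj : ∀ I : Finset V, μ.map I.restrict = ν.map I.restrict := by
    intro I
    obtain ⟨o⟩ := hG.connected.nonempty
    obtain ⟨D, hsub, hD⟩ := extend_finset_to_connected hG.connected.preconnected
      (t := insert o I) ⟨o, Finset.mem_insert_self _ _⟩
    have hID : I ⊆ D := (Finset.subset_insert _ _).trans hsub
    have e : (I.restrict (π := fun _ => Bool))
        = (Finset.restrict₂ (π := fun _ => Bool) hID) ∘ (D.restrict (π := fun _ => Bool)) := rfl
    have hr : Measurable (Finset.restrict₂ (π := fun _ : V => Bool) hID) :=
      Finset.measurable_restrict₂ hID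
    rw [e, ← Measure.map_map hr (hmeas D), ← Measure.map_map hr (hmeas D), hconn D hD]
  have hμP : IsProjectiveLimit μ (fun I : Finset V => μ.map I.restrict) := fun I => rfl
  have hνP : IsProjectiveLimit ν (fun I : Finset V => μ.map I.restrict) := fun I =>
    (hproj I).symm
  have : ∀ I : Finset V, IsFiniteMeasure (μ.map (I.restrict (π := fun _ => Bool))) := fun I => by
    have : IsProbabilityMeasure (μ.map (I.restrict (π := fun _ => Bool))) :=
      Measure.isProbabilityMeasure_map (hmeas I).aemeasurable
    infer_instance
  exact hμP.unique hνP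

/-- Invariance of a free Ising measure under automorphisms. -/
theorem IsFreeIsing.map_iso {G : SimpleGraph V} (hG : G.IsTree) {θ : ℝ} {μ : Measure (V → Bool)}
    (hμ : IsFreeIsing G θ μ) (g : G ≃g G) :
    μ.map (fun σ v => σ (g.symm v)) = μ := by
  classical
  have := hμ.prob
  have hT : Measurable (fun (σ : V → Bool) v => σ (g.symm v)) := by
    refine measurable_pi_lambda _ fun v => measurable_pi_apply _
  refine IsFreeIsing.unique hG (θ := θ) ⟨Measure.isProbabilityMeasure_map hT.aemeasurable, ?_⟩ hμ
  intro D hD η
  have hmeas : MeasurableSet {σ : V → Bool | ∀ v ∈ D, σ v = η v} := by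
    have : {σ : V → Bool | ∀ v ∈ D, σ v = η v} = ⋂ v ∈ D, {σ : V → Bool | σ v = η v} := by
      ext σ; simp
    rw [this]
    exact Finset.measurableSet_biInter _ fun v _ =>
      (measurable_pi_apply v) (measurableSet_singleton _)
  rw [map_measureReal_apply hT hmeas]
  set E : Finset V := D.image g.symm with hE
  have hset : (fun (σ : V → Bool) v => σ (g.symm v)) ⁻¹' {σ : V → Bool | ∀ v ∈ D, σ v = η v}
      = {σ : V → Bool | ∀ v ∈ E, σ v = η (g v)} := by
    ext σ
    simp only [Set.mem_preimage, Set.mem_ofPred_eq, hE, Finset.mem_image]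
    constructor
    · rintro h _ ⟨w, hw, rfl⟩
      rw [h w hw]
      simp
    · intro h v hv
      rw [h (g.symm v) ⟨v, hv, rfl⟩]
      simp
  rw [hset]
  have hconn : (G.induce (E : Set V)).Connected := by
    let f : G.induce (D : Set V) →g G.induce (E : Set V) :=
      { toFun := fun x => ⟨g.symm x.1, by
          rw [Finset.mem_coe, hE]
          exact Finset.mem_image_of_mem _ (by exact_mod_cast x.2)⟩
        map_rel' := by
          intro a b hab
          rw [comap_adj] at hab ⊢
          exact g.symm.map_adj_iff.2 hab }
    refine hD.map f ?_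
    rintro ⟨w, hw⟩
    rw [Finset.mem_coe, hE, Finset.mem_image] at hw
    obtain ⟨v, hv, rfl⟩ := hw
    exact ⟨⟨v, by exact_mod_cast hv⟩, rfl⟩
  rw [hμ.marginal E hconn (fun v => η (g v))]
  congr 1
  symm
  refine Finset.prod_bij' (fun e _ => e.map g.symm) (fun e _ => e.map g) ?_ ?_ ?_ ?_ ?_
  · intro e he
    induction e using Sym2.ind with
    | _ u v =>
      rw [mem_edgesIn] at he
      rw [Sym2.map_mk, mem_edgesIn, hE]
      exact ⟨Finset.mem_image_of_mem _ he.1, Finset.mem_image_of_mem _ he.2.1,
        g.symm.map_adj_iff.2 he.2.2⟩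
  · intro e he
    induction e using Sym2.ind with
    | _ u v =>
      rw [mem_edgesIn, hE, Finset.mem_image, Finset.mem_image] at he
      obtain ⟨⟨a, ha, rfl⟩, ⟨b, hb, rfl⟩, hab⟩ := he
      rw [Sym2.map_mk, mem_edgesIn]
      simp only [RelIso.apply_symm_apply]
      exact ⟨ha, hb, g.symm.map_adj_iff.1 hab⟩
  · intro e _
    induction e using Sym2.ind with
    | _ u v => simp
  · intro e _
    induction e using Sym2.ind with
    | _ u v => simp
  · intro e _
    induction e using Sym2.ind with
    | _ u v => simp [bond]

end Vale.Agent.IsingFIID
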