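import Vale.Agent.IsingFIID.LimitLaw
import Vale.Agent.IsingFIID.Labels
import Vale.Agent.IsingFIID.Unique
import Vale.Agent.IsingFIID.Bridge
import Vale.Agent.IsingFIID.Recover
import Vale.Agent.IsingFIID.Exists

/-!
# P161, assembly
-/

open MeasureTheory Filter Function Topology

namespace Vale.Agent.IsingFIID

set_option linter.unusedSectionVars false

variable {V : Type*} [DecidableEq V]

section equivariance

variable (G : SimpleGraph V) [G.LocallyFinite] (hG : G.IsTree) {μ : Measure (V → Bool)}
  {h : ℝ} {N : ℕ → ℕ → ℕ} (g : G ≃g G)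

include hG in
theorem dist_iso_le (g : G ≃g G) (u v : V) : G.dist (g u) (g v) ≤ G.dist u v := by
  obtain ⟨p, hp⟩ := hG.connected.exists_walk_length_eq_dist u v
  rw [← hp]
  refine (SimpleGraph.dist_le (p.map g.toHom)).trans (le_of_eq ?_)
  exact SimpleGraph.Walk.length_map _ _

include hG in
theorem dist_iso (g : G ≃g G) (u v : V) : G.dist (g u) (g v) = G.dist u v := by
  refine le_antisymm (dist_iso_le G hG g u v) ?_
  have := dist_iso_le G hG g.symm (g u) (g v)
  simpa using this

include hG in
theorem locJ_act (j : ℕ) (i : V × ℕ) :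
    locJ G N j (actI g.toEquiv i) = (locJ G N j i).map (actI g.toEquiv).toEmbedding := by
  ext x
  rw [Finset.mem_map_equiv]
  unfold locJ
  rw [mem_ballJ G hG, mem_ballJ G hG]
  obtain ⟨x, rfl⟩ := (actI g.toEquiv).surjective x
  rw [Equiv.symm_apply_apply]
  simp only [actI_apply]
  have : G.dist (g.toEquiv i.1) (g.toEquiv x.1) = G.dist i.1 x.1 := dist_iso G hG g _ _
  rw [this]

include hG in
theorem Psi_act (hμ : μ.map (fun σ v => σ (g.symm v)) = μ) (s : V → unitInterval)
    (U : V × ℕ → unitInterval) (i : V × ℕ) :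
    Psi G μ h N (fun v => s (g.symm v)) (fun i => U (g.symm i.1, i.2)) i =
      Psi G μ h N s U (g.symm i.1, i.2) := by
  unfold Psi
  congr 1
  funext j
  unfold appr
  obtain ⟨i, rfl⟩ := (actI g.toEquiv).surjective i
  rw [locJ_act G hG g]
  have h1 := psol_act (g := g.toEquiv) (μ := μ) hμ h GI (locJ G N j i) s U i
  have e1 : (fun i : V × ℕ => U ((actI g.toEquiv).symm i)) =
      fun i => U (g.symm i.1, i.2) := rfl
  have e2 : ((g.symm (actI g.toEquiv i).1, (actI g.toEquiv i).2) : V × ℕ) = i := by
    simp [actI_apply]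
  rw [e2]
  exact h1

end equivariance

section law

variable (G : SimpleGraph V) [G.LocallyFinite] (hG : G.IsTree) (μ : Measure (V → Bool))
  [IsProbabilityMeasure μ] {h : ℝ} {N : ℕ → ℕ → ℕ}

theorem measurable_Psi :
    Measurable fun p : (V → unitInterval) × (V × ℕ → unitInterval) => Psi G μ h N p.1 p.2 := by
  rw [measurable_pi_iff]
  intro i
  apply Measurable.limsup
  intro j
  have h0 : Measurable (uncurry GI) := measurable_GI
  exact measurable_pi_iff.1 (measurable_psol h0 μ h (locJ G N j i)) i

theorem map_prod_of_ae {α β γ : Type*} [MeasurableSpace α] [MeasurableSpace β]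
    [MeasurableSpace γ] (P : Measure α) (Q : Measure β) [IsProbabilityMeasure P]
    [IsProbabilityMeasure Q] {F : α × β → γ} (hF : Measurable F) (ν : Measure γ)
    (h : ∀ᵐ a ∂P, Q.map (fun b => F (a, b)) = ν) : (P.prod Q).map F = ν := by
  ext B hB
  rw [Measure.map_apply hF hB, Measure.prod_apply (hF hB)]
  have : ∀ᵐ a ∂P, Q (Prod.mk a ⁻¹' (F ⁻¹' B)) = ν B := by
    filter_upwards [h] with a ha
    have hm : Measurable fun b => F (a, b) := hF.comp measurable_prodMk_left
    rw [← ha, Measure.map_apply hm hB]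
    rfl
  rw [lintegral_congr_ae this, lintegral_const, measure_univ, mul_one]

/-- Time labels and uniform variables decoded from the vertex labels. -/
noncomputable def decode (lab : unitInterval → unitInterval × (ℕ → unitInterval))
    (x : V → unitInterval) : (V → unitInterval) × (V × ℕ → unitInterval) :=
  ((fun v => (lab (x v)).1), (fun i : V × ℕ => (lab (x i.1)).2 i.2))

theorem measurable_decode {lab : unitInterval → unitInterval × (ℕ → unitInterval)}
    (hlab : Measurable lab) : Measurable (decode (V := V) lab) := by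
  apply Measurable.prodMk
  · exact measurable_pi_lambda _ fun v =>
      measurable_fst.comp (hlab.comp (measurable_pi_apply v))
  · exact measurable_pi_lambda _ fun i =>
      (measurable_pi_apply i.2).comp (measurable_snd.comp (hlab.comp (measurable_pi_apply i.1)))

instance : IsProbabilityMeasure (unif V) := by unfold unif; infer_instance

include hG in
theorem isFactorOfIID_of_conv [Countable V] (hμinv : ∀ g : G ≃g G,
      μ.map (fun σ v => σ (g.symm v)) = μ)
    (hh : 0 < h) (hh1 : h ≤ 1 / 2) {c : V → V → ℝ}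
    (hc0 : ∀ u w, 0 ≤ c u w) (hc : CovBound μ h c) (hN : ∀ k, Monotone (N k))
    (hconv : ∀ (k j : ℕ) (v : V) (n : ℕ), N k j ≤ n → ∀ (J' : Finset (V × ℕ)),
      ballJ G v n k ⊆ J' → ∀ s : V → unitInterval, Injective s →
        ∫ U, |(psol GI μ h (ballJ G v n k) s U (v, k) : ℝ) - psol GI μ h J' s U (v, k)|
          ∂(unif (V × ℕ)) ≤ (1 / 2) ^ j) :
    IsFactorOfIID G μ := by
  obtain ⟨lab, hlab, hmap⟩ := exists_labels V
  have hmP : Measurable fun p : (V → unitInterval) × (V × ℕ → unitInterval) =>
    Psi G μ h N p.1 p.2 := measurable_Psi G μ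
  have hmR : Measurable (recover : (V × ℕ → unitInterval) → V → Bool) := measurable_recover
  have hmD := measurable_decode (V := V) hlab
  refine ⟨fun x => recover (Psi G μ h N (decode lab x).1 (decode lab x).2), ?_, ?_, ?_⟩
  · exact hmR.comp (hmP.comp hmD)
  · intro g
    refine Eventually.of_forall fun x => ?_
    funext v
    have h1 : ∀ i : V × ℕ, Psi G μ h N (decode lab fun v => x (g.symm v)).1
        (decode lab fun v => x (g.symm v)).2 i =
        Psi G μ h N (decode lab x).1 (decode lab x).2 (g.symm i.1, i.2) := fun i =>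
      Psi_act G hG g (hμinv g) (decode lab x).1 (decode lab x).2 i
    simp only [recover, h1]
  · have h1 : (unif V).map (fun x => recover (Psi G μ h N (decode lab x).1 (decode lab x).2)) =
        (((unif V).prod (unif (V × ℕ))).map
          (fun p : (V → unitInterval) × (V × ℕ → unitInterval) => Psi G μ h N p.1 p.2)).map
            recover := by
      rw [Measure.map_map hmR hmP]
      have : (unif V).map (decode lab) = (unif V).prod (unif (V × ℕ)) := hmap
      rw [← this, Measure.map_map (hmR.comp hmP) hmD]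
      rfl
    have h2 : ((unif V).prod (unif (V × ℕ))).map
        (fun p : (V → unitInterval) × (V × ℕ → unitInterval) => Psi G μ h N p.1 p.2) =
        (μ.prod (unif (V × ℕ))).map (fun p => obs h p.1 p.2) := by
      apply map_prod_of_ae _ _ hmP
      filter_upwards [ae_injective (V := V)] with s hs
      exact map_Psi G hG μ hh.le hh1 hc0 hc hN hconv hs
    have hmO : Measurable fun p : (V → Bool) × (V × ℕ → unitInterval) => obs h p.1 p.2 :=
      measurable_obs' h
    rw [h1, h2, Measure.map_map hmR hmO]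
    have h3 : (recover ∘ fun p : (V → Bool) × (V × ℕ → unitInterval) => obs h p.1 p.2)
        =ᵐ[μ.prod (unif (V × ℕ))] Prod.fst := recover_obs_ae hh hh1 μ
    rw [Measure.map_congr h3, Measure.map_fst_prod, measure_univ, one_smul]

end law

/-- The free Ising measure with `(d - 1) θ² < 1` is a factor of iid. -/
theorem isFactorOfIID_of_isFreeIsing (G : SimpleGraph V) [G.LocallyFinite] (hG : G.IsTree)
    {d : ℕ} (hd : 3 ≤ d) (hreg : G.IsRegularOfDegree d) {θ : ℝ} (h0 : 0 ≤ θ)
    (hθ : ((d : ℝ) - 1) * θ ^ 2 < 1) {μ : Measure (V → Bool)} (hμ : IsFreeIsing G θ μ) :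
    IsFactorOfIID G μ := by
  have := hμ.prob
  have hcount : Countable V := countable_of_connected G hG.connected
  have hd' : (3 : ℝ) ≤ d := by exact_mod_cast hd
  have hθ1 : θ < 1 := by
    by_contra hcon
    push Not at hcon
    have : 1 ≤ θ ^ 2 := one_le_pow₀ hcon
    nlinarith
  -- choice of `lam`
  obtain ⟨lam, hlam1, hlam2⟩ : ∃ lam : ℝ, θ < lam ∧ ((d : ℝ) - 1) * lam ^ 2 < 1 := by
    have hcont : ContinuousAt (fun x : ℝ => ((d : ℝ) - 1) * x ^ 2) θ := by fun_prop
    have hev := hcont.eventually (gt_mem_nhds hθ)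
    obtain ⟨δ, hδ, hball⟩ := Metric.eventually_nhds_iff.1 hev
    refine ⟨θ + δ / 2, by linarith, hball ?_⟩
    rw [Real.dist_eq]
    have : θ + δ / 2 - θ = δ / 2 := by ring
    rw [this, abs_of_pos (by linarith)]
    linarith
  obtain ⟨A0, hA0pos, hA0⟩ := tree_conv G hG hd hreg h0 hlam1 hlam2
  -- choice of `h`
  set h : ℝ := 1 / (2 * (1 + 4 * A0)) with hh
  have hpos : 0 < h := by positivity
  have hhalf : h ≤ 1 / 2 := by
    rw [hh]
    apply one_div_le_one_div_of_le (by norm_num)
    linarith
  have hsmall : 16 * h ^ 2 * A0 ≤ 1 := by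
    have e : 16 * h ^ 2 * A0 = 4 * A0 / (1 + 4 * A0) ^ 2 := by
      rw [hh]
      field_simp
      ring
    rw [e, div_le_one (by positivity)]
    nlinarith [sq_nonneg (4 * A0)]
  have hc : CovBound μ h (fun u w => θ ^ G.dist u w) :=
    covBound hG h0 hθ1 hμ hpos.le (by linarith)
  have hloc : ∀ k j : ℕ, ∃ n0 : ℕ, ∀ n, n0 ≤ n → ∀ (v : V) (J' : Finset (V × ℕ)),
      ballJ G v n k ⊆ J' → ∀ s : V → unitInterval, Injective s →
        ∫ U, |(psol GI μ h (ballJ G v n k) s U (v, k) : ℝ) - psol GI μ h J' s U (v, k)|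
          ∂(unif (V × ℕ)) ≤ (1 / 2) ^ j := fun k j =>
    local_conv G hG hd hreg μ hpos.le hhalf h0 hlam1.le hlam2 hc hA0 hsmall k (by positivity)
  choose n0 hn0 using hloc
  refine isFactorOfIID_of_conv G hG μ (N := fun k j => (Finset.range (j + 1)).sup (n0 k))
    (fun g => hμ.map_iso hG g) hpos hhalf (fun u w => pow_nonneg h0 _) hc ?_ ?_
  · intro k j j' hjj'
    exact Finset.sup_mono (Finset.range_mono (by omega))
  · intro k j v n hn J' hJ' s hs
    apply hn0 k j n _ v J' hJ' s hs
    refine le_trans ?_ hn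
    exact Finset.le_sup (f := n0 k) (Finset.mem_range.2 (Nat.lt_succ_self j))

end Vale.Agent.IsingFIID
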