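import Vale.Agent.IsingFIID.Spin

/-!
# The covariance bound on trees with arbitrary external fields (P161 part (a), step (2))
-/

namespace Vale.Agent.IsingFIID

open SimpleGraph

variable {V : Type*} [DecidableEq V] {G : SimpleGraph V} {θ : ℝ}

/-- Weighted sum with single-site weights `g`. -/
noncomputable def Wsum (G : SimpleGraph V) (θ : ℝ) (D : Finset V) (g : V → ℝ → ℝ)
    (f : (V → ℝ) → ℝ) : ℝ :=
  Zsum G θ D (fun η => (∏ v ∈ D, g v (η v)) * f η)

/-- Absorb the leaf `x` into the weight at its neighbour `x'`. -/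
noncomputable def absorb (θ : ℝ) (g : V → ℝ → ℝ) (x x' : V) : V → ℝ → ℝ :=
  Function.update g x'
    (fun s => g x' s * ((1 - θ * s) / 2 * g x (-1) + (1 + θ * s) / 2 * g x 1))

lemma prod_absorb {E : Finset V} {x x' : V} (hx' : x' ∈ E) (g : V → ℝ → ℝ) (η : V → ℝ) :
    ∏ v ∈ E, absorb θ g x x' v (η v) = (∏ v ∈ E, g v (η v)) *
      ((1 - θ * η x') / 2 * g x (-1) + (1 + θ * η x') / 2 * g x 1) := by
  rw [← Finset.mul_prod_erase E _ hx', ← Finset.mul_prod_erase E (fun v => g v (η v)) hx']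
  have : ∏ v ∈ E.erase x', absorb θ g x x' v (η v) = ∏ v ∈ E.erase x', g v (η v) := by
    refine Finset.prod_congr rfl fun v hv => ?_
    rw [absorb, Function.update_of_ne (Finset.ne_of_mem_erase hv)]
  rw [this]
  simp only [absorb, Function.update_self]
  ring

lemma absorb_pos (h0 : 0 ≤ θ) (h1 : θ < 1) {g : V → ℝ → ℝ} (hg : ∀ v, 0 < g v 1 ∧ 0 < g v (-1))
    (x x' : V) : ∀ v, 0 < absorb θ g x x' v 1 ∧ 0 < absorb θ g x x' v (-1) := by
  intro v
  by_cases h : v = x'
  · subst h
    obtain ⟨a1, a2⟩ := hg v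
    obtain ⟨b1, b2⟩ := hg x
    simp only [absorb, Function.update_self]
    constructor
    · apply mul_pos a1
      have := mul_pos (show (0:ℝ) < (1 - θ * 1) / 2 by linarith) b2
      have := mul_pos (show (0:ℝ) < (1 + θ * 1) / 2 by linarith) b1
      linarith
    · apply mul_pos a2
      have := mul_pos (show (0:ℝ) < (1 - θ * (-1)) / 2 by linarith) b2
      have := mul_pos (show (0:ℝ) < (1 + θ * (-1)) / 2 by linarith) b1
      linarith
  · simp only [absorb, Function.update_of_ne h]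
    exact hg v

/-- General expansion of `Wsum` when a leaf is added. -/
lemma Wsum_insert {E : Finset V} {x x' : V} (hx : x ∉ E) (hx' : x' ∈ E) (hadj : G.Adj x x')
    (huniq : ∀ u ∈ E, G.Adj x u → u = x') (g : V → ℝ → ℝ) (f : (V → ℝ) → ℝ) :
    Wsum G θ (insert x E) g f = Zsum G θ E (fun η => (∏ v ∈ E, g v (η v)) *
      ((1 - θ * η x') / 2 * g x (-1) * f (Function.update η x (-1)) +
       (1 + θ * η x') / 2 * g x 1 * f (Function.update η x 1))) := by
  unfold Wsum
  rw [Zsum_insert hx hx' hadj huniq]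
  refine Zsum_congr fun S _ => ?_
  have h : ∀ t : ℝ, ∏ v ∈ insert x E, g v (Function.update (spinF S) x t v)
      = g x t * ∏ v ∈ E, g v (spinF S v) := by
    intro t
    rw [Finset.prod_insert hx, Function.update_self]
    congr 1
    refine Finset.prod_congr rfl fun v hv => ?_
    rw [Function.update_of_ne]
    rintro rfl
    exact hx hv
  rw [h, h]
  ring

lemma update_dep {E : Finset V} {x : V} (hx : x ∉ E) {f : (V → ℝ) → ℝ}
    (hf : DependsOn f (E : Set V)) (η : V → ℝ) (t : ℝ) : f (Function.update η x t) = f η := by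
  apply hf
  intro v hv
  rw [Function.update_of_ne]
  rintro rfl
  exact hx (by exact_mod_cast hv)

lemma Wsum_insert_dep {E : Finset V} {x x' : V} (hx : x ∉ E) (hx' : x' ∈ E) (hadj : G.Adj x x')
    (huniq : ∀ u ∈ E, G.Adj x u → u = x') (g : V → ℝ → ℝ) {f : (V → ℝ) → ℝ}
    (hf : DependsOn f (E : Set V)) :
    Wsum G θ (insert x E) g f = Wsum G θ E (absorb θ g x x') f := by
  rw [Wsum_insert hx hx' hadj huniq]
  unfold Wsum
  refine Zsum_congr fun S _ => ?_
  rw [update_dep hx hf, update_dep hx hf, prod_absorb hx']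
  ring

/-- The elementary one-step computation: `E[s_x | s] = A + B s` with `0 ≤ B ≤ θ`. -/
lemma exists_AB (h0 : 0 ≤ θ) (h1 : θ < 1) {a b : ℝ} (ha : 0 < a) (hb : 0 < b) :
    ∃ A B : ℝ, 0 ≤ B ∧ B ≤ θ ∧ ∀ s : ℝ, s = 1 ∨ s = -1 →
      (1 + θ * s) / 2 * b - (1 - θ * s) / 2 * a
        = (A + B * s) * ((1 - θ * s) / 2 * a + (1 + θ * s) / 2 * b) := by
  set P : ℝ := b * (1 + θ) + a * (1 - θ) with hP
  set Q : ℝ := b * (1 - θ) + a * (1 + θ) with hQ
  have hPpos : 0 < P := by
    have := mul_pos hb (show (0:ℝ) < 1 + θ by linarith)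
    have := mul_pos ha (show (0:ℝ) < 1 - θ by linarith)
    linarith
  have hQpos : 0 < Q := by
    have := mul_pos hb (show (0:ℝ) < 1 - θ by linarith)
    have := mul_pos ha (show (0:ℝ) < 1 + θ by linarith)
    linarith
  have hPQ : 4 * a * b ≤ P * Q := by
    have h2 : P * Q = (1 - θ ^ 2) * (a - b) ^ 2 + 4 * a * b := by rw [hP, hQ]; ring
    have h3 : 0 ≤ (1 - θ ^ 2) * (a - b) ^ 2 := by
      apply mul_nonneg _ (sq_nonneg _)
      nlinarith
    linarith
  set R1 : ℝ := (b * (1 + θ) - a * (1 - θ)) / P with hR1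
  set R2 : ℝ := (b * (1 - θ) - a * (1 + θ)) / Q with hR2
  have hPQpos : 0 < P * Q := mul_pos hPpos hQpos
  have hB : (R1 - R2) / 2 = 4 * a * b * θ / (P * Q) := by
    rw [hR1, hR2]
    field_simp
    rw [hP, hQ]
    ring
  refine ⟨(R1 + R2) / 2, (R1 - R2) / 2, ?_, ?_, ?_⟩
  · rw [hB]; positivity
  · rw [hB, div_le_iff₀ hPQpos]
    nlinarith
  · rintro s (rfl | rfl)
    · have e1 : R1 * P = b * (1 + θ) - a * (1 - θ) := by
        rw [hR1]; field_simp
      have : (1 - θ * 1) / 2 * a + (1 + θ * 1) / 2 * b = P / 2 := by rw [hP]; ring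
      rw [this]
      linear_combination (-1 / 2) * e1
    · have e2 : R2 * Q = b * (1 - θ) - a * (1 + θ) := by
        rw [hR2]; field_simp
      have : (1 - θ * (-1)) / 2 * a + (1 + θ * (-1)) / 2 * b = Q / 2 := by rw [hQ]; ring
      rw [this]
      linear_combination (-1 / 2) * e2

lemma Wsum_insert_spin (h0 : 0 ≤ θ) (h1 : θ < 1) {E : Finset V} {x x' : V} (hx : x ∉ E)
    (hx' : x' ∈ E) (hadj : G.Adj x x') (huniq : ∀ u ∈ E, G.Adj x u → u = x')
    {g : V → ℝ → ℝ} (hg : ∀ v, 0 < g v 1 ∧ 0 < g v (-1)) :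
    ∃ A B : ℝ, 0 ≤ B ∧ B ≤ θ ∧ ∀ f : (V → ℝ) → ℝ, DependsOn f (E : Set V) →
      Wsum G θ (insert x E) g (fun η => η x * f η) =
        A * Wsum G θ E (absorb θ g x x') f +
        B * Wsum G θ E (absorb θ g x x') (fun η => η x' * f η) := by
  obtain ⟨A, B, hB0, hB1, hAB⟩ := exists_AB h0 h1 (hg x).2 (hg x).1
  refine ⟨A, B, hB0, hB1, ?_⟩
  intro f hf
  rw [Wsum_insert hx hx' hadj huniq]
  unfold Wsum
  rw [← Zsum_const_mul, ← Zsum_const_mul, ← Zsum_add]
  refine Zsum_congr fun S _ => ?_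
  rw [update_dep hx hf, update_dep hx hf, prod_absorb hx', Function.update_self,
    Function.update_self]
  have := hAB (spinF S x') (spinF_eq S x')
  linear_combination ((∏ v ∈ E, g v (spinF S v)) * f (spinF S)) * this

lemma abs_Wsum_le (h0 : 0 ≤ θ) (h1 : θ ≤ 1) {D : Finset V} {g : V → ℝ → ℝ}
    (hg : ∀ v, 0 < g v 1 ∧ 0 < g v (-1)) {f : (V → ℝ) → ℝ}
    (hf : ∀ S ⊆ D, |f (spinF S)| ≤ 1) : |Wsum G θ D g f| ≤ Wsum G θ D g (fun _ => 1) := by
  unfold Wsum
  refine abs_Zsum_le h0 h1 fun S hS => ?_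
  have hpos : 0 ≤ ∏ v ∈ D, g v (spinF S v) := by
    refine Finset.prod_nonneg fun v _ => ?_
    rcases spinF_eq S v with h | h <;> rw [h]
    · exact (hg v).1.le
    · exact (hg v).2.le
  rw [abs_mul, abs_of_nonneg hpos]
  exact mul_le_mul_of_nonneg_left (hf S hS) hpos

/-- **Covariance bound.** -/
theorem cov_bound (hG : G.IsTree) (h0 : 0 ≤ θ) (h1 : θ < 1) {D : Finset V}
    (hD : (G.induce (D : Set V)).Connected) :
    ∀ g : V → ℝ → ℝ, (∀ v, 0 < g v 1 ∧ 0 < g v (-1)) → ∀ u ∈ D, ∀ w ∈ D,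
      |Wsum G θ D g (fun η => η u * η w) * Wsum G θ D g (fun _ => 1) -
        Wsum G θ D g (fun η => η u) * Wsum G θ D g (fun η => η w)|
        ≤ θ ^ (G.dist u w) * Wsum G θ D g (fun _ => 1) ^ 2 := by
  -- the case `u = w`
  have diag : ∀ (D : Finset V) (g : V → ℝ → ℝ), (∀ v, 0 < g v 1 ∧ 0 < g v (-1)) → ∀ u,
      |Wsum G θ D g (fun η => η u * η u) * Wsum G θ D g (fun _ => 1) -
        Wsum G θ D g (fun η => η u) * Wsum G θ D g (fun η => η u)|
        ≤ θ ^ (G.dist u u) * Wsum G θ D g (fun _ => 1) ^ 2 := by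
    intro D g hg u
    rw [dist_self, pow_zero, one_mul]
    have e : Wsum G θ D g (fun η => η u * η u) = Wsum G θ D g (fun _ => 1) := by
      unfold Wsum
      exact Zsum_congr fun S _ => by simp only [spinF_mul_self]
    have hle := abs_Wsum_le (G := G) h0 h1.le (D := D) hg (f := fun η => η u)
      (fun S _ => (abs_spinF S u).le)
    have hsq : Wsum G θ D g (fun η => η u) ^ 2 ≤ Wsum G θ D g (fun _ => 1) ^ 2 := by
      rw [← sq_abs]
      exact pow_le_pow_left₀ (abs_nonneg _) hle 2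
    rw [e, abs_of_nonneg (by nlinarith)]
    nlinarith [sq_nonneg (Wsum G θ D g (fun η => η u))]
  refine leaf_induction hG (P := fun D => ∀ g : V → ℝ → ℝ, (∀ v, 0 < g v 1 ∧ 0 < g v (-1)) →
    ∀ u ∈ D, ∀ w ∈ D,
      |Wsum G θ D g (fun η => η u * η w) * Wsum G θ D g (fun _ => 1) -
        Wsum G θ D g (fun η => η u) * Wsum G θ D g (fun η => η w)|
        ≤ θ ^ (G.dist u w) * Wsum G θ D g (fun _ => 1) ^ 2) ?_ ?_ D hD
  · intro v g hg u hu w hw
    rw [Finset.mem_singleton] at hu hw
    subst hu; subst hw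
    exact diag _ g hg _
  · intro E x x' _ hx hx' hadj huniq ih g hg u hu w hw
    -- the mixed case
    have mixed : ∀ w ∈ E,
        |Wsum G θ (insert x E) g (fun η => η x * η w) * Wsum G θ (insert x E) g (fun _ => 1) -
        Wsum G θ (insert x E) g (fun η => η x) * Wsum G θ (insert x E) g (fun η => η w)|
        ≤ θ ^ (G.dist x w) * Wsum G θ (insert x E) g (fun _ => 1) ^ 2 := by
      intro w hw
      obtain ⟨A, B, hB0, hB1, hAB⟩ := Wsum_insert_spin (G := G) h0 h1 hx hx' hadj huniq hg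
      have dw : DependsOn (fun η : V → ℝ => η w) (E : Set V) := fun a b h =>
        h w (by exact_mod_cast hw)
      have d1 : DependsOn (fun _ : V → ℝ => (1:ℝ)) (E : Set V) := fun _ _ _ => rfl
      have e1 := hAB _ dw
      have e2 := hAB _ d1
      simp only [mul_one] at e2
      have ihx := ih _ (absorb_pos h0 h1 hg x x') x' hx' w hw
      rw [e1, e2, Wsum_insert_dep hx hx' hadj huniq g d1, Wsum_insert_dep hx hx' hadj huniq g dw]
      set W := Wsum G θ E (absorb θ g x x') with hW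
      have e3 : (A * W (fun η => η w) + B * W (fun η => η x' * η w)) * W (fun _ => 1) -
          (A * W (fun _ => 1) + B * W (fun η => η x')) * W (fun η => η w) =
          B * (W (fun η => η x' * η w) * W (fun _ => 1) - W (fun η => η x') * W (fun η => η w)) := by
        ring
      rw [e3, abs_mul, abs_of_nonneg hB0]
      have hdist : G.dist x w ≤ G.dist x' w + 1 := by
        have h2 : G.dist x w ≤ G.dist x x' + G.dist x' w := hG.connected.dist_triangle
        have h3 : G.dist x x' = 1 := dist_eq_one_iff_adj.2 hadj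
        omega
      calc B * |W (fun η => η x' * η w) * W (fun _ => 1) - W (fun η => η x') * W (fun η => η w)|
          ≤ θ * (θ ^ (G.dist x' w) * W (fun _ => 1) ^ 2) :=
            mul_le_mul hB1 ihx (abs_nonneg _) h0
        _ = θ ^ (G.dist x' w + 1) * W (fun _ => 1) ^ 2 := by ring
        _ ≤ θ ^ (G.dist x w) * W (fun _ => 1) ^ 2 :=
            mul_le_mul_of_nonneg_right (pow_le_pow_of_le_one h0 h1.le hdist) (sq_nonneg _)
    rw [Finset.mem_insert] at hu hw
    rcases hu with rfl | hu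
    · rcases hw with rfl | hw
      · exact diag _ g hg _
      · exact mixed w hw
    · rcases hw with rfl | hw
      · have := mixed u hu
        rw [dist_comm (u := u)]
        have e : Wsum G θ (insert w E) g (fun η => η u * η w)
            = Wsum G θ (insert w E) g (fun η => η w * η u) := by
          unfold Wsum
          exact Zsum_congr fun S _ => by ring
        rw [e, mul_comm (Wsum G θ (insert w E) g (fun η => η u))]
        exact this
      · have duw : DependsOn (fun η : V → ℝ => η u * η w) (E : Set V) := fun a b h => by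
          simp only [h u (by exact_mod_cast hu), h w (by exact_mod_cast hw)]
        have du : DependsOn (fun η : V → ℝ => η u) (E : Set V) := fun a b h =>
          h u (by exact_mod_cast hu)
        have dw : DependsOn (fun η : V → ℝ => η w) (E : Set V) := fun a b h =>
          h w (by exact_mod_cast hw)
        have d1 : DependsOn (fun _ : V → ℝ => (1:ℝ)) (E : Set V) := fun _ _ _ => rfl
        rw [Wsum_insert_dep hx hx' hadj huniq g d1, Wsum_insert_dep hx hx' hadj huniq g dw,
          Wsum_insert_dep hx hx' hadj huniq g du, Wsum_insert_dep hx hx' hadj huniq g duw]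
        exact ih _ (absorb_pos h0 h1 hg x x') u hu w hw

end Vale.Agent.IsingFIID
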