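import Mathlib

/-!
# P161, definitions

The free zero-field Ising measure on a tree, factors of iid, and the posterior quantities of noisy
observations of the spins.
-/

open MeasureTheory

namespace Vale.Agent.IsingFIID

variable {V : Type*}

/-- The value of a spin: `true` is `+1` and `false` is `-1`. -/
noncomputable def spin (b : Bool) : ℝ := if b then 1 else -1

/-- The product of the spins at the endpoints of an edge. -/
noncomputable def bond (η : V → Bool) : Sym2 V → ℝ :=
  Sym2.lift ⟨fun u v => spin (η u) * spin (η v), fun _ _ => mul_comm _ _⟩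

open Classical in
/-- The edges of `G` with both endpoints in `D`. -/
noncomputable def edgesIn (G : SimpleGraph V) (D : Finset V) : Finset (Sym2 V) :=
  D.sym2.filter (fun e => e ∈ G.edgeSet)

/-- `μ` is the free zero-field Ising measure with parameter `θ = tanh β` on the tree `G`: the
probability of the configuration `η` on a finite connected set `D` of vertices is
`(1/2) ∏ (1 + θ η_u η_v)/2`, the product over the edges `{u,v}` of `G` inside `D`. -/
structure IsFreeIsing (G : SimpleGraph V) (θ : ℝ) (μ : Measure (V → Bool)) : Prop where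
  prob : IsProbabilityMeasure μ
  marginal : ∀ D : Finset V, (G.induce (D : Set V)).Connected → ∀ η : V → Bool,
    μ.real {σ | ∀ v ∈ D, σ v = η v} = 1 / 2 * ∏ e ∈ edgesIn G D, (1 + θ * bond η e) / 2

/-- The law of a family of iid labels, uniform on `[0,1]`. -/
noncomputable def unif (ι : Type*) : Measure (ι → unitInterval) :=
  Measure.infinitePi fun _ => (volume : Measure unitInterval)

/-- The law `μ` of a random field with values `±1` on the vertices of `G` is a factor of iid: it is
the law of `Φ U`, where `U` is a family of iid uniform labels and `Φ` is a measurable map with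
`Φ (g U) = g Φ U` almost surely, for every automorphism `g` of `G`; here `(g x) v = x (g⁻¹ v)`. -/
def IsFactorOfIID (G : SimpleGraph V) (μ : Measure (V → Bool)) : Prop :=
  ∃ Φ : (V → unitInterval) → (V → Bool), Measurable Φ ∧
    (∀ g : G ≃g G, ∀ᵐ U ∂(unif V), Φ (fun v => U (g.symm v)) = fun v => Φ U (g.symm v)) ∧
    (unif V).map Φ = μ

/-- `2 y - 1`. -/
noncomputable def phi (y : unitInterval) : ℝ := 2 * (y : ℝ) - 1

/-- Likelihood of the noisy observations `y i`, `i ∈ A`, given the spins `σ`; the index `(v, k)` is
the `k`-th observation of the spin at `v`. -/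
noncomputable def lik (h : ℝ) (A : Finset (V × ℕ)) (σ : V → Bool) (y : V × ℕ → unitInterval) : ℝ :=
  ∏ i ∈ A, (1 + h * spin (σ i.1) * phi (y i))

/-- Density of the observations `y i`, `i ∈ A`. -/
noncomputable def pden (μ : Measure (V → Bool)) (h : ℝ) (A : Finset (V × ℕ)) (y : V × ℕ → unitInterval) : ℝ :=
  ∫ σ, lik h A σ y ∂μ

/-- Unnormalised posterior mean of the spin at `w`. -/
noncomputable def nden (μ : Measure (V → Bool)) (h : ℝ) (A : Finset (V × ℕ)) (w : V)
    (y : V × ℕ → unitInterval) : ℝ :=
  ∫ σ, spin (σ w) * lik h A σ y ∂μ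

/-- Unnormalised posterior mean of the product of the spins at `u` and `w`. -/
noncomputable def nden2 (μ : Measure (V → Bool)) (h : ℝ) (A : Finset (V × ℕ)) (u w : V)
    (y : V × ℕ → unitInterval) : ℝ :=
  ∫ σ, spin (σ u) * spin (σ w) * lik h A σ y ∂μ

/-- Posterior mean of the spin at `w`, given the observations in `A`. -/
noncomputable def pmean (μ : Measure (V → Bool)) (h : ℝ) (A : Finset (V × ℕ)) (w : V)
    (y : V × ℕ → unitInterval) : ℝ :=
  nden μ h A w y / pden μ h A y

/-- The posterior covariances are bounded by `c`. -/
def CovBound (μ : Measure (V → Bool)) (h : ℝ) (c : V → V → ℝ) : Prop :=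
  ∀ (A : Finset (V × ℕ)) (y : V × ℕ → unitInterval) (u w : V),
    |nden2 μ h A u w y * pden μ h A y - nden μ h A u y * nden μ h A w y| ≤
      c u w * pden μ h A y ^ 2

end Vale.Agent.IsingFIID
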