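import Vale.Agent.IsingFIID.Model

/-!
# P161, the random order scheme as the solution of a fixed point equation

`psol T μ h J s U` is obtained by iterating the fixed point equation of the sequential scheme on the
finite index set `J`, in the order given by the stage and by the time labels `s`. It is jointly
measurable in `(s, U)`, equivariant, and equal to every solution of the fixed point equation.
-/

open MeasureTheory Function

namespace Vale.Agent.IsingFIID

set_option linter.unusedSectionVars false

variable {V : Type*} [DecidableEq V]

/-- The observations in `J` made before the observation `i`. -/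
noncomputable def before (s : V → unitInterval) (J : Finset (V × ℕ)) (i : V × ℕ) :
    Finset (V × ℕ) :=
  J.filter fun j => j.2 < i.2 ∨ (j.2 = i.2 ∧ s j.1 < s i.1)

theorem mem_before {s : V → unitInterval} {J : Finset (V × ℕ)} {i j : V × ℕ} :
    j ∈ before s J i ↔ j ∈ J ∧ (j.2 < i.2 ∨ (j.2 = i.2 ∧ s j.1 < s i.1)) := by
  simp [before]

theorem before_card_lt {s : V → unitInterval} {J : Finset (V × ℕ)} {i j : V × ℕ}
    (hj : j ∈ before s J i) : (before s J j).card < (before s J i).card := by
  apply Finset.card_lt_card
  rw [Finset.ssubset_iff_of_subset]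
  · refine ⟨j, hj, ?_⟩
    rw [mem_before]
    rintro ⟨-, h | ⟨-, h⟩⟩ <;> exact lt_irrefl _ h
  · intro k hk
    rw [mem_before] at hk hj ⊢
    refine ⟨hk.1, ?_⟩
    rcases hk.2 with h1 | ⟨h1, h1'⟩ <;> rcases hj.2 with h2 | ⟨h2, h2'⟩
    · exact Or.inl (h1.trans h2)
    · exact Or.inl (h2 ▸ h1)
    · exact Or.inl (h1 ▸ h2)
    · exact Or.inr ⟨h1.trans h2, h1'.trans h2'⟩

theorem before_card_lt_card {s : V → unitInterval} {J : Finset (V × ℕ)} {i : V × ℕ}
    (hi : i ∈ J) : (before s J i).card < J.card := by
  apply Finset.card_lt_card
  have hsub : before s J i ⊆ J := Finset.filter_subset _ _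
  rw [Finset.ssubset_iff_of_subset hsub]
  refine ⟨i, hi, ?_⟩
  rw [mem_before]
  rintro ⟨-, h | ⟨-, h⟩⟩ <;> exact lt_irrefl _ h

/-- The fixed point map. -/
noncomputable def pstep (T : ℝ → unitInterval → unitInterval) (μ : Measure (V → Bool)) (h : ℝ)
    (J : Finset (V × ℕ)) (s : V → unitInterval) (U y : V × ℕ → unitInterval) :
    V × ℕ → unitInterval :=
  fun i => if i ∈ J then T (h * pmean μ h (before s J i) i.1 y) (U i) else U i

/-- The solution of the fixed point equation. -/
noncomputable def psol (T : ℝ → unitInterval → unitInterval) (μ : Measure (V → Bool)) (h : ℝ)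
    (J : Finset (V × ℕ)) (s : V → unitInterval) (U : V × ℕ → unitInterval) :
    V × ℕ → unitInterval :=
  (pstep T μ h J s U)^[J.card] U

theorem psol_eq (T : ℝ → unitInterval → unitInterval) (μ : Measure (V → Bool))
    [IsProbabilityMeasure μ] (h : ℝ)
    (J : Finset (V × ℕ)) (s : V → unitInterval) (U y : V × ℕ → unitInterval)
    (hy : pstep T μ h J s U y = y) : psol T μ h J s U = y := by
  have key : ∀ r : ℕ, ∀ i, ((before s J i).card < r ∨ i ∉ J) →
      ((pstep T μ h J s U)^[r] U) i = y i := by
    intro r
    induction r with
    | zero =>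
      intro i hi
      have hi' : i ∉ J := by
        rcases hi with h | h
        · exact absurd h (Nat.not_lt_zero _)
        · exact h
      rw [Function.iterate_zero, id, ← hy]
      simp [pstep, hi']
    | succ r ih =>
      intro i hi
      rw [Function.iterate_succ_apply']
      conv_rhs => rw [← hy]
      unfold pstep
      by_cases hiJ : i ∈ J
      · rw [if_pos hiJ, if_pos hiJ]
        congr 2
        apply dependsOn_pmean
        intro j hj
        apply ih
        left
        have h1 := before_card_lt hj
        rcases hi with h2 | h2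
        · omega
        · exact absurd hiJ h2
      · rw [if_neg hiJ, if_neg hiJ]
  funext i
  apply key
  by_cases hiJ : i ∈ J
  · exact Or.inl (before_card_lt_card hiJ)
  · exact Or.inr hiJ

section measurability

variable {T : ℝ → unitInterval → unitInterval} (hT : Measurable (uncurry T))
  (μ : Measure (V → Bool)) [IsProbabilityMeasure μ] (h : ℝ)

theorem measurable_pmean_before (J : Finset (V × ℕ)) (i : V × ℕ) :
    Measurable fun p : (V → unitInterval) × (V × ℕ → unitInterval) =>
      pmean μ h (before p.1 J i) i.1 p.2 := by
  have e : (fun p : (V → unitInterval) × (V × ℕ → unitInterval) =>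
      pmean μ h (before p.1 J i) i.1 p.2) = fun p => ∑ A ∈ J.powerset,
        Set.indicator {p : (V → unitInterval) × (V × ℕ → unitInterval) | before p.1 J i = A}
          (fun p => pmean μ h A i.1 p.2) p := by
    funext p
    rw [Finset.sum_eq_single (before p.1 J i)]
    · rw [Set.indicator_of_mem]; rfl
    · intro A _ hA
      rw [Set.indicator_of_notMem]
      exact fun h => hA h.symm
    · intro hnot
      exact absurd (Finset.mem_powerset.2 (Finset.filter_subset _ _)) hnot
  rw [e]
  apply Finset.measurable_sum
  intro A _
  apply Measurable.indicator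
  · exact (measurable_pmean μ h A i.1).comp measurable_snd
  · have : {p : (V → unitInterval) × (V × ℕ → unitInterval) | before p.1 J i = A} =
        ⋂ j ∈ J ∪ A, {p | (j ∈ J ∧ (j.2 < i.2 ∨ (j.2 = i.2 ∧ p.1 j.1 < p.1 i.1))) ↔ j ∈ A} := by
      ext p
      simp only [Set.mem_ofPred_eq, Finset.ext_iff, mem_before, Set.mem_iInter]
      constructor
      · intro h j _; exact h j
      · intro h j
        by_cases hj : j ∈ J ∪ A
        · exact h j hj
        · rw [Finset.mem_union, not_or] at hj
          simp [hj.1, hj.2]
    rw [this]
    apply Finset.measurableSet_biInter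
    intro j _
    have hlt : MeasurableSet {p : (V → unitInterval) × (V × ℕ → unitInterval) |
        p.1 j.1 < p.1 i.1} :=
      measurableSet_lt ((measurable_pi_apply j.1).comp measurable_fst)
        ((measurable_pi_apply i.1).comp measurable_fst)
    have hlt' : Measurable fun p : (V → unitInterval) × (V × ℕ → unitInterval) =>
        (p.1 j.1 < p.1 i.1) := measurableSet_setOfPred.1 hlt
    rw [measurableSet_setOfPred]
    fun_prop

include hT in
theorem measurable_pstep (J : Finset (V × ℕ)) {α : Type*} [MeasurableSpace α]
    {fs : α → V → unitInterval} {fU fy : α → V × ℕ → unitInterval} (h1 : Measurable fs)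
    (h2 : Measurable fU) (h3 : Measurable fy) :
    Measurable fun a => pstep T μ h J (fs a) (fU a) (fy a) := by
  rw [measurable_pi_iff]
  intro i
  unfold pstep
  by_cases hi : i ∈ J
  · simp only [hi, if_true]
    have h4 := (measurable_pmean_before μ h J i).comp (h1.prodMk h3)
    simp only [Function.comp_def] at h4
    have h6 : Measurable fun a => fU a i := measurable_pi_iff.1 h2 i
    have h5 := hT.comp ((measurable_const (a := h)).mul h4 |>.prodMk h6)
    simp only [Function.comp_def, uncurry] at h5
    exact h5
  · simp only [hi, if_false]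
    exact measurable_pi_iff.1 h2 i

include hT in
theorem measurable_psol (J : Finset (V × ℕ)) :
    Measurable fun p : (V → unitInterval) × (V × ℕ → unitInterval) =>
      psol T μ h J p.1 p.2 := by
  unfold psol
  have : ∀ r : ℕ, Measurable fun p : (V → unitInterval) × (V × ℕ → unitInterval) =>
      (pstep T μ h J p.1 p.2)^[r] p.2 := by
    intro r
    induction r with
    | zero => exact measurable_snd
    | succ r ih =>
      simp only [Function.iterate_succ_apply']
      exact measurable_pstep hT μ h J measurable_fst measurable_snd ih
  exact this _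

end measurability

section equivariance

/-- The action of a permutation of the vertices on the indices. -/
def actI (g : V ≃ V) : V × ℕ ≃ V × ℕ := g.prodCongr (Equiv.refl ℕ)

@[simp] theorem actI_apply (g : V ≃ V) (i : V × ℕ) : actI g i = (g i.1, i.2) := rfl

@[simp] theorem actI_symm_apply (g : V ≃ V) (i : V × ℕ) : (actI g).symm i = (g.symm i.1, i.2) :=
  rfl

variable {μ : Measure (V → Bool)} {g : V ≃ V} (hμ : μ.map (fun σ v => σ (g.symm v)) = μ) (h : ℝ)

theorem lik_act (A : Finset (V × ℕ)) (σ : V → Bool) (y : V × ℕ → unitInterval) :
    lik h (A.map (actI g).toEmbedding) (fun v => σ (g.symm v)) (fun i => y ((actI g).symm i)) =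
      lik h A σ y := by
  unfold lik
  rw [Finset.prod_map]
  apply Finset.prod_congr rfl
  intro i _
  simp

include hμ in
theorem pden_act (A : Finset (V × ℕ)) (y : V × ℕ → unitInterval) :
    pden μ h (A.map (actI g).toEmbedding) (fun i => y ((actI g).symm i)) = pden μ h A y := by
  unfold pden
  conv_lhs => rw [← hμ]
  rw [integral_map]
  · simp only [lik_act]
  · exact (measurable_pi_iff.2 fun v => measurable_pi_apply _).aemeasurable
  · exact (measurable_lik_left h _ _).aestronglyMeasurable

include hμ in
theorem nden_act (A : Finset (V × ℕ)) (w : V) (y : V × ℕ → unitInterval) :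
    nden μ h (A.map (actI g).toEmbedding) (g w) (fun i => y ((actI g).symm i)) =
      nden μ h A w y := by
  unfold nden
  conv_lhs => rw [← hμ]
  rw [integral_map]
  · simp only [lik_act, Equiv.symm_apply_apply]
  · exact (measurable_pi_iff.2 fun v => measurable_pi_apply _).aemeasurable
  · exact ((measurable_spin_apply _).mul (measurable_lik_left h _ _)).aestronglyMeasurable

include hμ in
theorem pmean_act (A : Finset (V × ℕ)) (w : V) (y : V × ℕ → unitInterval) :
    pmean μ h (A.map (actI g).toEmbedding) (g w) (fun i => y ((actI g).symm i)) =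
      pmean μ h A w y := by
  unfold pmean
  rw [pden_act hμ, nden_act hμ]

theorem before_act (J : Finset (V × ℕ)) (s : V → unitInterval) (i : V × ℕ) :
    before (fun v => s (g.symm v)) (J.map (actI g).toEmbedding) (actI g i) =
      (before s J i).map (actI g).toEmbedding := by
  ext j
  rw [mem_before, Finset.mem_map_equiv, Finset.mem_map_equiv, mem_before]
  simp

include hμ in
theorem pstep_act (T : ℝ → unitInterval → unitInterval) (J : Finset (V × ℕ))
    (s : V → unitInterval) (U y : V × ℕ → unitInterval) :
    pstep T μ h (J.map (actI g).toEmbedding) (fun v => s (g.symm v))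
      (fun i => U ((actI g).symm i)) (fun i => y ((actI g).symm i)) =
      fun i => pstep T μ h J s U y ((actI g).symm i) := by
  funext i
  obtain ⟨i, rfl⟩ := (actI g).surjective i
  unfold pstep
  rw [before_act, Equiv.symm_apply_apply]
  have hiff : actI g i ∈ J.map (actI g).toEmbedding ↔ i ∈ J := by
    rw [Finset.mem_map_equiv, Equiv.symm_apply_apply]
  simp only [hiff]
  have := pmean_act hμ h (before s J i) i.1 y
  rw [Equiv.symm_apply_apply]
  simp only [actI_apply, this]

include hμ in
theorem psol_act (T : ℝ → unitInterval → unitInterval) (J : Finset (V × ℕ))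
    (s : V → unitInterval) (U : V × ℕ → unitInterval) (i : V × ℕ) :
    psol T μ h (J.map (actI g).toEmbedding) (fun v => s (g.symm v))
      (fun i => U ((actI g).symm i)) (actI g i) = psol T μ h J s U i := by
  unfold psol
  rw [Finset.card_map]
  have : ∀ r : ℕ, (pstep T μ h (J.map (actI g).toEmbedding) (fun v => s (g.symm v))
      (fun i => U ((actI g).symm i)))^[r] (fun i => U ((actI g).symm i)) =
      fun i => (pstep T μ h J s U)^[r] U ((actI g).symm i) := by
    intro r
    induction r with
    | zero => rfl
    | succ r ih =>
      rw [Function.iterate_succ_apply', ih, pstep_act hμ h T J s U ((pstep T μ h J s U)^[r] U)]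
      simp only [Function.iterate_succ_apply']
  rw [this]
  simp only [Equiv.symm_apply_apply]

end equivariance

end Vale.Agent.IsingFIID
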