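import Vale.Agent.IsingFIID.MainEstimate
import Vale.Agent.IsingFIID.Psol

/-!
# P161, the scheme of noisy observations of the spins, in random order
-/

open MeasureTheory Function

namespace Vale.Agent.IsingFIID

variable {V : Type*} [DecidableEq V]

/-- The scheme of noisy observations of the spins. -/
noncomputable def isingScheme (μ : Measure (V → Bool)) [IsProbabilityMeasure μ] {h : ℝ}
    (hh : 0 ≤ h) (hh1 : h ≤ 1 / 2) {c : V → V → ℝ} (hc0 : ∀ u w, 0 ≤ c u w)
    (hc : CovBound μ h c) : Scheme (V × ℕ) where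
  h := h
  h_nonneg := hh
  h_le := hh1
  p := pden μ h
  m := fun A i => pmean μ h A i.1
  c := fun j i => c j.1 i.1
  c_nonneg := fun j i => hc0 _ _
  p_empty := pden_empty μ h
  p_insert := fun A i y hi => pden_insert' μ hh (by linarith) hi y
  m_meas := fun A i => measurable_pmean μ h A i.1
  m_dep := fun A i => dependsOn_pmean μ h A i.1
  m_abs := fun A i y => abs_pmean_le μ hh (by linarith) A i.1 y
  mart := fun A i j hj => pmean_mart hh (by linarith) A i.1 j hj
  incr := fun A i j y hj => pmean_incr hh hh1 hc hj i.1 y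
  lip := fun A i y y' => pmean_lip hh hh1 hc A i.1 y y'

/-- The list `l` enumerates observations in reverse chronological order. -/
def SortedBy (s : V → unitInterval) (l : List (V × ℕ)) : Prop :=
  l.Pairwise fun a b => b.2 < a.2 ∨ (b.2 = a.2 ∧ s b.1 < s a.1)

theorem exists_sorted {s : V → unitInterval} (hs : Injective s) (J : Finset (V × ℕ)) :
    ∃ l : List (V × ℕ), l.Nodup ∧ l.toFinset = J ∧ SortedBy s l := by
  induction J using Finset.induction_on_max_value
    (f := fun i : V × ℕ => (toLex (i.2, s i.1) : ℕ ×ₗ unitInterval)) with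
  | empty => exact ⟨[], List.nodup_nil, rfl, List.Pairwise.nil⟩
  | insert a J ha hmax ih =>
    obtain ⟨l, h1, h2, h3⟩ := ih
    refine ⟨a :: l, ?_, ?_, ?_⟩
    · rw [List.nodup_cons]
      refine ⟨fun hal => ha ?_, h1⟩
      rw [← h2, List.mem_toFinset]; exact hal
    · rw [List.toFinset_cons, h2]
    · unfold SortedBy
      rw [List.pairwise_cons]
      refine ⟨fun b hb => ?_, h3⟩
      have hbJ : b ∈ J := by rw [← h2, List.mem_toFinset]; exact hb
      have hle := hmax b hbJ
      rw [Prod.Lex.toLex_le_toLex] at hle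
      rcases hle with h4 | ⟨h4, h5⟩
      · exact Or.inl h4
      · refine Or.inr ⟨h4, lt_of_le_of_ne h5 fun heq => ha ?_⟩
        have : b = a := Prod.ext (hs heq) h4
        exact this ▸ hbJ

theorem before_eq_of_sorted {s : V → unitInterval} {l₁ l₂ : List (V × ℕ)} {i : V × ℕ}
    (h : SortedBy s (l₁ ++ i :: l₂)) : l₂.toFinset = before s (l₁ ++ i :: l₂).toFinset i := by
  unfold SortedBy at h
  rw [List.pairwise_append] at h
  obtain ⟨-, h2, h3⟩ := h
  rw [List.pairwise_cons] at h2
  ext j
  rw [mem_before, List.mem_toFinset, List.mem_toFinset, List.mem_append, List.mem_cons]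
  constructor
  · intro hj
    exact ⟨Or.inr (Or.inr hj), h2.1 j hj⟩
  · rintro ⟨hj | hj | hj, hlt⟩
    · exfalso
      have h4 := h3 j hj i List.mem_cons_self
      rcases h4 with h4 | ⟨h4, h5⟩ <;> rcases hlt with h6 | ⟨h6, h7⟩
      · exact lt_asymm h4 h6
      · exact h4.ne h6.symm
      · exact h6.ne h4.symm
      · exact lt_asymm h5 h7
    · subst hj
      rcases hlt with h6 | ⟨h6, h7⟩
      · exact absurd h6 (lt_irrefl _)
      · exact absurd h7 (lt_irrefl _)
    · exact hj

variable (μ : Measure (V → Bool)) [IsProbabilityMeasure μ] {h : ℝ}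
    (hh : 0 ≤ h) (hh1 : h ≤ 1 / 2) {c : V → V → ℝ} (hc0 : ∀ u w, 0 ≤ c u w)
    (hc : CovBound μ h c)

theorem run_pstep {s : V → unitInterval} {l : List (V × ℕ)} (hl : l.Nodup) (hs : SortedBy s l)
    (U : V × ℕ → unitInterval) :
    pstep GI μ h l.toFinset s U (run (isingScheme μ hh hh1 hc0 hc) l U) =
      run (isingScheme μ hh hh1 hc0 hc) l U := by
  funext i
  unfold pstep
  by_cases hi : i ∈ l
  · rw [if_pos (List.mem_toFinset.2 hi)]
    obtain ⟨l₁, l₂, rfl⟩ := List.append_of_mem hi
    rw [← before_eq_of_sorted hs]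
    exact (run_fixed (isingScheme μ hh hh1 hc0 hc) hl U).symm
  · rw [if_neg (fun h => hi (List.mem_toFinset.1 h)), run_notMem _ hi]

theorem run_eq_psol {s : V → unitInterval} {l : List (V × ℕ)} (hl : l.Nodup) (hs : SortedBy s l)
    (U : V × ℕ → unitInterval) :
    run (isingScheme μ hh hh1 hc0 hc) l U = psol GI μ h l.toFinset s U :=
  (psol_eq GI μ h _ s U _ (run_pstep μ hh hh1 hc0 hc hl hs U)).symm

include hh hh1 hc0 hc in
theorem psol_fixed {s : V → unitInterval} (hs : Injective s) (J : Finset (V × ℕ))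
    (U : V × ℕ → unitInterval) :
    pstep GI μ h J s U (psol GI μ h J s U) = psol GI μ h J s U := by
  obtain ⟨l, h1, rfl, h3⟩ := exists_sorted hs J
  rw [← run_eq_psol μ hh hh1 hc0 hc h1 h3]
  exact run_pstep μ hh hh1 hc0 hc h1 h3 U

include hh hh1 hc0 hc in
/-- Exact law of the scheme. -/
theorem map_psol {s : V → unitInterval} (hs : Injective s) (J : Finset (V × ℕ)) :
    (unif (V × ℕ)).map (psol GI μ h J s) =
      (unif (V × ℕ)).withDensity (fun y => ENNReal.ofReal (pden μ h J y)) := by
  obtain ⟨l, h1, rfl, h3⟩ := exists_sorted hs J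
  have : psol GI μ h l.toFinset s = run (isingScheme μ hh hh1 hc0 hc) l := by
    funext U
    rw [run_eq_psol μ hh hh1 hc0 hc h1 h3]
  rw [this, map_run _ h1]
  rfl

include hh hh1 hc0 hc in
/-- The scheme on `J'`, restricted to an initial part `J`. -/
theorem psol_cut {s : V → unitInterval} (hs : Injective s) {J J' : Finset (V × ℕ)}
    (hJ : J ⊆ J') (hb : ∀ i ∈ J, before s J' i ⊆ J) (U : V × ℕ → unitInterval) {i : V × ℕ}
    (hi : i ∈ J) : psol GI μ h J s U i = psol GI μ h J' s U i := by
  have hfix := psol_fixed μ hh hh1 hc0 hc hs J' U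
  have key : pstep GI μ h J s U (fun i => if i ∈ J then psol GI μ h J' s U i else U i) =
      fun i => if i ∈ J then psol GI μ h J' s U i else U i := by
    funext i
    by_cases hiJ : i ∈ J
    · simp only [pstep, hiJ, if_true]
      have e : before s J i = before s J' i := by
        ext j
        rw [mem_before, mem_before]
        exact ⟨fun h => ⟨hJ h.1, h.2⟩, fun h => ⟨hb i hiJ (mem_before.2 h), h.2⟩⟩
      rw [e]
      conv_rhs => rw [← hfix]
      simp only [pstep, hJ hiJ, if_true]
      congr 2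
      apply dependsOn_pmean μ h
      intro j hj
      rw [if_pos (hb i hiJ hj)]
    · simp [pstep, hiJ]
  rw [psol_eq GI μ h J s U _ key]
  exact if_pos hi

end Vale.Agent.IsingFIID
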