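import Vale.Agent.IsingFIID.OneDim
import Vale.Agent.IsingFIID.Defs

/-!
# P161, observations given the spins, and the recovery of the spins (definitions)
-/

open MeasureTheory Filter

namespace Vale.Agent.IsingFIID

variable {V : Type*}

/-- Noisy observations of the spins `σ`, made with the uniform variables `U`. -/
noncomputable def obs (h : ℝ) (σ : V → Bool) (U : V × ℕ → unitInterval) : V × ℕ → unitInterval :=
  fun i => GI (h * spin (σ i.1)) (U i)

open Classical in
/-- Only the observations in `J` are made. -/
noncomputable def obsJ (h : ℝ) (J : Finset (V × ℕ)) (σ : V → Bool) (U : V × ℕ → unitInterval) :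
    V × ℕ → unitInterval :=
  fun i => if i ∈ J then GI (h * spin (σ i.1)) (U i) else U i

/-- The spin at `v` recovered from infinitely many observations. -/
noncomputable def recover (y : V × ℕ → unitInterval) : V → Bool :=
  fun v => decide (0 < limsup (fun K : ℕ => (∑ k ∈ Finset.range K, phi (y (v, k))) / K) atTop)

end Vale.Agent.IsingFIID
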