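import Vale.Agent.IsingFIID.LocalConv
import Vale.Agent.IsingFIID.ObsDefs

/-!
# P161, almost sure limit of the local schemes and its law
-/

open MeasureTheory Filter Function Topology

namespace Vale.Agent.IsingFIID

set_option linter.unusedSectionVars false

section general

variable {Ω : Type*} [MeasurableSpace Ω] (P : Measure Ω) [IsProbabilityMeasure P]

theorem ae_summable_of_integral_le {f : ℕ → Ω → ℝ} (hf : ∀ j, Measurable (f j))
    (hf0 : ∀ j ω, 0 ≤ f j ω) (hint : ∀ j, Integrable (f j) P) {b : ℕ → ℝ} (hb : Summable b)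
    (hle : ∀ j, ∫ ω, f j ω ∂P ≤ b j) : ∀ᵐ ω ∂P, Summable (fun j => f j ω) := by
  have h1 : ∫⁻ ω, ∑' j, ENNReal.ofReal (f j ω) ∂P ≠ ⊤ := by
    rw [lintegral_tsum (fun j => (hf j).ennreal_ofReal.aemeasurable)]
    have h2 : ∀ j, ∫⁻ ω, ENNReal.ofReal (f j ω) ∂P ≤ ENNReal.ofReal (b j) := by
      intro j
      rw [← ofReal_integral_eq_lintegral_ofReal (hint j) (Eventually.of_forall (hf0 j))]
      exact ENNReal.ofReal_le_ofReal (hle j)
    exact ne_top_of_le_ne_top hb.tsum_ofReal_ne_top (ENNReal.tsum_le_tsum h2)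
  have h3 : Measurable fun ω => ∑' j, ENNReal.ofReal (f j ω) :=
    Measurable.tsum fun j => (hf j).ennreal_ofReal
  filter_upwards [ae_lt_top h3 h1] with ω hω
  have h4 := ENNReal.summable_toReal hω.ne
  refine h4.congr fun j => ?_
  rw [ENNReal.toReal_ofReal (hf0 j ω)]

theorem integrable_abs_sub {X Y : Ω → unitInterval} (hX : Measurable X) (hY : Measurable Y) :
    Integrable (fun ω => |(X ω : ℝ) - Y ω|) P := by
  apply Integrable.of_bound (C := 1)
  · exact ((measurable_subtype_coe.comp hX).sub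
      (measurable_subtype_coe.comp hY)).norm.aestronglyMeasurable
  · refine Eventually.of_forall fun ω => ?_
    rw [Real.norm_eq_abs, abs_abs, abs_le]
    constructor <;> linarith [(X ω).2.1, (X ω).2.2, (Y ω).2.1, (Y ω).2.2]

theorem measurable_abs_sub {X Y : Ω → unitInterval} (hX : Measurable X) (hY : Measurable Y) :
    Measurable (fun ω => |(X ω : ℝ) - Y ω|) :=
  Measurable.norm (f := fun ω => (X ω : ℝ) - Y ω)
    ((measurable_subtype_coe.comp hX).sub (measurable_subtype_coe.comp hY))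

theorem ae_tendsto_limsup {X : ℕ → Ω → unitInterval} (hX : ∀ j, Measurable (X j)) {b : ℕ → ℝ}
    (hb : Summable b) (hle : ∀ j, ∫ ω, |(X j ω : ℝ) - X (j + 1) ω| ∂P ≤ b j) :
    ∀ᵐ ω ∂P, Tendsto (fun j => X j ω) atTop (𝓝 (limsup (fun j => X j ω) atTop)) := by
  have h1 := ae_summable_of_integral_le P
    (fun j => measurable_abs_sub (hX j) (hX (j + 1))) (fun j ω => abs_nonneg _)
    (fun j => integrable_abs_sub P (hX j) (hX (j + 1))) hb hle
  filter_upwards [h1] with ω hω
  have h2 : CauchySeq fun j => X j ω := cauchySeq_of_summable_dist hω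
  obtain ⟨x, hx⟩ := cauchySeq_tendsto_of_complete h2
  rwa [hx.limsup_eq]

theorem ae_tendsto_of_close {X Z : ℕ → Ω → unitInterval} (hX : ∀ j, Measurable (X j))
    (hZ : ∀ j, Measurable (Z j)) {b : ℕ → ℝ} (hb : Summable b) (a : ℕ)
    (hle : ∀ j, a ≤ j → ∫ ω, |(X j ω : ℝ) - Z j ω| ∂P ≤ b j) {x : Ω → unitInterval}
    (hx : ∀ᵐ ω ∂P, Tendsto (fun j => X j ω) atTop (𝓝 (x ω))) :
    ∀ᵐ ω ∂P, Tendsto (fun j => Z j ω) atTop (𝓝 (x ω)) := by
  have h1 := ae_summable_of_integral_le P
    (f := fun j ω => |(X (j + a) ω : ℝ) - Z (j + a) ω|)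
    (fun j => measurable_abs_sub (hX _) (hZ _)) (fun j ω => abs_nonneg _)
    (fun j => integrable_abs_sub P (hX _) (hZ _)) ((summable_nat_add_iff a).2 hb)
    (fun j => hle _ (Nat.le_add_left _ _))
  filter_upwards [h1, hx] with ω hω hxω
  have h2 : Tendsto (fun j => |(X j ω : ℝ) - Z j ω|) atTop (𝓝 0) := by
    have := hω.tendsto_atTop_zero
    exact (tendsto_add_atTop_iff_nat (f := fun j => |(X j ω : ℝ) - Z j ω|) a).1 this
  rw [tendsto_iff_dist_tendsto_zero] at hxω ⊢
  have h3 := hxω.add h2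
  rw [add_zero] at h3
  refine squeeze_zero (fun j => dist_nonneg) (fun j => ?_) h3
  calc dist (Z j ω) (x ω) ≤ dist (Z j ω) (X j ω) + dist (X j ω) (x ω) := dist_triangle _ _ _
    _ = dist (X j ω) (x ω) + |(X j ω : ℝ) - Z j ω| := by
      rw [add_comm, dist_comm (Z j ω), Subtype.dist_eq (X j ω) (Z j ω), Real.dist_eq]

end general

variable {V : Type*} [DecidableEq V]

/-- Index set of a local scheme around `i`. -/
noncomputable def locJ (G : SimpleGraph V) [G.LocallyFinite] (N : ℕ → ℕ → ℕ) (j : ℕ)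
    (i : V × ℕ) : Finset (V × ℕ) :=
  ballJ G i.1 (N i.2 j) i.2

/-- The local approximation of the observation `i`. -/
noncomputable def appr (G : SimpleGraph V) [G.LocallyFinite] (μ : Measure (V → Bool)) (h : ℝ)
    (N : ℕ → ℕ → ℕ) (j : ℕ) (s : V → unitInterval) (U : V × ℕ → unitInterval) (i : V × ℕ) :
    unitInterval :=
  psol GI μ h (locJ G N j i) s U i

/-- The limiting observations. -/
noncomputable def Psi (G : SimpleGraph V) [G.LocallyFinite] (μ : Measure (V → Bool)) (h : ℝ)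
    (N : ℕ → ℕ → ℕ) (s : V → unitInterval) (U : V × ℕ → unitInterval) (i : V × ℕ) :
    unitInterval :=
  limsup (fun j => appr G μ h N j s U i) atTop

theorem self_mem_locJ (G : SimpleGraph V) [G.LocallyFinite] (hG : G.IsTree) (N : ℕ → ℕ → ℕ)
    (j : ℕ) (i : V × ℕ) : i ∈ locJ G N j i := by
  unfold locJ
  rw [mem_ballJ G hG]
  simp

theorem locJ_mono (G : SimpleGraph V) [G.LocallyFinite] (hG : G.IsTree) {N : ℕ → ℕ → ℕ}
    (hN : ∀ k, Monotone (N k)) {j j' : ℕ} (hj : j ≤ j') (i : V × ℕ) :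
    locJ G N j i ⊆ locJ G N j' i := by
  intro x hx
  unfold locJ at hx ⊢
  rw [mem_ballJ G hG] at hx ⊢
  exact ⟨hx.1.trans (hN _ hj), hx.2⟩

section

variable (G : SimpleGraph V) [G.LocallyFinite] (hG : G.IsTree) (μ : Measure (V → Bool))
  [IsProbabilityMeasure μ] {h : ℝ} {N : ℕ → ℕ → ℕ} (hN : ∀ k, Monotone (N k))
  (hconv : ∀ (k j : ℕ) (v : V) (n : ℕ), N k j ≤ n → ∀ (J' : Finset (V × ℕ)),
    ballJ G v n k ⊆ J' → ∀ s : V → unitInterval, Injective s →
      ∫ U, |(psol GI μ h (ballJ G v n k) s U (v, k) : ℝ) - psol GI μ h J' s U (v, k)|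
        ∂(unif (V × ℕ)) ≤ (1 / 2) ^ j)

theorem measurable_psol_GI (J : Finset (V × ℕ)) (s : V → unitInterval) (i : V × ℕ) :
    Measurable fun U => psol GI μ h J s U i := by
  have h0 : Measurable (uncurry GI) := measurable_GI
  have h1 := (measurable_psol h0 μ h J).comp (measurable_prodMk_left (x := s))
  exact measurable_pi_iff.1 h1 i

instance : IsProbabilityMeasure (unif (V × ℕ)) := by unfold unif; infer_instance

include hG hN hconv in
theorem ae_tendsto_appr {s : V → unitInterval} (hs : Injective s) (i : V × ℕ) :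
    ∀ᵐ U ∂(unif (V × ℕ)), Tendsto (fun j => appr G μ h N j s U i) atTop
      (𝓝 (Psi G μ h N s U i)) := by
  have hle : ∀ j, ∫ U, |(appr G μ h N j s U i : ℝ) - appr G μ h N (j + 1) s U i|
      ∂(unif (V × ℕ)) ≤ (1 / 2 : ℝ) ^ j := by
    intro j
    obtain ⟨v, k⟩ := i
    exact hconv k j v (N k j) le_rfl _ (locJ_mono G hG hN (Nat.le_succ j) (v, k)) s hs
  exact ae_tendsto_limsup (unif (V × ℕ)) (X := fun j U => appr G μ h N j s U i)
    (fun j => measurable_psol_GI μ _ s i)
    (summable_geometric_of_lt_one (by norm_num) (by norm_num)) hle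

/-- Exhausting index sets. -/
noncomputable def exh (N : ℕ → ℕ → ℕ) (e : ℕ → V × ℕ) (j : ℕ) : Finset (V × ℕ) :=
  (Finset.range j).biUnion fun a => locJ G N j (e a)

include hG hN hconv in
theorem ae_tendsto_exh {s : V → unitInterval} (hs : Injective s) (e : ℕ → V × ℕ) (a : ℕ) :
    ∀ᵐ U ∂(unif (V × ℕ)), Tendsto (fun j => psol GI μ h (exh G N e j) s U (e a)) atTop
      (𝓝 (Psi G μ h N s U (e a))) := by
  have hle : ∀ j, a + 1 ≤ j → ∫ U, |(appr G μ h N j s U (e a) : ℝ) -
      psol GI μ h (exh G N e j) s U (e a)| ∂(unif (V × ℕ)) ≤ (1 / 2 : ℝ) ^ j := by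
    intro j hj
    have hsub : locJ G N j (e a) ⊆ exh G N e j :=
      Finset.subset_biUnion_of_mem (fun a => locJ G N j (e a))
        (Finset.mem_range.2 (by omega))
    exact hconv (e a).2 j (e a).1 (N (e a).2 j) le_rfl _ hsub s hs
  exact ae_tendsto_of_close (unif (V × ℕ)) (X := fun j U => appr G μ h N j s U (e a))
    (Z := fun j U => psol GI μ h (exh G N e j) s U (e a))
    (fun j => measurable_psol_GI μ _ s _) (fun j => measurable_psol_GI μ _ s _)
    (summable_geometric_of_lt_one (by norm_num) (by norm_num)) (a + 1) hle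
    (ae_tendsto_appr G hG μ hN hconv hs (e a))

end

end Vale.Agent.IsingFIID
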