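import Vale.Agent.IsingFIID.Defs

/-!
# P161, posterior means: elementary properties and Lipschitz bounds
-/

open MeasureTheory

namespace Vale.Agent.IsingFIID

variable {V : Type*}

theorem measurable_spin : Measurable spin := measurable_of_finite _

theorem spin_mul_self (b : Bool) : spin b * spin b = 1 := by
  cases b <;> simp [spin]

theorem spin_abs (b : Bool) : |spin b| = 1 := by
  cases b <;> simp [spin]

theorem abs_phi_le_one (y : unitInterval) : |phi y| ≤ 1 := by
  have h0 := y.2.1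
  have h1 := y.2.2
  unfold phi
  rw [abs_le]
  constructor <;> linarith

theorem measurable_phi : Measurable phi := by
  unfold phi; fun_prop

theorem abs_phi_sub (x y : unitInterval) : |phi x - phi y| = 2 * |(x : ℝ) - y| := by
  unfold phi
  have : (2 * (x : ℝ) - 1 - (2 * (y : ℝ) - 1)) = 2 * ((x : ℝ) - y) := by ring
  rw [this, abs_mul, abs_of_pos (by norm_num : (0 : ℝ) < 2)]

theorem abs_factor {h : ℝ} (hh : 0 ≤ h) (b : Bool) (y : unitInterval) :
    |h * spin b * phi y| ≤ h := by
  rw [abs_mul, abs_mul, spin_abs, abs_of_nonneg hh, mul_one]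
  nlinarith [abs_phi_le_one y]

theorem factor_bounds {h : ℝ} (hh : 0 ≤ h) (b : Bool) (y : unitInterval) :
    1 - h ≤ 1 + h * spin b * phi y ∧ 1 + h * spin b * phi y ≤ 1 + h := by
  have := abs_le.1 (abs_factor hh b y)
  constructor <;> linarith

theorem lik_empty (h : ℝ) (s : V → Bool) (y : V × ℕ → unitInterval) : lik h ∅ s y = 1 := by
  simp [lik]

theorem lik_insert [DecidableEq V] (h : ℝ) {A : Finset (V × ℕ)} {i : V × ℕ} (hi : i ∉ A)
    (s : V → Bool) (y : V × ℕ → unitInterval) :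
    lik h (insert i A) s y = lik h A s y * (1 + h * spin (s i.1) * phi (y i)) := by
  unfold lik
  rw [Finset.prod_insert hi, mul_comm]

theorem lik_lower {h : ℝ} (hh : 0 ≤ h) (hh1 : h < 1) (A : Finset (V × ℕ)) (s : V → Bool)
    (y : V × ℕ → unitInterval) : (1 - h) ^ A.card ≤ lik h A s y := by
  unfold lik
  rw [← Finset.prod_const]
  exact Finset.prod_le_prod (fun i _ => by linarith) (fun i _ => (factor_bounds hh _ _).1)

theorem lik_upper {h : ℝ} (hh : 0 ≤ h) (hh1 : h < 1) (A : Finset (V × ℕ)) (s : V → Bool)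
    (y : V × ℕ → unitInterval) : lik h A s y ≤ (1 + h) ^ A.card := by
  unfold lik
  rw [← Finset.prod_const]
  exact Finset.prod_le_prod (fun i _ => by linarith [(factor_bounds hh (s i.1) (y i)).1])
    (fun i _ => (factor_bounds hh _ _).2)

theorem lik_pos {h : ℝ} (hh : 0 ≤ h) (hh1 : h < 1) (A : Finset (V × ℕ)) (s : V → Bool)
    (y : V × ℕ → unitInterval) : 0 < lik h A s y :=
  lt_of_lt_of_le (pow_pos (by linarith) _) (lik_lower hh hh1 A s y)

theorem measurable_lik (h : ℝ) (A : Finset (V × ℕ)) :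
    Measurable (fun p : (V → Bool) × (V × ℕ → unitInterval) => lik h A p.1 p.2) := by
  unfold lik
  refine Finset.measurable_prod _ fun i _ => ?_
  have h1 : Measurable fun p : (V → Bool) × (V × ℕ → unitInterval) => spin (p.1 i.1) :=
    measurable_spin.comp ((measurable_pi_apply i.1).comp measurable_fst)
  have h2 : Measurable fun p : (V → Bool) × (V × ℕ → unitInterval) => phi (p.2 i) :=
    measurable_phi.comp ((measurable_pi_apply i).comp measurable_snd)
  exact measurable_const.add ((measurable_const.mul h1).mul h2)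

theorem measurable_lik_left (h : ℝ) (A : Finset (V × ℕ)) (y : V × ℕ → unitInterval) :
    Measurable (fun s : V → Bool => lik h A s y) :=
  (measurable_lik h A).comp (measurable_id.prodMk measurable_const)

section

variable (μ : Measure (V → Bool)) [IsProbabilityMeasure μ]

set_option linter.unusedSectionVars false

theorem integrable_bdd {f : (V → Bool) → ℝ} (hf : Measurable f) {C : ℝ} (hC : ∀ s, |f s| ≤ C) :
    Integrable f μ :=
  Integrable.of_bound hf.aestronglyMeasurable C (Filter.Eventually.of_forall hC)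

theorem abs_lik_le {h : ℝ} (hh : 0 ≤ h) (hh1 : h < 1) (A : Finset (V × ℕ)) (s : V → Bool)
    (y : V × ℕ → unitInterval) : |lik h A s y| ≤ (1 + h) ^ A.card := by
  rw [abs_of_pos (lik_pos hh hh1 A s y)]
  exact lik_upper hh hh1 A s y

theorem integrable_lik {h : ℝ} (hh : 0 ≤ h) (hh1 : h < 1) (A : Finset (V × ℕ))
    (y : V × ℕ → unitInterval) {f : (V → Bool) → ℝ} (hf : Measurable f) (hf1 : ∀ s, |f s| ≤ 1) :
    Integrable (fun s => f s * lik h A s y) μ := by
  apply integrable_bdd μ (f := fun s => f s * lik h A s y)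
    (hf.mul (measurable_lik_left h A y)) (C := (1 + h) ^ A.card)
  intro s
  rw [abs_mul]
  calc |f s| * |lik h A s y| ≤ 1 * (1 + h) ^ A.card :=
        mul_le_mul (hf1 s) (abs_lik_le hh hh1 A s y) (abs_nonneg _) zero_le_one
    _ = _ := one_mul _

theorem integrable_lik' {h : ℝ} (hh : 0 ≤ h) (hh1 : h < 1) (A : Finset (V × ℕ))
    (y : V × ℕ → unitInterval) : Integrable (fun s => lik h A s y) μ := by
  simpa using integrable_lik μ hh hh1 A y (f := fun _ => 1) measurable_const (by simp)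

theorem measurable_spin_apply (w : V) : Measurable (fun s : V → Bool => spin (s w)) :=
  measurable_spin.comp (measurable_pi_apply w)

theorem pden_pos {h : ℝ} (hh : 0 ≤ h) (hh1 : h < 1) (A : Finset (V × ℕ))
    (y : V × ℕ → unitInterval) : 0 < pden μ h A y := by
  have h1 : (1 - h) ^ A.card ≤ pden μ h A y := by
    unfold pden
    calc (1 - h) ^ A.card = ∫ _, (1 - h) ^ A.card ∂μ := by simp
      _ ≤ ∫ s, lik h A s y ∂μ :=
        integral_mono (integrable_const _) (integrable_lik' μ hh hh1 A y)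
          (fun s => lik_lower hh hh1 A s y)
  exact lt_of_lt_of_le (pow_pos (by linarith) _) h1

theorem pden_empty (h : ℝ) (y : V × ℕ → unitInterval) : pden μ h ∅ y = 1 := by
  unfold pden; simp [lik_empty]

theorem abs_nden_le {h : ℝ} (hh : 0 ≤ h) (hh1 : h < 1) (A : Finset (V × ℕ)) (w : V)
    (y : V × ℕ → unitInterval) : |nden μ h A w y| ≤ pden μ h A y := by
  unfold nden pden
  refine (abs_integral_le_integral_abs).trans (le_of_eq ?_)
  congr 1
  ext s
  rw [abs_mul, spin_abs, one_mul, abs_of_pos (lik_pos hh hh1 A s y)]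

theorem abs_nden2_le {h : ℝ} (hh : 0 ≤ h) (hh1 : h < 1) (A : Finset (V × ℕ)) (u w : V)
    (y : V × ℕ → unitInterval) : |nden2 μ h A u w y| ≤ pden μ h A y := by
  unfold nden2 pden
  refine (abs_integral_le_integral_abs).trans (le_of_eq ?_)
  congr 1
  ext s
  rw [abs_mul, abs_mul, spin_abs, spin_abs, one_mul, one_mul, abs_of_pos (lik_pos hh hh1 A s y)]

theorem abs_pmean_le {h : ℝ} (hh : 0 ≤ h) (hh1 : h < 1) (A : Finset (V × ℕ)) (w : V)
    (y : V × ℕ → unitInterval) : |pmean μ h A w y| ≤ 1 := by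
  unfold pmean
  rw [abs_div, abs_of_pos (pden_pos μ hh hh1 A y)]
  exact div_le_one_of_le₀ (abs_nden_le μ hh hh1 A w y) (pden_pos μ hh hh1 A y).le

theorem pmean_mul_pden {h : ℝ} (hh : 0 ≤ h) (hh1 : h < 1) (A : Finset (V × ℕ)) (w : V)
    (y : V × ℕ → unitInterval) : pmean μ h A w y * pden μ h A y = nden μ h A w y := by
  unfold pmean
  exact div_mul_cancel₀ _ (pden_pos μ hh hh1 A y).ne'

variable [DecidableEq V]

theorem pden_insert {h : ℝ} (hh : 0 ≤ h) (hh1 : h < 1) {A : Finset (V × ℕ)} {i : V × ℕ}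
    (hi : i ∉ A) (y : V × ℕ → unitInterval) :
    pden μ h (insert i A) y = pden μ h A y + h * phi (y i) * nden μ h A i.1 y := by
  unfold pden nden
  rw [← integral_const_mul, ← integral_add (integrable_lik' μ hh hh1 A y)
    ((integrable_lik μ hh hh1 A y (measurable_spin_apply i.1)
      (fun s => (spin_abs _).le)).const_mul _)]
  congr 1
  ext s
  rw [lik_insert h hi]
  ring

theorem pden_insert' {h : ℝ} (hh : 0 ≤ h) (hh1 : h < 1) {A : Finset (V × ℕ)} {i : V × ℕ}
    (hi : i ∉ A) (y : V × ℕ → unitInterval) :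
    pden μ h (insert i A) y = pden μ h A y * (1 + h * pmean μ h A i.1 y * phi (y i)) := by
  rw [pden_insert μ hh hh1 hi, ← pmean_mul_pden μ hh hh1 A i.1 y]
  ring

theorem nden_insert {h : ℝ} (hh : 0 ≤ h) (hh1 : h < 1) {A : Finset (V × ℕ)} {i : V × ℕ}
    (hi : i ∉ A) (w : V) (y : V × ℕ → unitInterval) :
    nden μ h (insert i A) w y = nden μ h A w y + h * phi (y i) * nden2 μ h A i.1 w y := by
  unfold nden nden2
  rw [← integral_const_mul, ← integral_add
    (integrable_lik μ hh hh1 A y (measurable_spin_apply w) (fun s => (spin_abs _).le))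
    ((integrable_lik μ hh hh1 A y
      (f := fun s => spin (s i.1) * spin (s w))
      ((measurable_spin_apply i.1).mul (measurable_spin_apply w))
      (fun s => by rw [abs_mul, spin_abs, spin_abs, one_mul])).const_mul _)]
  congr 1
  ext s
  rw [lik_insert h hi]
  ring

theorem lik_congr (h : ℝ) {A : Finset (V × ℕ)} {y y' : V × ℕ → unitInterval}
    (hy : ∀ i ∈ A, y i = y' i) (s : V → Bool) : lik h A s y = lik h A s y' := by
  unfold lik
  exact Finset.prod_congr rfl fun i hi => by rw [hy i hi]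

theorem dependsOn_pden (h : ℝ) (A : Finset (V × ℕ)) :
    DependsOn (pden μ h A) (A : Set (V × ℕ)) := by
  intro y y' hy
  unfold pden
  congr 1
  ext s
  exact lik_congr h (fun i hi => hy i hi) s

theorem dependsOn_nden (h : ℝ) (A : Finset (V × ℕ)) (w : V) :
    DependsOn (nden μ h A w) (A : Set (V × ℕ)) := by
  intro y y' hy
  unfold nden
  congr 1
  ext s
  rw [lik_congr h (fun i hi => hy i hi) s]

theorem dependsOn_nden2 (h : ℝ) (A : Finset (V × ℕ)) (u w : V) :
    DependsOn (nden2 μ h A u w) (A : Set (V × ℕ)) := by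
  intro y y' hy
  unfold nden2
  congr 1
  ext s
  rw [lik_congr h (fun i hi => hy i hi) s]

theorem dependsOn_pmean (h : ℝ) (A : Finset (V × ℕ)) (w : V) :
    DependsOn (pmean μ h A w) (A : Set (V × ℕ)) := by
  intro y y' hy
  unfold pmean
  rw [dependsOn_pden μ h A hy, dependsOn_nden μ h A w hy]

theorem measurable_integral_lik (h : ℝ) (A : Finset (V × ℕ)) {f : (V → Bool) → ℝ}
    (hf : Measurable f) :
    Measurable (fun y : V × ℕ → unitInterval => ∫ s, f s * lik h A s y ∂μ) := by
  have h1 : Measurable fun p : (V → Bool) × (V × ℕ → unitInterval) => f p.1 * lik h A p.1 p.2 :=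
    (hf.comp measurable_fst).mul (measurable_lik h A)
  exact (h1.stronglyMeasurable.integral_prod_left' (μ := μ)).measurable

theorem measurable_pden (h : ℝ) (A : Finset (V × ℕ)) : Measurable (pden μ h A) := by
  have h1 := measurable_integral_lik μ h A (f := fun _ => 1) measurable_const
  simp only [one_mul] at h1
  exact h1

theorem measurable_nden (h : ℝ) (A : Finset (V × ℕ)) (w : V) : Measurable (nden μ h A w) :=
  measurable_integral_lik μ h A (measurable_spin_apply w)

theorem measurable_pmean (h : ℝ) (A : Finset (V × ℕ)) (w : V) : Measurable (pmean μ h A w) :=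
  (measurable_nden μ h A w).div (measurable_pden μ h A)

end

/-- Moebius functions in one observation. -/
theorem mobius_bound {Z0 Z1 N0 N1 a a' h c : ℝ} (hh : 0 ≤ h) (hh1 : h ≤ 1 / 2) (ha : |a| ≤ h)
    (ha' : |a'| ≤ h) (hZ : 0 < Z0) (hZ1 : |Z1| ≤ Z0) (hc : |N1 * Z0 - N0 * Z1| ≤ c * Z0 ^ 2) :
    |(N0 + a * N1) / (Z0 + a * Z1) - (N0 + a' * N1) / (Z0 + a' * Z1)| ≤ 4 * c * |a - a'| := by
  have hb : ∀ b : ℝ, |b| ≤ h → Z0 / 2 ≤ Z0 + b * Z1 := by
    intro b hb
    have h1 : |b * Z1| ≤ 1 / 2 * Z0 := by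
      rw [abs_mul]
      exact mul_le_mul (hb.trans hh1) hZ1 (abs_nonneg _) (by norm_num)
    linarith [(abs_le.1 h1).1]
  have p1 := hb a ha
  have p2 := hb a' ha'
  have q1 : 0 < Z0 + a * Z1 := by linarith
  have q2 : 0 < Z0 + a' * Z1 := by linarith
  have e : (N0 + a * N1) / (Z0 + a * Z1) - (N0 + a' * N1) / (Z0 + a' * Z1) =
      (a - a') * (N1 * Z0 - N0 * Z1) / ((Z0 + a * Z1) * (Z0 + a' * Z1)) := by
    rw [div_sub_div _ _ q1.ne' q2.ne']
    congr 1
    ring
  rw [e, abs_div, abs_mul, abs_of_pos (mul_pos q1 q2), div_le_iff₀ (mul_pos q1 q2)]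
  have h3 : Z0 ^ 2 ≤ 4 * ((Z0 + a * Z1) * (Z0 + a' * Z1)) := by nlinarith
  have hc0 : 0 ≤ c := by
    by_contra hneg
    push Not at hneg
    have : c * Z0 ^ 2 < 0 := mul_neg_of_neg_of_pos hneg (by positivity)
    linarith [abs_nonneg (N1 * Z0 - N0 * Z1)]
  calc |a - a'| * |N1 * Z0 - N0 * Z1| ≤ |a - a'| * (c * Z0 ^ 2) :=
        mul_le_mul_of_nonneg_left hc (abs_nonneg _)
    _ ≤ |a - a'| * (c * (4 * ((Z0 + a * Z1) * (Z0 + a' * Z1)))) := by
        gcongr
    _ = _ := by ring

theorem mobius_bound0 {Z0 Z1 N0 N1 a h c : ℝ} (hh1 : h ≤ 1 / 2) (ha : |a| ≤ h)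
    (hZ : 0 < Z0) (hZ1 : |Z1| ≤ Z0) (hc : |N1 * Z0 - N0 * Z1| ≤ c * Z0 ^ 2) :
    |(N0 + a * N1) / (Z0 + a * Z1) - N0 / Z0| ≤ 2 * c * |a| := by
  have p1 : Z0 / 2 ≤ Z0 + a * Z1 := by
    have h1 : |a * Z1| ≤ 1 / 2 * Z0 := by
      rw [abs_mul]
      exact mul_le_mul (ha.trans hh1) hZ1 (abs_nonneg _) (by norm_num)
    linarith [(abs_le.1 h1).1]
  have q1 : 0 < Z0 + a * Z1 := by linarith
  have e : (N0 + a * N1) / (Z0 + a * Z1) - N0 / Z0 =
      a * (N1 * Z0 - N0 * Z1) / ((Z0 + a * Z1) * Z0) := by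
    rw [div_sub_div _ _ q1.ne' hZ.ne']
    congr 1
    ring
  rw [e, abs_div, abs_mul, abs_of_pos (mul_pos q1 hZ), div_le_iff₀ (mul_pos q1 hZ)]
  have h3 : Z0 ^ 2 ≤ 2 * ((Z0 + a * Z1) * Z0) := by nlinarith
  have hc0 : 0 ≤ c := by
    by_contra hneg
    push Not at hneg
    have : c * Z0 ^ 2 < 0 := mul_neg_of_neg_of_pos hneg (by positivity)
    linarith [abs_nonneg (N1 * Z0 - N0 * Z1)]
  calc |a| * |N1 * Z0 - N0 * Z1| ≤ |a| * (c * Z0 ^ 2) :=
        mul_le_mul_of_nonneg_left hc (abs_nonneg _)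
    _ ≤ |a| * (c * (2 * ((Z0 + a * Z1) * Z0))) := by
        gcongr
    _ = _ := by ring

/-- Lipschitz bounds in single coordinates give Lipschitz bounds for finitely many coordinates. -/
theorem lip_of_update {ι : Type*} [DecidableEq ι] {f : (ι → unitInterval) → ℝ} {L : ι → ℝ}
    (A : Finset ι)
    (hL : ∀ y, ∀ j ∈ A, ∀ t, |f y - f (Function.update y j t)| ≤ L j * |(y j : ℝ) - t|) :
    ∀ y y' : ι → unitInterval, (∀ i, i ∉ A → y i = y' i) →
      |f y - f y'| ≤ ∑ j ∈ A, L j * |(y j : ℝ) - y' j| := by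
  induction A using Finset.induction_on with
  | empty =>
    intro y y' h
    have : y = y' := funext fun i => h i (by simp)
    simp [this]
  | insert j A hj ih =>
    intro y y' h
    rw [Finset.sum_insert hj]
    have h1 := hL y j (by simp) (y' j)
    have h2 := ih (fun y i hi t => hL y i (by simp [hi]) t) (Function.update y j (y' j)) y' (by
      intro i hi
      by_cases hij : i = j
      · subst hij; simp
      · rw [Function.update_of_ne hij]
        exact h i (by simp [hij, hi]))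
    have h3 : ∑ i ∈ A, L i * |((Function.update y j (y' j) i : unitInterval) : ℝ) - y' i| =
        ∑ i ∈ A, L i * |(y i : ℝ) - y' i| := by
      apply Finset.sum_congr rfl
      intro i hi
      have : i ≠ j := fun h => hj (h ▸ hi)
      rw [Function.update_of_ne this]
    rw [h3] at h2
    calc |f y - f y'| ≤ |f y - f (Function.update y j (y' j))| +
          |f (Function.update y j (y' j)) - f y'| := abs_sub_le _ _ _
      _ ≤ _ := add_le_add h1 h2

section

variable [DecidableEq V] {μ : Measure (V → Bool)} [IsProbabilityMeasure μ] {h : ℝ} {c : V → V → ℝ}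

theorem pmean_insert_eq (hh : 0 ≤ h) (hh1 : h < 1) {A : Finset (V × ℕ)} {j : V × ℕ}
    (hj : j ∉ A) (w : V) (y : V × ℕ → unitInterval) :
    pmean μ h (insert j A) w y =
      (nden μ h A w y + h * phi (y j) * nden2 μ h A j.1 w y) /
        (pden μ h A y + h * phi (y j) * nden μ h A j.1 y) := by
  unfold pmean
  rw [pden_insert μ hh hh1 hj, nden_insert μ hh hh1 hj]

theorem abs_h_phi {h : ℝ} (hh : 0 ≤ h) (y : unitInterval) : |h * phi y| ≤ h := by
  rw [abs_mul, abs_of_nonneg hh]
  nlinarith [abs_phi_le_one y]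

/-- The effect of one more observation. -/
theorem pmean_incr (hh : 0 ≤ h) (hh1 : h ≤ 1 / 2) (hc : CovBound μ h c) {A : Finset (V × ℕ)}
    {j : V × ℕ} (hj : j ∉ A) (w : V) (y : V × ℕ → unitInterval) :
    |pmean μ h (insert j A) w y - pmean μ h A w y| ≤ 2 * h * c j.1 w := by
  have hlt : h < 1 := by linarith
  have hc' : |nden2 μ h A j.1 w y * pden μ h A y - nden μ h A w y * nden μ h A j.1 y| ≤
      c j.1 w * pden μ h A y ^ 2 := by
    have := hc A y j.1 w
    rwa [mul_comm (nden μ h A j.1 y)] at this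
  have hb := mobius_bound0 hh1 (abs_h_phi hh (y j))
    (pden_pos μ hh hlt A y) (abs_nden_le μ hh hlt A j.1 y) hc'
  rw [pmean_insert_eq hh hlt hj]
  refine hb.trans ?_
  have hc0 : 0 ≤ c j.1 w := by
    have h1 := (abs_nonneg _).trans hc'
    have h2 : 0 < pden μ h A y ^ 2 := pow_pos (pden_pos μ hh hlt A y) 2
    nlinarith
  have h3 := abs_h_phi hh (y j)
  nlinarith

/-- The effect of changing one observation. -/
theorem pmean_update (hh : 0 ≤ h) (hh1 : h ≤ 1 / 2) (hc : CovBound μ h c) {A : Finset (V × ℕ)}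
    {j : V × ℕ} (hj : j ∈ A) (w : V) (y : V × ℕ → unitInterval) (t : unitInterval) :
    |pmean μ h A w y - pmean μ h A w (Function.update y j t)| ≤
      8 * h * c j.1 w * |(y j : ℝ) - t| := by
  have hlt : h < 1 := by linarith
  obtain ⟨B, hjB, rfl⟩ : ∃ B, j ∉ B ∧ A = insert j B :=
    ⟨A.erase j, Finset.notMem_erase j A, (Finset.insert_erase hj).symm⟩
  have hB : ∀ i ∈ (B : Set (V × ℕ)), y i = Function.update y j t i := by
    intro i hi
    have : i ≠ j := fun h => hjB (h ▸ hi)
    rw [Function.update_of_ne this]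
  have hc' : |nden2 μ h B j.1 w y * pden μ h B y - nden μ h B w y * nden μ h B j.1 y| ≤
      c j.1 w * pden μ h B y ^ 2 := by
    have := hc B y j.1 w
    rwa [mul_comm (nden μ h B j.1 y)] at this
  have hb := mobius_bound hh hh1 (abs_h_phi hh (y j)) (abs_h_phi hh t)
    (pden_pos μ hh hlt B y) (abs_nden_le μ hh hlt B j.1 y) hc'
  rw [pmean_insert_eq hh hlt hjB, pmean_insert_eq hh hlt hjB,
    ← dependsOn_pden μ h B hB, ← dependsOn_nden μ h B w hB, ← dependsOn_nden μ h B j.1 hB,
    ← dependsOn_nden2 μ h B j.1 w hB, Function.update_self]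
  refine hb.trans (le_of_eq ?_)
  rw [← mul_sub, abs_mul, abs_of_nonneg hh, abs_phi_sub]
  ring

theorem pmean_lip (hh : 0 ≤ h) (hh1 : h ≤ 1 / 2) (hc : CovBound μ h c) (A : Finset (V × ℕ))
    (w : V) (y y' : V × ℕ → unitInterval) :
    |pmean μ h A w y - pmean μ h A w y'| ≤
      ∑ j ∈ A, 8 * h * c j.1 w * |(y j : ℝ) - y' j| := by
  have hdep := dependsOn_pmean μ h A w
  have e : pmean μ h A w y' = pmean μ h A w (fun i => if i ∈ A then y' i else y i) := by
    apply hdep
    intro i hi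
    simp [Finset.mem_coe.1 hi]
  rw [e]
  refine (lip_of_update (L := fun j => 8 * h * c j.1 w) A
    (fun y j hj t => pmean_update hh hh1 hc hj w y t) y _ ?_).trans (le_of_eq ?_)
  · intro i hi; simp [hi]
  · apply Finset.sum_congr rfl
    intro j hj
    simp [hj]

/-- The martingale property in one more observation. -/
theorem pmean_mart (hh : 0 ≤ h) (hh1 : h < 1) (A : Finset (V × ℕ)) (w : V) (j : V × ℕ)
    (hj : j ∉ A) :
    ∃ q : (V × ℕ → unitInterval) → ℝ, DependsOn q (A : Set (V × ℕ)) ∧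
      ∀ y, pden μ h (insert j A) y * pmean μ h (insert j A) w y =
        pden μ h A y * pmean μ h A w y + phi (y j) * q y := by
  refine ⟨fun y => h * nden2 μ h A j.1 w y, ?_, ?_⟩
  · intro y y' hy
    simp only [dependsOn_nden2 μ h A j.1 w hy]
  · intro y
    rw [mul_comm (pden μ h (insert j A) y), mul_comm (pden μ h A y),
      pmean_mul_pden μ hh hh1, pmean_mul_pden μ hh hh1, nden_insert μ hh hh1 hj]
    ring

end

end Vale.Agent.IsingFIID
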