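import Vale.Agent.IsingFIID.Defs

/-!
# Product of uniforms, resampling one coordinate, Efron-Stein

Everything is on `Ω = ι → [0,1]` with the product `unif ι` of the uniform measures, `ι` countable.
-/

open MeasureTheory Function
open scoped unitInterval ENNReal

namespace Vale.Agent.IsingFIID

instance instProbUnif (ι : Type*) : IsProbabilityMeasure (unif ι) := by
  unfold unif; infer_instance

variable {ι : Type*} [DecidableEq ι]

theorem measurable_update_prod (i : ι) :
    Measurable (fun q : (ι → I) × I => update q.1 i q.2) := by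
  refine measurable_pi_iff.2 fun j => ?_
  by_cases h : j = i
  · subst h
    simpa using measurable_snd
  · have h1 : (fun q : (ι → I) × I => update q.1 i q.2 j) = fun q => q.1 j := by
      ext q; rw [update_of_ne h]
    rw [h1]
    exact (measurable_pi_apply j).comp measurable_fst

/-- Resampling one coordinate does not change the law. -/
theorem map_update_unif (i : ι) :
    ((unif ι).prod (volume : Measure I)).map (fun q : (ι → I) × I => update q.1 i q.2)
      = unif ι := by
  refine Measure.eq_infinitePi _ fun s t ht => ?_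
  have hms : MeasurableSet (Set.pi (s : Set ι) t) :=
    MeasurableSet.pi s.countable_toSet fun j _ => ht j
  rw [Measure.map_apply (measurable_update_prod i) hms]
  by_cases his : i ∈ s
  · have hpre : (fun q : (ι → I) × I => update q.1 i q.2) ⁻¹' (Set.pi (s : Set ι) t)
        = (Set.pi ((s.erase i : Finset ι) : Set ι) t) ×ˢ (t i) := by
      ext q
      simp only [Set.mem_preimage, Set.mem_pi, Finset.mem_coe, Set.mem_prod, Finset.mem_erase]
      constructor
      · intro h
        refine ⟨fun j hj => ?_, ?_⟩
        · have := h j hj.2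
          rwa [update_of_ne hj.1] at this
        · have := h i his
          rwa [update_self] at this
      · rintro ⟨h1, h2⟩ j hj
        by_cases hji : j = i
        · subst hji; rwa [update_self]
        · rw [update_of_ne hji]; exact h1 j ⟨hji, hj⟩
    rw [hpre, Measure.prod_prod, unif, Measure.infinitePi_pi _ (fun j _ => ht j),
      ← Finset.prod_erase_mul _ _ his]
  · have hpre : (fun q : (ι → I) × I => update q.1 i q.2) ⁻¹' (Set.pi (s : Set ι) t)
        = (Set.pi (s : Set ι) t) ×ˢ (Set.univ : Set I) := by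
      ext q
      simp only [Set.mem_preimage, Set.mem_pi, Finset.mem_coe, Set.mem_prod, Set.mem_univ,
        and_true]
      refine forall₂_congr fun j hj => ?_
      have hji : j ≠ i := fun h => his (h ▸ hj)
      rw [update_of_ne hji]
    rw [hpre, Measure.prod_prod, unif, Measure.infinitePi_pi _ (fun j _ => ht j)]
    simp

/-- Resampling lemma, nonnegative functions. -/
theorem lintegral_resample (i : ι) {f : (ι → I) → ℝ≥0∞} (hf : Measurable f) :
    ∫⁻ x, f x ∂(unif ι) = ∫⁻ x, (∫⁻ t : I, f (update x i t)) ∂(unif ι) := by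
  conv_lhs => rw [← map_update_unif i]
  rw [lintegral_map hf (measurable_update_prod i), lintegral_prod]
  exact (hf.comp (measurable_update_prod i)).aemeasurable

omit [DecidableEq ι] in
/-- Bounded measurable functions are integrable. -/
theorem integrable_of_bdd {F : (ι → I) → ℝ} (hF : Measurable F) {C : ℝ} (hC : ∀ x, |F x| ≤ C) :
    Integrable F (unif ι) :=
  Integrable.of_bound hF.aestronglyMeasurable C (Filter.Eventually.of_forall hC)

theorem integrable_of_bdd' {F : I → ℝ} (hF : Measurable F) {C : ℝ} (hC : ∀ x, |F x| ≤ C) :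
    Integrable F (volume : Measure I) :=
  Integrable.of_bound hF.aestronglyMeasurable C (Filter.Eventually.of_forall hC)

/-- Resampling lemma, bounded functions. -/
theorem integral_resample (i : ι) {F : (ι → I) → ℝ} (hF : Measurable F) {C : ℝ}
    (hC : ∀ x, |F x| ≤ C) :
    ∫ x, F x ∂(unif ι) = ∫ x, (∫ t : I, F (update x i t)) ∂(unif ι) := by
  conv_lhs => rw [← map_update_unif i]
  rw [integral_map (measurable_update_prod i).aemeasurable hF.aestronglyMeasurable,
    integral_prod]
  exact Integrable.of_bound (hF.comp (measurable_update_prod i)).aestronglyMeasurable C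
    (Filter.Eventually.of_forall fun q => hC _)

/-- Average over coordinate `z`. -/
noncomputable def avg (z : ι) (F : (ι → I) → ℝ) (x : ι → I) : ℝ := ∫ t : I, F (update x z t)

theorem avg_measurable (z : ι) {F : (ι → I) → ℝ} (hF : Measurable F) : Measurable (avg z F) := by
  have h : StronglyMeasurable (fun q : (ι → I) × I => F (update q.1 z q.2)) :=
    (hF.comp (measurable_update_prod z)).stronglyMeasurable
  exact (h.integral_prod_right' (ν := (volume : Measure I))).measurable

theorem measurable_update_right {F : (ι → I) → ℝ} (hF : Measurable F) (x : ι → I) (z : ι) :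
    Measurable fun t : I => F (update x z t) :=
  hF.comp (measurable_update x)

theorem abs_integral_le_of_bdd {f : I → ℝ} {C : ℝ} (h : ∀ t, |f t| ≤ C) :
    |∫ t : I, f t| ≤ C := by
  have := norm_integral_le_of_norm_le_const (μ := (volume : Measure I)) (f := f) (C := C)
    (Filter.Eventually.of_forall h)
  simpa using this

theorem avg_abs_le (z : ι) {F : (ι → I) → ℝ} {C : ℝ} (hC : ∀ x, |F x| ≤ C) (x : ι → I) :
    |avg z F x| ≤ C :=
  abs_integral_le_of_bdd fun _ => hC _

theorem avg_dependsOn (z : ι) {F : (ι → I) → ℝ} {S : Set ι} (hF : DependsOn F S) :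
    DependsOn (avg z F) (S \ {z}) := by
  intro x y hxy
  unfold avg
  congr 1
  ext t
  refine hF fun j hj => ?_
  by_cases hjz : j = z
  · subst hjz; simp
  · rw [update_of_ne hjz, update_of_ne hjz]
    exact hxy j ⟨hj, hjz⟩

theorem dependsOn_update {β : Type*} {F : (ι → I) → β} {S : Set ι} (hF : DependsOn F S) {z : ι}
    (hz : z ∉ S) (x : ι → I) (t : I) : F (update x z t) = F x :=
  hF fun j hj => update_of_ne (fun h : j = z => hz (h ▸ hj)) _ _

theorem sub_avg_eq (z : ι) {F : (ι → I) → ℝ} (hF : Measurable F) {C : ℝ} (hC : ∀ x, |F x| ≤ C)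
    (x : ι → I) : F x - avg z F x = ∫ t : I, (F x - F (update x z t)) := by
  rw [integral_sub (integrable_const _)
    (integrable_of_bdd' (measurable_update_right hF x z) (fun t => hC _))]
  simp [avg]

theorem abs_sub_avg_le (z : ι) {F : (ι → I) → ℝ} (hF : Measurable F) {C : ℝ}
    (hC : ∀ x, |F x| ≤ C) {L : ℝ} (hL : ∀ x t, |F x - F (update x z t)| ≤ L) (x : ι → I) :
    |F x - avg z F x| ≤ L := by
  rw [sub_avg_eq z hF hC]
  exact abs_integral_le_of_bdd fun t => hL x t

/-- Averages keep the oscillation in the other coordinates. -/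
theorem avg_lip {z w : ι} (hzw : z ≠ w) {F : (ι → I) → ℝ} (hF : Measurable F) {C : ℝ}
    (hC : ∀ x, |F x| ≤ C) {L : ℝ} {x : ι → I} {t : I}
    (hL : ∀ y : ι → I, y w = x w → |F y - F (update y w t)| ≤ L) :
    |avg z F x - avg z F (update x w t)| ≤ L := by
  unfold avg
  rw [← integral_sub
    (integrable_of_bdd' (measurable_update_right hF x z) (fun t => hC _))
    (integrable_of_bdd' (measurable_update_right hF _ z) (fun t => hC _))]
  refine abs_integral_le_of_bdd fun r => ?_
  rw [update_comm hzw.symm]
  exact hL _ (update_of_ne hzw.symm _ _)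

/-- `E (F H) = E (avg z F * H)` when `H` does not depend on coordinate `z`. -/
theorem integral_mul_avg (z : ι) {F H : (ι → I) → ℝ} (hF : Measurable F) (hH : Measurable H)
    {C D : ℝ} (hC : ∀ x, |F x| ≤ C) (hD : ∀ x, |H x| ≤ D)
    (hHz : ∀ x t, H (update x z t) = H x) :
    ∫ x, F x * H x ∂(unif ι) = ∫ x, avg z F x * H x ∂(unif ι) := by
  have h1 : Measurable fun x => F x * H x := hF.mul hH
  rw [integral_resample z h1 (C := C * D) (fun x => by
    rw [abs_mul]
    exact mul_le_mul (hC x) (hD x) (abs_nonneg _) ((abs_nonneg _).trans (hC x)))]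
  congr 1
  ext x
  simp only [hHz]
  rw [integral_mul_const]
  rfl

/-- Iterated averages over a list of coordinates (the head first). -/
noncomputable def avgs : List ι → ((ι → I) → ℝ) → (ι → I) → ℝ
  | [], F => F
  | z :: zs, F => avgs zs (avg z F)

theorem avgs_measurable (zs : List ι) : ∀ {F : (ι → I) → ℝ}, Measurable F →
    Measurable (avgs zs F) := by
  induction zs with
  | nil => intro F hF; exact hF
  | cons z zs ih => intro F hF; exact ih (avg_measurable z hF)

theorem avgs_abs_le (zs : List ι) : ∀ {F : (ι → I) → ℝ} {C : ℝ}, (∀ x, |F x| ≤ C) →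
    ∀ x, |avgs zs F x| ≤ C := by
  induction zs with
  | nil => intro F C hC; exact hC
  | cons z zs ih => intro F C hC; exact ih (avg_abs_le z hC)

theorem avgs_dependsOn (zs : List ι) : ∀ {F : (ι → I) → ℝ} {S : Set ι}, DependsOn F S →
    DependsOn (avgs zs F) (S \ {z | z ∈ zs}) := by
  induction zs with
  | nil => intro F S hF; simpa [avgs] using hF
  | cons z zs ih =>
    intro F S hF
    refine (ih (avg_dependsOn z hF)).mono ?_
    rintro j ⟨⟨h1, h2⟩, h3⟩
    refine ⟨h1, ?_⟩
    simp only [Set.mem_ofPred_eq, List.mem_cons, not_or]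
    exact ⟨h2, h3⟩

theorem avgs_lip (zs : List ι) : ∀ {w : ι} (_ : w ∉ zs) {F : (ι → I) → ℝ} (_ : Measurable F)
    {C : ℝ} (_ : ∀ x, |F x| ≤ C) {L : ℝ} {a t : I}
    (_ : ∀ y : ι → I, y w = a → |F y - F (update y w t)| ≤ L) (x : ι → I) (_ : x w = a),
    |avgs zs F x - avgs zs F (update x w t)| ≤ L := by
  induction zs with
  | nil => intro w _ F _ C _ L a t hL x hx; exact hL x hx
  | cons z zs ih =>
    intro w hw F hF C hC L a t hL x hx
    rw [List.mem_cons, not_or] at hw
    refine ih hw.2 (avg_measurable z hF) (avg_abs_le z hC) (a := a) ?_ x hx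
    intro y hy
    exact avg_lip (Ne.symm hw.1) hF hC (fun y' hy' => hL y' (hy'.trans hy))

/-- Efron-Stein inequality for iterated averages. -/
theorem efron_stein (L : ι → ℝ) (zs : List ι) : ∀ (_ : zs.Nodup) {F : (ι → I) → ℝ}
    (_ : Measurable F) {C : ℝ} (_ : ∀ x, |F x| ≤ C)
    (_ : ∀ z ∈ zs, ∀ x t, |F x - F (update x z t)| ≤ L z),
    ∫ x, (F x - avgs zs F x) ^ 2 ∂(unif ι) ≤ (zs.map fun z => (L z) ^ 2).sum := by
  induction zs with
  | nil => intro _ F _ C _ _; simp [avgs]
  | cons z zs ih =>
    intro hnd F hF C hC hL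
    rw [List.nodup_cons] at hnd
    have hLz := hL z List.mem_cons_self
    have hA := avg_measurable z hF
    have hAC := avg_abs_le z hC
    set G := avgs zs (avg z F) with hG
    have hGm : Measurable G := avgs_measurable zs hA
    have hGC : ∀ x, |G x| ≤ C := avgs_abs_le zs hAC
    have ih' := ih hnd.2 hA hAC (fun w hw x t => by
      refine avg_lip (fun h : z = w => hnd.1 (h ▸ hw)) hF hC (fun y _ => ?_)
      exact hL w (List.mem_cons_of_mem _ hw) y t)
    -- orthogonality
    have hdepA : ∀ x t, avg z F (update x z t) = avg z F x := fun x t => by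
      have := dependsOn_update (avg_dependsOn z (dependsOn_univ F)) (z := z) (by simp) x t
      exact this
    have hdepG : ∀ x t, G (update x z t) = G x := fun x t => by
      have h1 := avgs_dependsOn zs (avg_dependsOn z (dependsOn_univ F))
      exact dependsOn_update h1 (z := z) (by simp) x t
    have hHm : Measurable fun x => avg z F x - G x := hA.sub hGm
    have hHC : ∀ x, |avg z F x - G x| ≤ 2 * C := fun x => by
      have h1 := hAC x
      have h2 := hGC x
      have h3 := abs_sub (avg z F x) (G x)
      linarith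
    have horth := integral_mul_avg z hF hHm hC hHC (fun x t => by simp only [hdepA, hdepG])
    have hb : ∀ x, |F x - avg z F x| ≤ L z := fun x => abs_sub_avg_le z hF hC hLz x
    have i1 : Integrable (fun x => (F x - avg z F x) ^ 2) (unif ι) :=
      integrable_of_bdd ((hF.sub hA).pow_const 2) (C := (L z) ^ 2) (fun x => by
        rw [abs_pow]; exact pow_le_pow_left₀ (abs_nonneg _) (hb x) 2)
    have i2 : Integrable (fun x => (avg z F x - G x) ^ 2) (unif ι) :=
      integrable_of_bdd (hHm.pow_const 2) (C := (2 * C) ^ 2) (fun x => by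
        rw [abs_pow]; exact pow_le_pow_left₀ (abs_nonneg _) (hHC x) 2)
    have i3 : Integrable (fun x => F x * (avg z F x - G x)) (unif ι) :=
      integrable_of_bdd (hF.mul hHm) (C := C * (2 * C)) (fun x => by
        rw [abs_mul]
        exact mul_le_mul (hC x) (hHC x) (abs_nonneg _) ((abs_nonneg _).trans (hC x)))
    have i4 : Integrable (fun x => avg z F x * (avg z F x - G x)) (unif ι) :=
      integrable_of_bdd (hA.mul hHm) (C := C * (2 * C)) (fun x => by
        rw [abs_mul]
        exact mul_le_mul (hAC x) (hHC x) (abs_nonneg _) ((abs_nonneg _).trans (hAC x)))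
    have hexp : ∀ x, (F x - G x) ^ 2 = (F x - avg z F x) ^ 2 + (avg z F x - G x) ^ 2
        + 2 * (F x * (avg z F x - G x) - avg z F x * (avg z F x - G x)) := fun x => by ring
    have hint : ∫ x, (F x - G x) ^ 2 ∂(unif ι)
        = ∫ x, (F x - avg z F x) ^ 2 ∂(unif ι) + ∫ x, (avg z F x - G x) ^ 2 ∂(unif ι) := by
      have e1 : ∫ x, (F x - G x) ^ 2 ∂(unif ι)
          = ∫ x, (((F x - avg z F x) ^ 2 + (avg z F x - G x) ^ 2)
          + 2 * (F x * (avg z F x - G x) - avg z F x * (avg z F x - G x))) ∂(unif ι) :=
        integral_congr_ae (Filter.Eventually.of_forall hexp)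
      have e2 : ∫ x, (((F x - avg z F x) ^ 2 + (avg z F x - G x) ^ 2)
          + 2 * (F x * (avg z F x - G x) - avg z F x * (avg z F x - G x))) ∂(unif ι)
          = ∫ x, ((F x - avg z F x) ^ 2 + (avg z F x - G x) ^ 2) ∂(unif ι)
          + ∫ x, 2 * (F x * (avg z F x - G x) - avg z F x * (avg z F x - G x)) ∂(unif ι) :=
        integral_add (i1.add i2) ((i3.sub i4).const_mul 2)
      have e3 : ∫ x, ((F x - avg z F x) ^ 2 + (avg z F x - G x) ^ 2) ∂(unif ι)
          = ∫ x, (F x - avg z F x) ^ 2 ∂(unif ι) + ∫ x, (avg z F x - G x) ^ 2 ∂(unif ι) :=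
        integral_add i1 i2
      have e4 : ∫ x, (F x * (avg z F x - G x) - avg z F x * (avg z F x - G x)) ∂(unif ι)
          = ∫ x, F x * (avg z F x - G x) ∂(unif ι)
          - ∫ x, avg z F x * (avg z F x - G x) ∂(unif ι) := integral_sub i3 i4
      rw [e1, e2, e3, integral_const_mul, e4, horth]
      ring
    have hfirst : ∫ x, (F x - avg z F x) ^ 2 ∂(unif ι) ≤ (L z) ^ 2 := by
      have h2 : ∫ x, (F x - avg z F x) ^ 2 ∂(unif ι) ≤ ∫ x, (L z) ^ 2 ∂(unif ι) := by
        refine integral_mono i1 (integrable_const _) fun x => ?_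
        have := pow_le_pow_left₀ (abs_nonneg _) (hb x) 2
        simpa [sq_abs] using this
      simpa using h2
    show ∫ x, (F x - G x) ^ 2 ∂(unif ι) ≤ _
    rw [hint, List.map_cons, List.sum_cons]
    exact add_le_add hfirst ih'

end Vale.Agent.IsingFIID
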