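import Vale.Agent.IsingFIID.ObsDefs
import Vale.Agent.IsingFIID.Model
import Vale.Agent.IsingFIID.Resample

/-!
# P161, the law of the noisy observations
-/

open MeasureTheory Function
open scoped ENNReal

namespace Vale.Agent.IsingFIID

variable {V : Type*}

theorem measurable_obs_coord (h : ℝ) (i : V × ℕ) :
    Measurable (fun p : (V → Bool) × (V × ℕ → unitInterval) =>
      GI (h * spin (p.1 i.1)) (p.2 i)) := by
  have h1 : Measurable fun p : (V → Bool) × (V × ℕ → unitInterval) => h * spin (p.1 i.1) :=
    measurable_const.mul (measurable_spin.comp ((measurable_pi_apply i.1).comp measurable_fst))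
  have h2 : Measurable fun p : (V → Bool) × (V × ℕ → unitInterval) => p.2 i :=
    (measurable_pi_apply i).comp measurable_snd
  exact measurable_GI.comp (h1.prodMk h2)

theorem measurable_obsJ (h : ℝ) (J : Finset (V × ℕ)) :
    Measurable (fun p : (V → Bool) × (V × ℕ → unitInterval) => obsJ h J p.1 p.2) := by
  classical
  refine measurable_pi_lambda _ fun i => ?_
  by_cases hi : i ∈ J
  · have : (fun p : (V → Bool) × (V × ℕ → unitInterval) => obsJ h J p.1 p.2 i)
        = fun p => GI (h * spin (p.1 i.1)) (p.2 i) := by
      ext p
      simp [obsJ, hi]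
    rw [this]
    exact measurable_obs_coord h i
  · have : (fun p : (V → Bool) × (V × ℕ → unitInterval) => obsJ h J p.1 p.2 i)
        = fun p => p.2 i := by
      ext p
      simp [obsJ, hi]
    rw [this]
    exact (measurable_pi_apply i).comp measurable_snd

theorem measurable_obsJ_right (h : ℝ) (J : Finset (V × ℕ)) (σ : V → Bool) :
    Measurable (obsJ h J σ) :=
  (measurable_obsJ h J).comp (measurable_const.prodMk measurable_id)

theorem abs_h_spin {h : ℝ} (hh : 0 ≤ h) (hh1 : h ≤ 1 / 2) (b : Bool) : |h * spin b| ≤ 1 / 2 := by
  rw [abs_mul, spin_abs, mul_one, abs_of_nonneg hh]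
  exact hh1

theorem lik_congr' (h : ℝ) {A : Finset (V × ℕ)} {y y' : V × ℕ → unitInterval}
    (hy : ∀ i ∈ A, y i = y' i) (s : V → Bool) : lik h A s y = lik h A s y' := by
  unfold lik
  exact Finset.prod_congr rfl fun i hi => by rw [hy i hi]

theorem measurable_lik_right (h : ℝ) (A : Finset (V × ℕ)) (σ : V → Bool) :
    Measurable (fun y : V × ℕ → unitInterval => lik h A σ y) :=
  (measurable_lik h A).comp (measurable_const.prodMk measurable_id)

/-- Law of the observations for given spins. -/
theorem lintegral_obsJ {h : ℝ} (hh : 0 ≤ h) (hh1 : h ≤ 1 / 2) (σ : V → Bool)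
    (J : Finset (V × ℕ)) : ∀ {f : (V × ℕ → unitInterval) → ℝ≥0∞}, Measurable f →
    ∫⁻ U, f (obsJ h J σ U) ∂(unif (V × ℕ)) =
      ∫⁻ y, f y * ENNReal.ofReal (lik h J σ y) ∂(unif (V × ℕ)) := by
  classical
  have hlt : h < 1 := by linarith
  induction J using Finset.induction_on with
  | empty =>
    intro f _
    have e : ∀ U : V × ℕ → unitInterval, obsJ h ∅ σ U = U := by
      intro U; ext i; simp [obsJ]
    simp only [e, lik_empty, ENNReal.ofReal_one, mul_one]
  | insert i J hi ih =>
    intro f hf
    set s : ℝ := h * spin (σ i.1) with hs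
    have hs2 : |s| ≤ 1 / 2 := abs_h_spin hh hh1 _
    have e1 : ∀ U : V × ℕ → unitInterval,
        obsJ h (insert i J) σ U = update (obsJ h J σ U) i (GI s ((obsJ h J σ U) i)) := by
      intro U
      funext j
      by_cases hj : j = i
      · subst hj
        rw [update_self]
        simp [obsJ, hi, hs]
      · rw [update_of_ne hj]
        simp [obsJ, hj]
    set g : (V × ℕ → unitInterval) → ℝ≥0∞ := fun y => f (update y i (GI s (y i))) with hg
    have hgm : Measurable g := by
      refine hf.comp ?_
      have h1 : Measurable fun y : V × ℕ → unitInterval => (y, GI s (y i)) :=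
        measurable_id.prodMk ((measurable_GI_right s).comp (measurable_pi_apply i))
      exact (measurable_update_prod i).comp h1
    have hlikm := measurable_lik_right h J σ
    have hlikm' := measurable_lik_right h (insert i J) σ
    calc ∫⁻ U, f (obsJ h (insert i J) σ U) ∂(unif (V × ℕ))
        = ∫⁻ U, g (obsJ h J σ U) ∂(unif (V × ℕ)) := by
          refine lintegral_congr fun U => ?_
          rw [e1 U]
      _ = ∫⁻ y, g y * ENNReal.ofReal (lik h J σ y) ∂(unif (V × ℕ)) := ih hgm
      _ = ∫⁻ y, (∫⁻ t : unitInterval, g (update y i t) *
            ENNReal.ofReal (lik h J σ (update y i t))) ∂(unif (V × ℕ)) :=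
          lintegral_resample i (hgm.mul hlikm.ennreal_ofReal)
      _ = ∫⁻ y, (∫⁻ t : unitInterval, f (update y i t) *
            ENNReal.ofReal (lik h (insert i J) σ (update y i t))) ∂(unif (V × ℕ)) := by
          refine lintegral_congr fun y => ?_
          have hl : ∀ t : unitInterval, lik h J σ (update y i t) = lik h J σ y := by
            intro t
            refine lik_congr' h (fun j hj => ?_) σ
            rw [update_of_ne]
            rintro rfl
            exact hi hj
          have hgu : ∀ t : unitInterval, g (update y i t) = f (update y i (GI s t)) := by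
            intro t
            simp only [hg, update_self, update_idem]
          have hl2 : ∀ t : unitInterval, lik h (insert i J) σ (update y i t) =
              lik h J σ y * (1 + s * phi t) := by
            intro t
            rw [lik_insert h hi, hl, update_self, hs]
          simp only [hl, hgu, hl2]
          have hfu : Measurable fun t : unitInterval => f (update y i t) :=
            hf.comp ((measurable_update_prod i).comp (measurable_const.prodMk measurable_id))
          have hfu' : Measurable fun t : unitInterval => f (update y i (GI s t)) :=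
            hfu.comp (measurable_GI_right s)
          rw [lintegral_mul_const _ hfu', lintegral_GI hs2 hfu, ← lintegral_mul_const]
          · refine lintegral_congr fun t => ?_
            rw [ENNReal.ofReal_mul (lik_pos hh hlt J σ y).le]
            ring
          · exact hfu.mul (by
              have : Measurable fun t : unitInterval => 1 + s * phi t :=
                measurable_const.add (measurable_const.mul measurable_phi)
              exact this.ennreal_ofReal)
      _ = ∫⁻ y, f y * ENNReal.ofReal (lik h (insert i J) σ y) ∂(unif (V × ℕ)) :=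
          (lintegral_resample i (hf.mul hlikm'.ennreal_ofReal)).symm

/-- The law of the observations in `J`. -/
theorem map_obsJ {h : ℝ} (hh : 0 ≤ h) (hh1 : h ≤ 1 / 2) (μ : Measure (V → Bool))
    [IsProbabilityMeasure μ] (J : Finset (V × ℕ)) :
    (μ.prod (unif (V × ℕ))).map (fun p => obsJ h J p.1 p.2) =
      (unif (V × ℕ)).withDensity (fun y => ENNReal.ofReal (pden μ h J y)) := by
  classical
  have hlt : h < 1 := by linarith
  refine Measure.ext_of_lintegral _ fun f hf => ?_
  have hfo : Measurable fun p : (V → Bool) × (V × ℕ → unitInterval) => f (obsJ h J p.1 p.2) :=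
    hf.comp (measurable_obsJ h J)
  rw [lintegral_map hf (measurable_obsJ h J), lintegral_prod _ hfo.aemeasurable]
  have e1 : ∀ σ : V → Bool, ∫⁻ U, f (obsJ h J σ U) ∂(unif (V × ℕ)) =
      ∫⁻ y, f y * ENNReal.ofReal (lik h J σ y) ∂(unif (V × ℕ)) :=
    fun σ => lintegral_obsJ hh hh1 σ J hf
  simp only [e1]
  have hm : Measurable fun p : (V → Bool) × (V × ℕ → unitInterval) =>
      f p.2 * ENNReal.ofReal (lik h J p.1 p.2) :=
    (hf.comp measurable_snd).mul (measurable_lik h J).ennreal_ofReal
  rw [lintegral_lintegral_swap hm.aemeasurable]
  rw [lintegral_withDensity_eq_lintegral_mul _ (measurable_pden μ h J).ennreal_ofReal hf]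
  refine lintegral_congr fun y => ?_
  rw [lintegral_const_mul _ (measurable_lik_left h J y).ennreal_ofReal]
  simp only [Pi.mul_apply]
  rw [mul_comm]
  congr 1
  unfold pden
  rw [ofReal_integral_eq_lintegral_ofReal (integrable_lik' μ hh hlt J y)]
  exact Filter.Eventually.of_forall fun s => (lik_pos hh hlt J s y).le

end Vale.Agent.IsingFIID
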