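import Vale.Agent.IsingFIID.Limit
import Vale.Agent.IsingFIID.ObsLaw

/-!
# P161, law of the limiting observations
-/

open MeasureTheory Filter Function Topology

namespace Vale.Agent.IsingFIID

variable {V : Type*} [DecidableEq V]

section

variable (G : SimpleGraph V) [G.LocallyFinite] (hG : G.IsTree) (μ : Measure (V → Bool))
  [IsProbabilityMeasure μ] {h : ℝ} {N : ℕ → ℕ → ℕ}

include hG in
theorem mem_exh_eventually {e : ℕ → V × ℕ} (he : Surjective e) (i : V × ℕ) :
    ∀ᶠ j in atTop, i ∈ exh G N e j := by
  obtain ⟨a, rfl⟩ := he i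
  filter_upwards [eventually_gt_atTop a] with j hj
  unfold exh
  rw [Finset.mem_biUnion]
  exact ⟨a, Finset.mem_range.2 hj, self_mem_locJ G hG N j (e a)⟩

include hG in
theorem tendsto_obsJ {e : ℕ → V × ℕ} (he : Surjective e) (σ : V → Bool)
    (U : V × ℕ → unitInterval) :
    Tendsto (fun j => obsJ h (exh G N e j) σ U) atTop (𝓝 (obs h σ U)) := by
  rw [tendsto_pi_nhds]
  intro i
  apply tendsto_const_nhds.congr'
  filter_upwards [mem_exh_eventually (N := N) G hG he i] with j hj
  simp [obsJ, obs, hj]

theorem measurable_appr (s : V → unitInterval) (j : ℕ) :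
    Measurable fun U => appr G μ h N j s U :=
  measurable_pi_iff.2 fun i => measurable_psol_GI μ _ s i

theorem measurable_Psi_right (s : V → unitInterval) : Measurable (Psi G μ h N s) := by
  rw [measurable_pi_iff]
  intro i
  exact Measurable.limsup fun j => measurable_psol_GI μ _ s i

theorem measurable_psol_right (J : Finset (V × ℕ)) (s : V → unitInterval) :
    Measurable (psol GI μ h J s) :=
  measurable_pi_iff.2 fun i => measurable_psol_GI μ J s i

theorem measurable_obs' (h : ℝ) :
    Measurable (fun p : (V → Bool) × (V × ℕ → unitInterval) => obs h p.1 p.2) :=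
  measurable_pi_lambda _ fun i => measurable_obs_coord h i

/-- Integrals of bounded continuous functions converge along almost sure limits. -/
theorem tendsto_integral_bcf {Ω : Type*} [MeasurableSpace Ω] (P : Measure Ω)
    [IsProbabilityMeasure P] [Countable V] (f : BoundedContinuousFunction (V × ℕ → unitInterval) ℝ)
    {Z : ℕ → Ω → V × ℕ → unitInterval} (hZ : ∀ j, Measurable (Z j))
    {Y : Ω → V × ℕ → unitInterval} (hY : ∀ᵐ ω ∂P, Tendsto (fun j => Z j ω) atTop (𝓝 (Y ω))) :
    Tendsto (fun j => ∫ ω, f (Z j ω) ∂P) atTop (𝓝 (∫ ω, f (Y ω) ∂P)) := by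
  apply tendsto_integral_of_dominated_convergence (fun _ => ‖f‖)
  · intro j
    exact (f.continuous.measurable.comp (hZ j)).aestronglyMeasurable
  · exact integrable_const _
  · intro j
    exact Eventually.of_forall fun ω => f.norm_coe_le_norm _
  · filter_upwards [hY] with ω hω
    exact (f.continuous.tendsto _).comp hω

include hG in
/-- The law of the limiting observations. -/
theorem map_Psi [Countable V] (hh : 0 ≤ h) (hh1 : h ≤ 1 / 2) {c : V → V → ℝ}
    (hc0 : ∀ u w, 0 ≤ c u w) (hc : CovBound μ h c) (hN : ∀ k, Monotone (N k))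
    (hconv : ∀ (k j : ℕ) (v : V) (n : ℕ), N k j ≤ n → ∀ (J' : Finset (V × ℕ)),
      ballJ G v n k ⊆ J' → ∀ s : V → unitInterval, Injective s →
        ∫ U, |(psol GI μ h (ballJ G v n k) s U (v, k) : ℝ) - psol GI μ h J' s U (v, k)|
          ∂(unif (V × ℕ)) ≤ (1 / 2) ^ j)
    {s : V → unitInterval} (hs : Injective s) :
    (unif (V × ℕ)).map (Psi G μ h N s) = (μ.prod (unif (V × ℕ))).map
      (fun p => obs h p.1 p.2) := by
  obtain ⟨v0⟩ := hG.connected.nonempty
  have : Nonempty (V × ℕ) := ⟨(v0, 0)⟩
  obtain ⟨e, he⟩ := exists_surjective_nat (V × ℕ)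
  have hmP := measurable_Psi_right G μ (h := h) (N := N) s
  have hmO := measurable_obs' (V := V) h
  have : IsProbabilityMeasure ((unif (V × ℕ)).map (Psi G μ h N s)) :=
    Measure.isProbabilityMeasure_map hmP.aemeasurable
  have : IsProbabilityMeasure ((μ.prod (unif (V × ℕ))).map (fun p => obs h p.1 p.2)) :=
    Measure.isProbabilityMeasure_map hmO.aemeasurable
  apply ext_of_forall_integral_eq_of_IsFiniteMeasure
  intro f
  rw [integral_map hmP.aemeasurable f.continuous.measurable.aestronglyMeasurable,
    integral_map hmO.aemeasurable f.continuous.measurable.aestronglyMeasurable]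
  have h1 := tendsto_integral_bcf (unif (V × ℕ)) f
    (Z := fun j U => psol GI μ h (exh G N e j) s U) (Y := fun U => Psi G μ h N s U)
    (fun j => measurable_psol_right μ _ s) (by
      have h2 : ∀ᵐ U ∂(unif (V × ℕ)), ∀ a, Tendsto
          (fun j => psol GI μ h (exh G N e j) s U (e a)) atTop (𝓝 (Psi G μ h N s U (e a))) := by
        rw [ae_all_iff]
        intro a
        exact ae_tendsto_exh G hG μ hN hconv hs e a
      filter_upwards [h2] with U hU
      rw [tendsto_pi_nhds]
      intro i
      obtain ⟨a, rfl⟩ := he i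
      exact hU a)
  have h3 := tendsto_integral_bcf (μ.prod (unif (V × ℕ))) f
    (Z := fun j p => obsJ h (exh G N e j) p.1 p.2) (Y := fun p => obs h p.1 p.2)
    (fun j => measurable_obsJ h _)
    (Eventually.of_forall fun p => tendsto_obsJ G hG he p.1 p.2)
  have h4 : ∀ j, ∫ U, f (psol GI μ h (exh G N e j) s U) ∂(unif (V × ℕ)) =
      ∫ p, f (obsJ h (exh G N e j) p.1 p.2) ∂(μ.prod (unif (V × ℕ))) := by
    intro j
    rw [← integral_map (measurable_psol_right μ (h := h) (exh G N e j) s).aemeasurable
      f.continuous.measurable.aestronglyMeasurable,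
      map_psol μ hh hh1 hc0 hc hs, ← map_obsJ hh hh1 μ,
      integral_map (measurable_obsJ h _).aemeasurable
        f.continuous.measurable.aestronglyMeasurable]
  simp only [h4] at h1
  exact tendsto_nhds_unique h1 h3

end

end Vale.Agent.IsingFIID
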