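import Vale.Agent.IsingFIID.Tree

/-!
# Tree sums (P161 part (a), step (6))
-/

namespace Vale.Agent.IsingFIID

open SimpleGraph

variable {V : Type*}

/-- Balls are finite. -/
theorem finite_ball (G : SimpleGraph V) [G.LocallyFinite] (hG : G.Connected) (v : V) (n : ℕ) :
    {u | G.dist v u ≤ n}.Finite := by
  classical
  refine (ballF G v n).finite_toSet.subset ?_
  intro u hu
  rw [Finset.mem_coe, mem_ballF hG]
  exact hu

/-- A connected locally finite graph is countable. -/
theorem countable_of_connected (G : SimpleGraph V) [G.LocallyFinite] (hG : G.Connected) :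
    Countable V := by
  obtain ⟨v⟩ := hG.nonempty
  have h : (Set.univ : Set V) = ⋃ n : ℕ, {u | G.dist v u ≤ n} := by
    ext u
    simp only [Set.mem_univ, Set.mem_iUnion, Set.mem_ofPred_eq, true_iff]
    exact ⟨G.dist v u, le_rfl⟩
  rw [← Set.countable_univ_iff, h]
  exact Set.countable_iUnion fun n => (finite_ball G hG v n).countable

/-- The sphere of radius `n` as a finset. -/
noncomputable def sphF [DecidableEq V] (G : SimpleGraph V) [G.LocallyFinite] (v : V) (n : ℕ) : Finset V :=
  (ballF G v n).filter (fun u => G.dist v u = n)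

lemma mem_sphF [DecidableEq V] {G : SimpleGraph V} [G.LocallyFinite] (hG : G.Connected)
    {v u : V} {n : ℕ} : u ∈ sphF G v n ↔ G.dist v u = n := by
  unfold sphF
  rw [Finset.mem_filter, mem_ballF hG]
  exact ⟨fun h => h.2, fun h => ⟨h.le, h⟩⟩

lemma sphF_succ_subset [DecidableEq V] {G : SimpleGraph V} [G.LocallyFinite] (hG : G.IsTree)
    (v : V) (n : ℕ) : sphF G v (n + 1) ⊆ (sphF G v n).biUnion
      (fun w => (G.neighborFinset w).filter (fun u => G.dist v u = n + 1)) := by
  intro u hu
  rw [mem_sphF hG.connected] at hu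
  have hne : u ≠ v := by
    rintro rfl
    simp at hu
  obtain ⟨w, hadj, hd⟩ := exists_parent hG hne
  rw [Finset.mem_biUnion]
  refine ⟨w, ?_, ?_⟩
  · rw [mem_sphF hG.connected]
    omega
  · rw [Finset.mem_filter, mem_neighborFinset]
    exact ⟨hadj.symm, hu⟩

lemma card_sphF_le [DecidableEq V] {G : SimpleGraph V} [G.LocallyFinite] (hG : G.IsTree)
    {d : ℕ} (hd : 3 ≤ d) (hreg : G.IsRegularOfDegree d) (v : V) (n : ℕ) :
    ((sphF G v n).card : ℝ) ≤ 2 * ((d : ℝ) - 1) ^ n := by
  have hd' : (3 : ℝ) ≤ d := by exact_mod_cast hd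
  have hzero : (sphF G v 0).card ≤ 1 := by
    rw [Finset.card_le_one]
    intro a ha b hb
    rw [mem_sphF hG.connected, hG.connected.dist_eq_zero_iff] at ha hb
    rw [← ha, ← hb]
  induction n with
  | zero =>
    have : ((sphF G v 0).card : ℝ) ≤ 1 := by exact_mod_cast hzero
    rw [pow_zero, mul_one]
    linarith
  | succ n ih =>
    have h1 : (sphF G v (n + 1)).card ≤ ∑ w ∈ sphF G v n,
        ((G.neighborFinset w).filter (fun u => G.dist v u = n + 1)).card :=
      (Finset.card_le_card (sphF_succ_subset hG v n)).trans Finset.card_biUnion_le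
    by_cases hn : n = 0
    · subst hn
      have h2 : ∑ w ∈ sphF G v 0,
          ((G.neighborFinset w).filter (fun u => G.dist v u = 0 + 1)).card ≤ 1 * d := by
        refine (Finset.sum_le_card_nsmul _ _ d fun w _ => ?_).trans ?_
        · refine (Finset.card_filter_le _ _).trans ?_
          rw [card_neighborFinset_eq_degree, hreg w]
        · rw [smul_eq_mul]
          exact Nat.mul_le_mul_right _ hzero
      have h3 : ((sphF G v (0 + 1)).card : ℝ) ≤ d := by
        have := h1.trans h2
        rw [one_mul] at this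
        exact_mod_cast this
      refine h3.trans ?_
      simp only [zero_add, pow_one]
      linarith
    · have h2 : ∑ w ∈ sphF G v n,
          ((G.neighborFinset w).filter (fun u => G.dist v u = n + 1)).card
            ≤ (sphF G v n).card * (d - 1) := by
        refine (Finset.sum_le_card_nsmul _ _ (d - 1) fun w hw => ?_).trans ?_
        · rw [mem_sphF hG.connected] at hw
          have hne : w ≠ v := by
            rintro rfl
            simp at hw
            exact hn hw.symm
          obtain ⟨p, hadj, hdp⟩ := exists_parent hG hne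
          have hsub : (G.neighborFinset w).filter (fun u => G.dist v u = n + 1)
              ⊆ (G.neighborFinset w).erase p := by
            intro u hu
            rw [Finset.mem_filter] at hu
            rw [Finset.mem_erase]
            refine ⟨?_, hu.1⟩
            rintro rfl
            omega
          refine (Finset.card_le_card hsub).trans ?_
          rw [Finset.card_erase_of_mem (by rw [mem_neighborFinset]; exact hadj),
            card_neighborFinset_eq_degree, hreg w]
        · rw [smul_eq_mul]
      have h3 : ((sphF G v (n + 1)).card : ℝ) ≤ (sphF G v n).card * ((d : ℝ) - 1) := by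
        have := h1.trans h2
        have h4 : ((sphF G v (n + 1)).card : ℝ) ≤ (((sphF G v n).card * (d - 1) : ℕ) : ℝ) := by
          exact_mod_cast this
        rwa [Nat.cast_mul, Nat.cast_sub (by omega), Nat.cast_one] at h4
      calc ((sphF G v (n + 1)).card : ℝ) ≤ (sphF G v n).card * ((d : ℝ) - 1) := h3
        _ ≤ (2 * ((d : ℝ) - 1) ^ n) * ((d : ℝ) - 1) :=
            mul_le_mul_of_nonneg_right ih (by linarith)
        _ = 2 * ((d : ℝ) - 1) ^ (n + 1) := by ring

/-- Geometric bound for sums over vertices at distance at least `r`. -/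
theorem tree_geom (G : SimpleGraph V) (hG : G.IsTree) [G.LocallyFinite] {d : ℕ} (hd : 3 ≤ d)
    (hreg : G.IsRegularOfDegree d) {q : ℝ} (h0 : 0 ≤ q) (h2 : (d - 1) * q < 1)
    (r : ℕ) (S : Finset V) (v : V) (hS : ∀ u ∈ S, r ≤ G.dist v u) :
    ∑ u ∈ S, q ^ G.dist v u ≤ 2 * (((d : ℝ) - 1) * q) ^ r / (1 - ((d : ℝ) - 1) * q) := by
  classical
  have hd' : (3 : ℝ) ≤ d := by exact_mod_cast hd
  set K : ℕ := S.sup (fun u => G.dist v u) + 1 with hK
  have hmaps : ∀ u ∈ S, G.dist v u ∈ Finset.Ico r K := by
    intro u hu
    rw [Finset.mem_Ico]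
    refine ⟨hS u hu, ?_⟩
    have := Finset.le_sup (f := fun u => G.dist v u) hu
    omega
  rw [← Finset.sum_fiberwise_of_maps_to hmaps]
  have hρ0 : 0 ≤ ((d : ℝ) - 1) * q := mul_nonneg (by linarith) h0
  calc ∑ k ∈ Finset.Ico r K, ∑ u ∈ S with G.dist v u = k, q ^ G.dist v u
      ≤ ∑ k ∈ Finset.Ico r K, 2 * (((d : ℝ) - 1) * q) ^ k := by
        refine Finset.sum_le_sum fun k _ => ?_
        have e : ∑ u ∈ S with G.dist v u = k, q ^ G.dist v u
            = ((S.filter (fun u => G.dist v u = k)).card : ℝ) * q ^ k := by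
          rw [Finset.sum_congr rfl (g := fun _ => q ^ k)
            (fun u hu => by rw [(Finset.mem_filter.1 hu).2])]
          rw [Finset.sum_const, nsmul_eq_mul]
        rw [e]
        have hcard : ((S.filter (fun u => G.dist v u = k)).card : ℝ) ≤ 2 * ((d : ℝ) - 1) ^ k := by
          refine le_trans ?_ (card_sphF_le hG hd hreg v k)
          have : (S.filter (fun u => G.dist v u = k)).card ≤ (sphF G v k).card := by
            refine Finset.card_le_card fun u hu => ?_
            rw [mem_sphF hG.connected]
            exact (Finset.mem_filter.1 hu).2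
          exact_mod_cast this
        calc ((S.filter (fun u => G.dist v u = k)).card : ℝ) * q ^ k
            ≤ (2 * ((d : ℝ) - 1) ^ k) * q ^ k :=
              mul_le_mul_of_nonneg_right hcard (pow_nonneg h0 _)
          _ = 2 * (((d : ℝ) - 1) * q) ^ k := by rw [mul_pow]; ring
    _ = 2 * ∑ k ∈ Finset.Ico r K, (((d : ℝ) - 1) * q) ^ k := by rw [Finset.mul_sum]
    _ ≤ 2 * ((((d : ℝ) - 1) * q) ^ r / (1 - ((d : ℝ) - 1) * q)) :=
        mul_le_mul_of_nonneg_left (geom_sum_Ico_le_of_lt_one hρ0 h2) (by norm_num)
    _ = 2 * (((d : ℝ) - 1) * q) ^ r / (1 - ((d : ℝ) - 1) * q) := by ring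

/-- Tree sums, tails. -/
theorem tree_tail (G : SimpleGraph V) (hG : G.IsTree) [G.LocallyFinite] {d : ℕ} (hd : 3 ≤ d)
    (hreg : G.IsRegularOfDegree d) {q : ℝ} (h0 : 0 ≤ q) (h2 : (d - 1) * q < 1) {ε : ℝ}
    (hε : 0 < ε) :
    ∃ r : ℕ, ∀ (S : Finset V) (v : V), (∀ u ∈ S, r ≤ G.dist v u) →
      ∑ u ∈ S, q ^ G.dist v u ≤ ε := by
  have hd' : (3 : ℝ) ≤ d := by exact_mod_cast hd
  have hρ0 : 0 ≤ ((d : ℝ) - 1) * q := mul_nonneg (by linarith) h0
  have hpos : 0 < 1 - ((d : ℝ) - 1) * q := by linarith
  obtain ⟨r, hr⟩ := exists_pow_lt_of_lt_one (show 0 < ε * (1 - ((d : ℝ) - 1) * q) / 2 by positivity)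
    h2
  refine ⟨r, fun S v hS => (tree_geom G hG hd hreg h0 h2 r S v hS).trans ?_⟩
  rw [div_le_iff₀ hpos]
  linarith

/-- If `v'` is the neighbour of `v` towards `z` and `u` is on the side of `v`, the geodesic from
`u` to `z` passes through `v`. -/
lemma dist_add_of_side {G : SimpleGraph V} (hG : G.IsTree) {v v' z : V} (hadj : G.Adj v v')
    (hz : G.dist z v = G.dist z v' + 1) :
    ∀ n : ℕ, ∀ u, G.dist v u = n → G.dist v' u = n + 1 → G.dist z u = n + G.dist z v := by
  intro n
  induction n using Nat.strong_induction_on with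
  | _ n ih =>
    intro u hu hu'
    rcases Nat.eq_zero_or_pos n with rfl | hn
    · have : v = u := hG.connected.dist_eq_zero_iff.1 hu
      subst this
      simp
    · have hne : u ≠ v := by
        rintro rfl
        simp at hu
        omega
      -- parent of `u` towards `v`
      obtain ⟨a, ha, hda⟩ := exists_parent hG hne
      have side : ∀ (u a : V) (n : ℕ), 0 < n → G.dist v u = n → G.dist v' u = n + 1 → G.Adj u a →
          G.dist v u = G.dist v a + 1 → G.dist v' a = (n - 1) + 1 := by
        intro u a n hn hu hu' ha hda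
        have h3 : G.dist v' u ≤ G.dist v' a + G.dist a u := hG.connected.dist_triangle
        have h4 : G.dist a u = 1 := dist_eq_one_iff_adj.2 ha.symm
        rcases hG.dist_eq_dist_add_one_of_adj a hadj with h | h
        · rw [dist_comm (u := a) (v := v), dist_comm (u := a) (v := v')] at h
          omega
        · rw [dist_comm (u := a) (v := v), dist_comm (u := a) (v := v')] at h
          omega
      have ha' := side u a n hn hu hu' ha hda
      have iha := ih (n - 1) (by omega) a (by omega) ha'
      rcases hG.dist_eq_dist_add_one_of_adj z ha with h | h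
      · omega
      · exfalso
        rcases Nat.eq_zero_or_pos (n - 1) with h1 | h1
        · have hav : v = a := hG.connected.dist_eq_zero_iff.1 (by omega)
          subst hav
          have : u = v' := parent_unique hG ha.symm hadj h hz
          subst this
          simp at hu'
        · have hne' : a ≠ v := by
            rintro rfl
            simp at hda
            omega
          obtain ⟨b, hb, hdb⟩ := exists_parent hG hne'
          have hb' := side a b (n - 1) h1 (by omega) ha' hb hdb
          have ihb := ih (n - 1 - 1) (by omega) b (by omega) hb'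
          have : u = b := parent_unique hG ha.symm hb h (by omega)
          subst this
          omega

/-- Tree sums, convolution bound. -/
theorem tree_conv (G : SimpleGraph V) (hG : G.IsTree) [G.LocallyFinite] {d : ℕ} (hd : 3 ≤ d)
    (hreg : G.IsRegularOfDegree d) {θ lam : ℝ} (h0 : 0 ≤ θ) (h1 : θ < lam)
    (h2 : (d - 1) * lam ^ 2 < 1) :
    ∃ A0 : ℝ, 0 < A0 ∧ ∀ (S : Finset V) (v z : V),
      ∑ u ∈ S, θ ^ G.dist v u * lam ^ G.dist u z ≤ A0 * lam ^ G.dist v z := by
  have hd' : (3 : ℝ) ≤ d := by exact_mod_cast hd
  have hlam : 0 < lam := lt_of_le_of_lt h0 h1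
  have hρ : ((d : ℝ) - 1) * (θ * lam) < 1 := by
    refine lt_of_le_of_lt ?_ h2
    refine mul_le_mul_of_nonneg_left ?_ (by linarith)
    nlinarith
  set B0 : ℝ := 2 / (1 - ((d : ℝ) - 1) * (θ * lam)) with hB0
  have hB0pos : 0 < B0 := div_pos (by norm_num) (by linarith)
  have hratio : θ / lam < 1 := (div_lt_one hlam).2 h1
  have hgeom : ∀ (S : Finset V) (v : V), ∑ u ∈ S, (θ * lam) ^ G.dist v u ≤ B0 := by
    intro S v
    have := tree_geom G hG hd hreg (mul_nonneg h0 hlam.le) hρ 0 S v (fun _ _ => Nat.zero_le _)
    simpa [hB0] using this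
  refine ⟨B0 / (1 - θ / lam), div_pos hB0pos (by linarith), ?_⟩
  set A0 : ℝ := B0 / (1 - θ / lam) with hA0
  have hA0eq : θ / lam * A0 + B0 = A0 := by
    rw [hA0]
    field_simp
    have : lam - θ ≠ 0 := by linarith
    field_simp
    ring
  have hA0B0 : B0 ≤ A0 := by
    rw [← hA0eq]
    have : 0 ≤ θ / lam * A0 := mul_nonneg (div_nonneg h0 hlam.le)
      (div_pos hB0pos (by linarith)).le
    linarith
  intro S v z
  -- induction on the distance from `v` to `z`
  have key : ∀ n : ℕ, ∀ v : V, G.dist v z = n →
      ∑ u ∈ S, θ ^ G.dist v u * lam ^ G.dist u z ≤ A0 * lam ^ n := by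
    intro n
    induction n with
    | zero =>
      intro v hv
      have : v = z := hG.connected.dist_eq_zero_iff.1 hv
      subst this
      rw [pow_zero, mul_one]
      refine le_trans (le_of_eq ?_) ((hgeom S v).trans hA0B0)
      refine Finset.sum_congr rfl fun u _ => ?_
      rw [mul_pow, dist_comm (u := u) (v := v)]
    | succ n ih =>
      intro v hv
      have hne : v ≠ z := by
        rintro rfl
        simp at hv
      obtain ⟨v', hadj, hd1⟩ := exists_parent hG hne
      have hv' : G.dist v' z = n := by
        rw [dist_comm (u := z), hv] at hd1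
        rw [dist_comm]
        omega
      have ihv := ih v' hv'
      -- termwise bound
      have hterm : ∀ u ∈ S, θ ^ G.dist v u * lam ^ G.dist u z ≤
          θ * (θ ^ G.dist v' u * lam ^ G.dist u z) +
            lam ^ (n + 1) * (θ * lam) ^ G.dist v u := by
        intro u _
        rcases hG.dist_eq_dist_add_one_of_adj u hadj with h | h
        · -- `u` on the side of `v'`
          have e : θ ^ G.dist v u * lam ^ G.dist u z = θ * (θ ^ G.dist v' u * lam ^ G.dist u z) := by
            rw [dist_comm (u := v) (v := u), h, dist_comm (u := u) (v := v'), pow_succ]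
            ring
          rw [e]
          have : 0 ≤ lam ^ (n + 1) * (θ * lam) ^ G.dist v u := by positivity
          linarith
        · have e1 := dist_add_of_side hG hadj hd1 (G.dist v u) u rfl
            (by rw [dist_comm (u := v'), h, dist_comm (u := u)])
          have e2 : G.dist u z = G.dist v u + (n + 1) := by
            rw [dist_comm (u := u), e1, dist_comm (u := z), hv]
          have e : θ ^ G.dist v u * lam ^ G.dist u z
              = lam ^ (n + 1) * (θ * lam) ^ G.dist v u := by
            rw [e2, pow_add, mul_pow]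
            ring
          rw [e]
          have : 0 ≤ θ * (θ ^ G.dist v' u * lam ^ G.dist u z) := by positivity
          linarith
      calc ∑ u ∈ S, θ ^ G.dist v u * lam ^ G.dist u z
          ≤ ∑ u ∈ S, (θ * (θ ^ G.dist v' u * lam ^ G.dist u z) +
            lam ^ (n + 1) * (θ * lam) ^ G.dist v u) := Finset.sum_le_sum hterm
        _ = θ * ∑ u ∈ S, θ ^ G.dist v' u * lam ^ G.dist u z +
            lam ^ (n + 1) * ∑ u ∈ S, (θ * lam) ^ G.dist v u := by
            rw [Finset.sum_add_distrib, Finset.mul_sum, Finset.mul_sum]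
        _ ≤ θ * (A0 * lam ^ n) + lam ^ (n + 1) * B0 :=
            add_le_add (mul_le_mul_of_nonneg_left ihv h0)
              (mul_le_mul_of_nonneg_left (hgeom S v) (by positivity))
        _ = (θ / lam * A0 + B0) * lam ^ (n + 1) := by
            field_simp
            ring
        _ = A0 * lam ^ (n + 1) := by rw [hA0eq]
  exact key _ v rfl

end Vale.Agent.IsingFIID
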