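import Vale.Agent.IsingFIID.Inst
import Vale.Agent.IsingFIID.TreeSum

/-!
# P161, local convergence of the random order scheme, uniformly in the volume
-/

open MeasureTheory Function

namespace Vale.Agent.IsingFIID

set_option linter.unusedSectionVars false

variable {V : Type*} [DecidableEq V]

/-- Sums over a finite set of indices, fibred over the stages. -/
theorem sum_index_le {k : ℕ} (A : Finset (V × ℕ)) (hA : ∀ j ∈ A, j.2 < k + 1) {f : V → ℝ}
    (hf : ∀ v, 0 ≤ f v) (g : ℕ → ℝ) (hg : ∀ l, 0 ≤ g l) :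
    ∑ j ∈ A, g j.2 * f j.1 ≤ (∑ l ∈ Finset.range (k + 1), g l) *
      ∑ u ∈ A.image Prod.fst, f u := by
  rw [Finset.sum_mul_sum, ← Finset.sum_product']
  have hsub : A.image (fun j : V × ℕ => (j.2, j.1)) ⊆
      Finset.range (k + 1) ×ˢ A.image Prod.fst := by
    intro p hp
    rw [Finset.mem_image] at hp
    obtain ⟨j, hj, rfl⟩ := hp
    rw [Finset.mem_product, Finset.mem_range]
    exact ⟨hA j hj, Finset.mem_image_of_mem _ hj⟩
  have hinj : Set.InjOn (fun j : V × ℕ => (j.2, j.1)) (A : Set (V × ℕ)) := by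
    rintro ⟨a, b⟩ _ ⟨a', b'⟩ _ h
    simp only [Prod.mk.injEq] at h ⊢
    exact ⟨h.2, h.1⟩
  have e : ∑ j ∈ A, g j.2 * f j.1 =
      ∑ p ∈ A.image (fun j : V × ℕ => (j.2, j.1)), g p.1 * f p.2 := by
    rw [Finset.sum_image hinj]
  rw [e]
  exact Finset.sum_le_sum_of_subset_of_nonneg hsub fun p _ _ => mul_nonneg (hg _) (hf _)

theorem sum_two_pow (k : ℕ) : ∑ l ∈ Finset.range (k + 1), (2 : ℝ) ^ l ≤ 2 * 2 ^ k := by
  have := geom_sum_eq (by norm_num : (2 : ℝ) ≠ 1) (k + 1)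
  rw [this]
  have h2 : (2 : ℝ) ^ (k + 1) = 2 * 2 ^ k := by ring
  rw [h2]
  norm_num

/-- Uniform bound for the size of balls. -/
theorem card_ballF_le (G : SimpleGraph V) (hG : G.IsTree) [G.LocallyFinite] {d : ℕ} (hd : 3 ≤ d)
    (hreg : G.IsRegularOfDegree d) (v : V) (m : ℕ) (S : Finset V)
    (hS : ∀ u ∈ S, G.dist v u ≤ m) : (S.card : ℝ) ≤ 4 * (2 * (d : ℝ)) ^ m := by
  have hd' : (3 : ℝ) ≤ d := by exact_mod_cast hd
  have hq0 : (0 : ℝ) ≤ 1 / (2 * d) := by positivity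
  have hq1 : ((d : ℝ) - 1) * (1 / (2 * d)) ≤ 1 / 2 := by
    rw [mul_one_div, div_le_div_iff₀ (by positivity) (by norm_num)]
    linarith
  have h1 := tree_geom G hG hd hreg hq0 (by linarith) 0 S v (fun u _ => Nat.zero_le _)
  rw [pow_zero, mul_one] at h1
  have h2 : (2 : ℝ) / (1 - ((d : ℝ) - 1) * (1 / (2 * d))) ≤ 4 := by
    rw [div_le_iff₀ (by linarith)]
    linarith
  have h3 : (S.card : ℝ) * (1 / (2 * d)) ^ m ≤ ∑ u ∈ S, (1 / (2 * (d : ℝ))) ^ G.dist v u := by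
    rw [← nsmul_eq_mul, ← Finset.sum_const]
    apply Finset.sum_le_sum
    intro u hu
    apply pow_le_pow_of_le_one hq0 _ (hS u hu)
    rw [div_le_one (by positivity)]
    linarith
  have h4 : (S.card : ℝ) * (1 / (2 * d)) ^ m ≤ 4 := h3.trans (h1.trans h2)
  rw [one_div, inv_pow, ← div_eq_mul_inv, div_le_iff₀ (by positivity)] at h4
  exact h4

section

variable {G : SimpleGraph V} (μ : Measure (V → Bool)) [IsProbabilityMeasure μ] {h : ℝ}
    (hh : 0 ≤ h) (hh1 : h ≤ 1 / 2) {θ lam : ℝ} (h0 : 0 ≤ θ) (h1 : 0 ≤ lam)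
    (hc0 : ∀ u w : V, 0 ≤ θ ^ G.dist u w)
    (hc : CovBound μ h (fun u w => θ ^ G.dist u w))
    {A0 : ℝ} (hA0 : ∀ (S : Finset V) (v z : V),
      ∑ u ∈ S, θ ^ G.dist v u * lam ^ G.dist u z ≤ A0 * lam ^ G.dist v z)
    (hsmall : 16 * h ^ 2 * A0 ≤ 1)

include h0 h1 hA0 hsmall in
/-- Response of the scheme to a change of one uniform variable. -/
theorem run_response {s : V → unitInterval} {l : List (V × ℕ)} (hl : l.Nodup)
    (hs : SortedBy s l) (z : V × ℕ) (U : V × ℕ → unitInterval) (t : unitInterval) :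
    ∀ i ∈ l, |(run (isingScheme μ hh hh1 hc0 hc) l U i : ℝ) -
      run (isingScheme μ hh hh1 hc0 hc) l (update U z t) i| ≤
        (4 * 2 ^ i.2 * lam ^ G.dist i.1 z.1) * |(U z : ℝ) - t| := by
  apply response (isingScheme μ hh hh1 hc0 hc) z
    (fun i : V × ℕ => 4 * 2 ^ i.2 * lam ^ G.dist i.1 z.1) hl
  intro i l' hsuf
  have hsort : SortedBy s (i :: l') := List.Pairwise.sublist hsuf.sublist hs
  have hle : ∀ j ∈ l', j.2 < i.2 + 1 := by
    intro j hj
    unfold SortedBy at hsort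
    rw [List.pairwise_cons] at hsort
    rcases hsort.1 j hj with h2 | ⟨h2, -⟩ <;> omega
  have hlam : ∀ u w : V, 0 ≤ lam ^ G.dist u w := fun u w => pow_nonneg h1 _
  have e : ∑ j ∈ l'.toFinset, 4 * (isingScheme μ hh hh1 hc0 hc).h ^ 2 *
      (isingScheme μ hh hh1 hc0 hc).c j i * (4 * 2 ^ j.2 * lam ^ G.dist j.1 z.1) =
      16 * h ^ 2 * ∑ j ∈ l'.toFinset, 2 ^ j.2 *
        (θ ^ G.dist i.1 j.1 * lam ^ G.dist j.1 z.1) := by
    rw [Finset.mul_sum]
    apply Finset.sum_congr rfl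
    intro j _
    show 4 * h ^ 2 * θ ^ G.dist j.1 i.1 * (4 * 2 ^ j.2 * lam ^ G.dist j.1 z.1) = _
    rw [SimpleGraph.dist_comm (u := j.1) (v := i.1)]
    ring
  rw [e]
  have h2 := sum_index_le (k := i.2) l'.toFinset
    (fun j hj => hle j (List.mem_toFinset.1 hj))
    (f := fun u => θ ^ G.dist i.1 u * lam ^ G.dist u z.1)
    (fun u => mul_nonneg (pow_nonneg h0 _) (hlam _ _)) (fun l => (2 : ℝ) ^ l)
    (fun l => by positivity)
  have h3 := hA0 (l'.toFinset.image Prod.fst) i.1 z.1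
  have h4 : ∑ j ∈ l'.toFinset, 2 ^ j.2 * (θ ^ G.dist i.1 j.1 * lam ^ G.dist j.1 z.1) ≤
      (2 * 2 ^ i.2) * (A0 * lam ^ G.dist i.1 z.1) := by
    refine h2.trans ?_
    apply mul_le_mul (sum_two_pow _) h3
    · exact Finset.sum_nonneg fun u _ => mul_nonneg (pow_nonneg h0 _) (hlam _ _)
    · positivity
  have h5 : 16 * h ^ 2 * ∑ j ∈ l'.toFinset,
      2 ^ j.2 * (θ ^ G.dist i.1 j.1 * lam ^ G.dist j.1 z.1) ≤
      2 * 2 ^ i.2 * lam ^ G.dist i.1 z.1 := by
    calc _ ≤ 16 * h ^ 2 * ((2 * 2 ^ i.2) * (A0 * lam ^ G.dist i.1 z.1)) :=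
          mul_le_mul_of_nonneg_left h4 (by positivity)
      _ = (16 * h ^ 2 * A0) * (2 * 2 ^ i.2 * lam ^ G.dist i.1 z.1) := by ring
      _ ≤ 1 * (2 * 2 ^ i.2 * lam ^ G.dist i.1 z.1) :=
          mul_le_mul_of_nonneg_right hsmall (mul_nonneg (by positivity) (hlam _ _))
      _ = _ := one_mul _
  have h6 : (if i = z then (2 : ℝ) else 0) ≤ 2 * 2 ^ i.2 * lam ^ G.dist i.1 z.1 := by
    split_ifs with hiz
    · subst hiz
      rw [SimpleGraph.dist_self, pow_zero, mul_one]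
      have : (1 : ℝ) ≤ 2 ^ i.2 := one_le_pow₀ (by norm_num)
      linarith
    · exact mul_nonneg (by positivity) (hlam _ _)
  calc _ ≤ 2 * 2 ^ i.2 * lam ^ G.dist i.1 z.1 + 2 * 2 ^ i.2 * lam ^ G.dist i.1 z.1 :=
        add_le_add h6 h5
    _ = _ := by ring

theorem sum_index_le' {k : ℕ} (A : Finset (V × ℕ)) (hA : ∀ j ∈ A, j.2 < k + 1) {f : V → ℝ}
    (hf : ∀ v, 0 ≤ f v) :
    ∑ j ∈ A, f j.1 ≤ (k + 1) * ∑ u ∈ A.image Prod.fst, f u := by
  have := sum_index_le A hA hf (fun _ => 1) (fun _ => zero_le_one)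
  simpa using this

/-- Index set of the local approximation. -/
noncomputable def ballJ (G : SimpleGraph V) [G.LocallyFinite] (v : V) (n k : ℕ) :
    Finset (V × ℕ) :=
  ballF G v n ×ˢ Finset.range (k + 1)

theorem mem_ballJ (G : SimpleGraph V) [G.LocallyFinite] (hG : G.IsTree) {v : V} {n k : ℕ}
    {j : V × ℕ} : j ∈ ballJ G v n k ↔ G.dist v j.1 ≤ n ∧ j.2 < k + 1 := by
  unfold ballJ
  rw [Finset.mem_product, mem_ballF hG.connected, Finset.mem_range]

include h0 h1 hA0 hsmall hh hh1 hc in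
theorem main_bound [G.LocallyFinite] (hG : G.IsTree) {d : ℕ} (hd : 3 ≤ d)
    (hreg : G.IsRegularOfDegree d) (hlam1 : lam ≤ 1) (k : ℕ) {r1 r2 : ℕ} {ε1 ε2 : ℝ}
    (ht1 : ∀ (S : Finset V) (v : V), (∀ u ∈ S, r1 ≤ G.dist v u) →
      ∑ u ∈ S, (lam ^ 2) ^ G.dist v u ≤ ε1)
    (ht2 : ∀ (S : Finset V) (v : V), (∀ u ∈ S, r2 ≤ G.dist v u) →
      ∑ u ∈ S, (θ ^ 2) ^ G.dist v u ≤ ε2)
    {n : ℕ} (hn : r1 + r2 ≤ n) (v : V) {J' : Finset (V × ℕ)} (hJ' : ballJ G v n k ⊆ J')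
    {s : V → unitInterval} (hs : Injective s) :
    ∫ U, |(psol GI μ h (ballJ G v n k) s U (v, k) : ℝ) - psol GI μ h J' s U (v, k)|
      ∂(unif (V × ℕ)) ≤
      2 * Real.sqrt ((k + 1) * ((4 * 2 ^ k) ^ 2 * ε1)) +
        ((k + 1) * (4 * (2 * (d : ℝ)) ^ r1)) * (4 * 2 ^ k * (h / 4 *
          Real.sqrt ((k + 1) * (4 * h ^ 2 * ε2)))) := by
  have hc0 : ∀ u w : V, 0 ≤ θ ^ G.dist u w := fun u w => pow_nonneg h0 _
  -- cut the later stages
  set J'' : Finset (V × ℕ) := J'.filter (fun j => j.2 < k + 1) with hJ''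
  have hvk : (v, k) ∈ ballJ G v n k := by
    rw [mem_ballJ G hG]
    simp
  have hsub : ballJ G v n k ⊆ J'' := by
    intro j hj
    rw [hJ'', Finset.mem_filter]
    exact ⟨hJ' hj, ((mem_ballJ G hG).1 hj).2⟩
  have hcut : ∀ U, psol GI μ h J'' s U (v, k) = psol GI μ h J' s U (v, k) := by
    intro U
    apply psol_cut μ hh hh1 hc0 hc hs (Finset.filter_subset _ _)
    · intro i hi j hj
      rw [Finset.mem_filter] at hi ⊢
      rw [mem_before] at hj
      refine ⟨hj.1, ?_⟩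
      rcases hj.2 with h2 | ⟨h2, -⟩ <;> omega
    · exact hsub hvk
  obtain ⟨l, hl1, hl2, hl3⟩ := exists_sorted hs J''
  set T : V × ℕ → Prop := fun j => j ∈ ballJ G v n k with hT
  have hfl1 : (l.filter (fun i => decide (T i))).Nodup := hl1.filter _
  have hfl3 : SortedBy s (l.filter (fun i => decide (T i))) :=
    List.Pairwise.sublist List.filter_sublist hl3
  have hfl2 : (l.filter (fun i => decide (T i))).toFinset = ballJ G v n k := by
    ext j
    rw [List.mem_toFinset, List.mem_filter, ← List.mem_toFinset, hl2, decide_eq_true_eq]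
    exact ⟨fun h => h.2, fun h => ⟨hsub h, h⟩⟩
  have hi : (v, k) ∈ l := by rw [← List.mem_toFinset, hl2]; exact hsub hvk
  have hmain := main_estimate (isingScheme μ hh hh1 hc0 hc) T (fun z => G.dist v z.1 < r1)
    (v, k) hvk hl1 hi (fun z => 4 * 2 ^ k * lam ^ G.dist v z.1)
    (fun z => mul_nonneg (by positivity) (pow_nonneg h1 _))
    (fun z hz U t => run_response μ hh hh1 h0 h1 hc0 hc hA0 hsmall hfl1 hfl3 z U t (v, k)
      (by rw [← List.mem_toFinset, hfl2]; exact hvk))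
  have e1 : ∀ U, run (isingScheme μ hh hh1 hc0 hc) (l.filter (fun i => decide (T i))) U =
      psol GI μ h (ballJ G v n k) s U := by
    intro U
    rw [run_eq_psol μ hh hh1 hc0 hc hfl1 hfl3, hfl2]
  have e2 : ∀ U, run (isingScheme μ hh hh1 hc0 hc) l U = psol GI μ h J'' s U := by
    intro U
    rw [run_eq_psol μ hh hh1 hc0 hc hl1 hl3, hl2]
  simp only [e1, e2, hcut, hl2] at hmain
  refine hmain.trans (add_le_add ?_ ?_)
  · apply mul_le_mul_of_nonneg_left _ zero_le_two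
    apply Real.sqrt_le_sqrt
    have h2 := sum_index_le' (k := k)
      (J''.filter (fun z => T z ∧ ¬ G.dist v z.1 < r1))
      (fun j hj => by
        rw [Finset.mem_filter, hJ'', Finset.mem_filter] at hj
        exact hj.1.2)
      (f := fun u => (4 * 2 ^ k * lam ^ G.dist v u) ^ 2) (fun u => sq_nonneg _)
    refine h2.trans ?_
    apply mul_le_mul_of_nonneg_left _ (by positivity)
    have e3 : ∀ u, (4 * 2 ^ k * lam ^ G.dist v u) ^ 2 =
        (4 * 2 ^ k) ^ 2 * (lam ^ 2) ^ G.dist v u := by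
      intro u
      rw [mul_pow, ← pow_mul, ← pow_mul, mul_comm 2]
    simp only [e3]
    rw [← Finset.mul_sum]
    apply mul_le_mul_of_nonneg_left _ (by positivity)
    apply ht1
    intro u hu
    rw [Finset.mem_image] at hu
    obtain ⟨j, hj, rfl⟩ := hu
    rw [Finset.mem_filter] at hj
    exact not_lt.1 hj.2.2
  · have hterm : ∀ z ∈ J''.filter (fun z => T z ∧ G.dist v z.1 < r1),
        4 * 2 ^ k * lam ^ G.dist v z.1 * ((isingScheme μ hh hh1 hc0 hc).h / 4 *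
          Real.sqrt (∑ j ∈ J''.filter (fun j => ¬ T j),
            (2 * (isingScheme μ hh hh1 hc0 hc).h *
              (isingScheme μ hh hh1 hc0 hc).c j z) ^ 2)) ≤
        4 * 2 ^ k * (h / 4 * Real.sqrt ((k + 1) * (4 * h ^ 2 * ε2))) := by
      intro z hz
      rw [Finset.mem_filter] at hz
      show 4 * 2 ^ k * lam ^ G.dist v z.1 * (h / 4 *
          Real.sqrt (∑ j ∈ J''.filter (fun j => ¬ T j),
            (2 * h * θ ^ G.dist j.1 z.1) ^ 2)) ≤ _
      have h3 : ∑ j ∈ J''.filter (fun j => ¬ T j), (2 * h * θ ^ G.dist j.1 z.1) ^ 2 ≤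
          (k + 1) * (4 * h ^ 2 * ε2) := by
        have h2 := sum_index_le' (k := k) (J''.filter (fun j => ¬ T j))
          (fun j hj => by
            rw [Finset.mem_filter, hJ'', Finset.mem_filter] at hj
            exact hj.1.2)
          (f := fun u => (2 * h * θ ^ G.dist u z.1) ^ 2) (fun u => sq_nonneg _)
        refine h2.trans ?_
        apply mul_le_mul_of_nonneg_left _ (by positivity)
        have e3 : ∀ u, (2 * h * θ ^ G.dist u z.1) ^ 2 =
            4 * h ^ 2 * (θ ^ 2) ^ G.dist z.1 u := by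
          intro u
          rw [SimpleGraph.dist_comm (u := u) (v := z.1), mul_pow, mul_pow, ← pow_mul, ← pow_mul,
            mul_comm 2 (G.dist z.1 u)]
          norm_num
        simp only [e3]
        rw [← Finset.mul_sum]
        apply mul_le_mul_of_nonneg_left _ (by positivity)
        apply ht2
        intro u hu
        rw [Finset.mem_image] at hu
        obtain ⟨j, hj, rfl⟩ := hu
        rw [Finset.mem_filter, hJ'', Finset.mem_filter] at hj
        have h4 : ¬ G.dist v j.1 ≤ n := fun h4 => hj.2 ((mem_ballJ G hG).2 ⟨h4, hj.1.2⟩)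
        have h5 : G.dist v j.1 ≤ G.dist v z.1 + G.dist z.1 j.1 := hG.connected.dist_triangle
        have h6 := hz.2.2
        omega
      have h4 : lam ^ G.dist v z.1 ≤ 1 := pow_le_one₀ h1 hlam1
      have h5 : 4 * 2 ^ k * lam ^ G.dist v z.1 ≤ 4 * 2 ^ k * 1 :=
        mul_le_mul_of_nonneg_left h4 (by positivity)
      rw [mul_one] at h5
      apply mul_le_mul h5 _ (by positivity) (by positivity)
      exact mul_le_mul_of_nonneg_left (Real.sqrt_le_sqrt h3) (by positivity)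
    refine (Finset.sum_le_sum hterm).trans ?_
    rw [Finset.sum_const, nsmul_eq_mul]
    apply mul_le_mul_of_nonneg_right _ (by positivity)
    have h2 := sum_index_le' (k := k) (J''.filter (fun z => T z ∧ G.dist v z.1 < r1))
      (fun j hj => by
        rw [Finset.mem_filter, hJ'', Finset.mem_filter] at hj
        exact hj.1.2)
      (f := fun _ => (1 : ℝ)) (fun u => zero_le_one)
    rw [Finset.sum_const, nsmul_eq_mul, mul_one, Finset.sum_const, nsmul_eq_mul, mul_one] at h2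
    refine h2.trans ?_
    apply mul_le_mul_of_nonneg_left _ (by positivity)
    apply card_ballF_le G hG hd hreg v r1
    intro u hu
    rw [Finset.mem_image] at hu
    obtain ⟨j, hj, rfl⟩ := hu
    rw [Finset.mem_filter] at hj
    exact hj.2.2.le

end

/-- Local convergence, uniformly in the volume, in the vertex and in the order. -/
theorem local_conv (G : SimpleGraph V) [G.LocallyFinite] (hG : G.IsTree) {d : ℕ} (hd : 3 ≤ d)
    (hreg : G.IsRegularOfDegree d) (μ : Measure (V → Bool)) [IsProbabilityMeasure μ] {h : ℝ}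
    (hh : 0 ≤ h) (hh1 : h ≤ 1 / 2) {θ lam : ℝ} (h0 : 0 ≤ θ) (h1 : θ ≤ lam)
    (h2 : ((d : ℝ) - 1) * lam ^ 2 < 1)
    (hc : CovBound μ h (fun u w => θ ^ G.dist u w))
    {A0 : ℝ} (hA0 : ∀ (S : Finset V) (v z : V),
      ∑ u ∈ S, θ ^ G.dist v u * lam ^ G.dist u z ≤ A0 * lam ^ G.dist v z)
    (hsmall : 16 * h ^ 2 * A0 ≤ 1) (k : ℕ) {ε : ℝ} (hε : 0 < ε) :
    ∃ n0 : ℕ, ∀ n, n0 ≤ n → ∀ (v : V) (J' : Finset (V × ℕ)), ballJ G v n k ⊆ J' →
      ∀ s : V → unitInterval, Injective s →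
        ∫ U, |(psol GI μ h (ballJ G v n k) s U (v, k) : ℝ) - psol GI μ h J' s U (v, k)|
          ∂(unif (V × ℕ)) ≤ ε := by
  have hd' : (3 : ℝ) ≤ d := by exact_mod_cast hd
  have hlam0 : 0 ≤ lam := h0.trans h1
  have hlam1 : lam ≤ 1 := by
    by_contra hcon
    push Not at hcon
    have : 1 ≤ lam ^ 2 := one_le_pow₀ hcon.le
    nlinarith
  have hθ2 : ((d : ℝ) - 1) * θ ^ 2 < 1 := by
    have : θ ^ 2 ≤ lam ^ 2 := pow_le_pow_left₀ h0 h1 2
    nlinarith
  have hk : (0 : ℝ) < k + 1 := by positivity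
  have hC : (0 : ℝ) < 4 * 2 ^ k := by positivity
  -- first tail
  obtain ⟨r1, hr1⟩ := tree_tail G hG hd hreg (sq_nonneg lam) h2
    (ε := (ε / 4) ^ 2 / ((k + 1) * (4 * 2 ^ k) ^ 2)) (by positivity)
  have hN : (0 : ℝ) < (k + 1) * (4 * (2 * (d : ℝ)) ^ r1) := by positivity
  obtain ⟨r2, hr2⟩ := tree_tail G hG hd hreg (sq_nonneg θ) hθ2
    (ε := (ε / (2 * (((k + 1) * (4 * (2 * (d : ℝ)) ^ r1)) * (4 * 2 ^ k)))) ^ 2 / (k + 1))
    (by positivity)
  refine ⟨r1 + r2, fun n hn v J' hJ' s hs => ?_⟩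
  refine (main_bound μ hh hh1 h0 hlam0 hc hA0 hsmall hG hd hreg hlam1 k hr1 hr2 hn v hJ'
    hs).trans ?_
  have e1 : ((k : ℝ) + 1) * ((4 * 2 ^ k) ^ 2 * ((ε / 4) ^ 2 / ((k + 1) * (4 * 2 ^ k) ^ 2))) =
      (ε / 4) ^ 2 := by
    field_simp
  rw [e1, Real.sqrt_sq (by positivity)]
  have e2 : Real.sqrt (((k : ℝ) + 1) * (4 * h ^ 2 *
      ((ε / (2 * (((k + 1) * (4 * (2 * (d : ℝ)) ^ r1)) * (4 * 2 ^ k)))) ^ 2 / (k + 1)))) =
      2 * h * (ε / (2 * (((k + 1) * (4 * (2 * (d : ℝ)) ^ r1)) * (4 * 2 ^ k)))) := by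
    rw [← Real.sqrt_sq (show 0 ≤ 2 * h *
      (ε / (2 * (((k + 1) * (4 * (2 * (d : ℝ)) ^ r1)) * (4 * 2 ^ k)))) by positivity)]
    congr 1
    field_simp
    ring
  rw [e2]
  have e3 : ((k + 1) * (4 * (2 * (d : ℝ)) ^ r1)) * (4 * 2 ^ k * (h / 4 *
      (2 * h * (ε / (2 * (((k + 1) * (4 * (2 * (d : ℝ)) ^ r1)) * (4 * 2 ^ k))))))) =
      h ^ 2 * ε / 4 := by
    field_simp
  rw [e3]
  have h3 : h ^ 2 ≤ 1 := by nlinarith
  nlinarith

end Vale.Agent.IsingFIID
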