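import Vale.Agent.IsingFIID.Run

/-!
# Comparison of two schemes driven by the same uniforms
-/

open MeasureTheory Function Set
open scoped unitInterval ENNReal

namespace Vale.Agent.IsingFIID

variable {ι : Type*} [DecidableEq ι]

/-- Change finitely many coordinates, one at a time. -/
theorem lip_list (R : ι → ℝ) (ws : List ι) : ∀ {G : (ι → I) → ℝ} (_ : DependsOn G (lset ws))
    (_ : ∀ w ∈ ws, ∀ x t, |G x - G (update x w t)| ≤ R w * |(x w : ℝ) - t|) (_ : ws.Nodup)
    (x x' : ι → I), |G x - G x'| ≤ (ws.map fun w => R w * |(x w : ℝ) - x' w|).sum := by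
  induction ws with
  | nil =>
    intro G hG _ _ x x'
    rw [hG (x := x) (y := x') (fun i hi => absurd hi (by simp [lset]))]
    simp
  | cons w ws ih =>
    intro G hG hR hnd x x'
    rw [List.nodup_cons] at hnd
    -- the function with coordinate `w` frozen to `x' w`
    have h1 := ih (G := fun y => G (update y w (x' w))) (fun y y' hy => ?_)
      (fun v hv y t => ?_) hnd.2 x x'
    · rw [List.map_cons, List.sum_cons]
      have h2 := hR w List.mem_cons_self x (x' w)
      have h3 : update x' w (x' w) = x' := update_eq_self _ _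
      simp only [h3] at h1
      calc |G x - G x'| = |(G x - G (update x w (x' w))) + (G (update x w (x' w)) - G x')| := by
            ring_nf
        _ ≤ |G x - G (update x w (x' w))| + |G (update x w (x' w)) - G x'| := abs_add_le _ _
        _ ≤ _ := add_le_add h2 h1
    · refine hG fun j hj => ?_
      by_cases hjw : j = w
      · subst hjw; rw [update_self, update_self]
      · rw [update_of_ne hjw, update_of_ne hjw]
        exact hy j ((List.mem_cons.1 hj).resolve_left hjw)
    · have hvw : v ≠ w := fun h => hnd.1 (h ▸ hv)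
      have h2 := hR v (List.mem_cons_of_mem _ hv) (update y w (x' w)) t
      rw [update_of_ne hvw] at h2
      have h3 : update (update y v t) w (x' w) = update (update y w (x' w)) v t :=
        update_comm hvw _ _ _
      show |G (update y w (x' w)) - G (update (update y v t) w (x' w))| ≤ _
      rw [h3]
      exact h2

/-- Law of the recovered uniforms of a subscheme. -/
theorem integral_inv_run (S : Scheme ι) {l : List ι} (hl : l.Nodup) (T : ι → Prop)
    [DecidablePred T] {F : (ι → I) → ℝ} (hF : Measurable F) {C : ℝ} (hC : ∀ x, |F x| ≤ C)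
    (hdep : DependsOn F (lset (l.filter (fun i => decide (T i))))) :
    ∫ U, F (inv S (l.filter (fun i => decide (T i))) (run S l U)) ∂(unif ι)
      = ∫ U, F U ∂(unif ι) := by
  set l' := l.filter (fun i => decide (T i)) with hl'
  have hnd' : l'.Nodup := hl.filter _
  have hFm : Measurable fun y => F (inv S l' y) := hF.comp (measurable_inv S l')
  have hsub : l'.toFinset ⊆ l.toFinset := by
    intro j hj
    rw [List.mem_toFinset, hl', List.mem_filter] at hj
    rw [List.mem_toFinset]
    exact hj.1
  have hdep' : ∀ y y' : ι → I, (∀ j ∈ l', y j = y' j) → F (inv S l' y) = F (inv S l' y') :=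
    fun y y' h => hdep fun j hj => inv_congr S h j hj
  have h1 : ∫ U, F (inv S l' (run S l U)) ∂(unif ι)
      = ∫ y, S.p l.toFinset y * F (inv S l' y) ∂(unif ι) := integral_run S hl hFm
  have h2 : ∫ U, F (inv S l' (run S l' U)) ∂(unif ι)
      = ∫ y, S.p l'.toFinset y * F (inv S l' y) ∂(unif ι) := integral_run S hnd' hFm
  have h3 : ∫ y, S.p l.toFinset y * F (inv S l' y) ∂(unif ι)
      = ∫ y, S.p l'.toFinset y * F (inv S l' y) ∂(unif ι) := by
    have h4 : l.toFinset = l'.toFinset ∪ (l.toFinset \ l'.toFinset) :=
      (Finset.union_sdiff_of_subset hsub).symm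
    rw [h4]
    refine S.marginal _ _ Finset.disjoint_sdiff hFm (fun x => hC _) fun j hj x t => ?_
    refine hdep' _ _ fun k hk => update_of_ne (fun hkj => ?_) _ _
    rw [Finset.mem_sdiff] at hj
    exact hj.2 (by rw [List.mem_toFinset, ← hkj]; exact hk)
  rw [h1, h3, ← h2]
  simp_rw [inv_run S hnd']

/-- Integral of an absolute value by the second moment. -/
theorem integral_abs_le_sqrt {Ω : Type*} [MeasurableSpace Ω] (P : Measure Ω)
    [IsProbabilityMeasure P] {f : Ω → ℝ} (hf : Measurable f) {C : ℝ} (hC : ∀ x, |f x| ≤ C)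
    {B : ℝ} (hB : ∫ x, (f x) ^ 2 ∂P ≤ B) : ∫ x, |f x| ∂P ≤ Real.sqrt B := by
  have i1 : Integrable (fun x => |f x|) P :=
    Integrable.of_bound hf.norm.aestronglyMeasurable C (Filter.Eventually.of_forall fun x => by
      simpa using hC x)
  have i2 : Integrable (fun x => (f x) ^ 2) P :=
    Integrable.of_bound (hf.pow_const 2).aestronglyMeasurable (C ^ 2)
      (Filter.Eventually.of_forall fun x => by
        rw [Real.norm_eq_abs, abs_pow]; exact pow_le_pow_left₀ (abs_nonneg _) (hC x) 2)
  apply Real.le_sqrt_of_sq_le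
  refine le_trans ?_ hB
  set a := ∫ x, |f x| ∂P with ha
  have h1 : 0 ≤ ∫ x, (|f x| - a) ^ 2 ∂P := integral_nonneg fun x => sq_nonneg _
  have h2 : ∫ x, (|f x| - a) ^ 2 ∂P = ∫ x, (f x) ^ 2 ∂P - a ^ 2 := by
    have e1 : ∫ x, (|f x| - a) ^ 2 ∂P = ∫ x, ((f x) ^ 2 - (2 * a * |f x| - a ^ 2)) ∂P := by
      refine integral_congr_ae (Filter.Eventually.of_forall fun x => ?_)
      show (|f x| - a) ^ 2 = (f x) ^ 2 - (2 * a * |f x| - a ^ 2)
      rw [← sq_abs (f x)]
      ring
    have e2 : ∫ x, ((f x) ^ 2 - (2 * a * |f x| - a ^ 2)) ∂P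
        = ∫ x, (f x) ^ 2 ∂P - ∫ x, (2 * a * |f x| - a ^ 2) ∂P :=
      integral_sub i2 ((i1.const_mul _).sub (integrable_const _))
    have e3 : ∫ x, (2 * a * |f x| - a ^ 2) ∂P = ∫ x, 2 * a * |f x| ∂P - ∫ _, a ^ 2 ∂P :=
      integral_sub (i1.const_mul _) (integrable_const _)
    rw [e1, e2, e3, integral_const_mul, ← ha]
    simp
    ring
  linarith

theorem sum_filter_not_mono {T : ι → Prop} [DecidablePred T] (f : ι → ℝ) (hf : ∀ j, 0 ≤ f j)
    (a : ι) (l : List ι) :
    ∑ j ∈ l.toFinset.filter (fun j => ¬ T j), f j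
      ≤ ∑ j ∈ (a :: l).toFinset.filter (fun j => ¬ T j), f j := by
  refine Finset.sum_le_sum_of_subset_of_nonneg ?_ fun j _ _ => hf j
  refine Finset.filter_subset_filter _ ?_
  rw [List.toFinset_cons]
  exact Finset.subset_insert _ _

/-- Difference between the uniforms of the large scheme and the recovered uniforms of the
subscheme. -/
theorem integral_abs_unif_sub (S : Scheme ι) (T : ι → Prop) [DecidablePred T] (i : ι) (hTi : T i)
    {l : List ι} (hl : l.Nodup) (hi : i ∈ l) :
    ∫ U, |(U i : ℝ) - inv S (l.filter (fun i => decide (T i))) (run S l U) i| ∂(unif ι)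
      ≤ S.h / 4 * Real.sqrt (∑ j ∈ l.toFinset.filter (fun j => ¬ T j),
        (2 * S.h * S.c j i) ^ 2) := by
  have hh := S.h_nonneg
  induction l with
  | nil => simp at hi
  | cons a l ih =>
    rw [List.nodup_cons] at hl
    by_cases hia : i = a
    · subst hia
      set l' := l.filter (fun i => decide (T i)) with hl'
      have hsub : l'.toFinset ⊆ l.toFinset := by
        intro j hj
        rw [List.mem_toFinset, hl', List.mem_filter] at hj
        rw [List.mem_toFinset]
        exact hj.1
      have hfil : (i :: l).filter (fun i => decide (T i)) = i :: l' := by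
        rw [List.filter_cons_of_pos (by simpa using hTi)]
      have hlarge : ∀ U : ι → I,
          (U i : ℝ) = FI (S.h * S.m l.toFinset i (run S l U)) (run S (i :: l) U i) := fun U => by
        rw [run_cons_self, FI_GI (S.hm_abs _ _ _)]
      have hsmall : ∀ U : ι → I, inv S ((i :: l).filter (fun i => decide (T i)))
          (run S (i :: l) U) i
          = FI (S.h * S.m l'.toFinset i (run S l U)) (run S (i :: l) U i) := fun U => by
        rw [hfil, inv_cons_self]
        rw [m_congr S l' i (x := run S (i :: l) U) (y := run S l U)]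
        intro j hj
        have hjl : j ∈ l := by
          rw [hl', List.mem_filter] at hj
          exact hj.1
        exact run_cons_ne S (ne_of_mem_of_notMem' hjl hl.1) l U
      have hpt : ∀ U : ι → I, |(U i : ℝ) - inv S ((i :: l).filter (fun i => decide (T i)))
          (run S (i :: l) U) i|
          ≤ S.h / 4 * |S.m l.toFinset i (run S l U) - S.m l'.toFinset i (run S l U)| := by
        intro U
        rw [hlarge U, hsmall U]
        refine (abs_FI_sub_FI (S.hm_abs _ _ _) (S.hm_abs _ _ _) _).trans (le_of_eq ?_)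
        rw [← mul_sub, abs_mul, abs_of_nonneg hh]
        ring
      have hdm : Measurable fun y => S.m l.toFinset i y - S.m l'.toFinset i y :=
        (S.m_meas _ _).sub (S.m_meas _ _)
      have hd2 : ∀ y, |S.m l.toFinset i y - S.m l'.toFinset i y| ≤ 2 := fun y => by
        have h1 := S.m_abs l.toFinset i y
        have h2 := S.m_abs l'.toFinset i y
        have h3 := abs_sub (S.m l.toFinset i y) (S.m l'.toFinset i y)
        linarith
      have hinfo := S.info i l'.toFinset (l.toFinset \ l'.toFinset) Finset.disjoint_sdiff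
      rw [Finset.union_sdiff_of_subset hsub, ← integral_run S hl.2 (hdm.pow_const 2)] at hinfo
      have hset : l.toFinset \ l'.toFinset = l.toFinset.filter (fun j => ¬ T j) := by
        ext j
        simp only [Finset.mem_sdiff, List.mem_toFinset, Finset.mem_filter, hl', List.mem_filter,
          decide_eq_true_eq, not_and]
        constructor
        · rintro ⟨h1, h2⟩; exact ⟨h1, h2 h1⟩
        · rintro ⟨h1, h2⟩; exact ⟨h1, fun _ => h2⟩
      rw [hset] at hinfo
      have hL1 := integral_abs_le_sqrt (unif ι) (hdm.comp (measurable_run S l))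
        (fun U => hd2 _) (hinfo.trans (sum_filter_not_mono (T := T) _ (fun j => sq_nonneg _) i l))
      have hmeasLHS : Measurable fun U : ι → I => |(U i : ℝ)
          - inv S ((i :: l).filter (fun i => decide (T i))) (run S (i :: l) U) i| := by
        refine Measurable.norm (f := fun U : ι → I => (U i : ℝ)
          - inv S ((i :: l).filter (fun i => decide (T i))) (run S (i :: l) U) i) ?_
        refine (measurable_subtype_coe.comp (measurable_pi_apply i)).sub ?_
        exact measurable_subtype_coe.comp ((measurable_pi_apply i).comp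
          ((measurable_inv S _).comp (measurable_run S _)))
      have hrhs : Integrable (fun U : ι → I => S.h / 4
          * |S.m l.toFinset i (run S l U) - S.m l'.toFinset i (run S l U)|) (unif ι) :=
        (integrable_of_bdd (F := fun U => |S.m l.toFinset i (run S l U)
            - S.m l'.toFinset i (run S l U)|) ((hdm.comp (measurable_run S l)).norm) (C := 2)
            (fun U => by rw [abs_abs]; exact hd2 _)).const_mul _
      calc _ ≤ ∫ U, S.h / 4 * |S.m l.toFinset i (run S l U) - S.m l'.toFinset i (run S l U)|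
              ∂(unif ι) := by
            refine integral_mono_of_nonneg (Filter.Eventually.of_forall fun U => abs_nonneg _)
              hrhs (Filter.Eventually.of_forall hpt)
        _ = S.h / 4 * ∫ U, |S.m l.toFinset i (run S l U) - S.m l'.toFinset i (run S l U)|
              ∂(unif ι) := integral_const_mul _ _
        _ ≤ _ := mul_le_mul_of_nonneg_left hL1 (by positivity)
    · have hil : i ∈ l := (List.mem_cons.1 hi).resolve_left hia
      have ih' := ih hl.2 hil
      have heq : ∀ U : ι → I, inv S ((a :: l).filter (fun i => decide (T i)))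
          (run S (a :: l) U) i = inv S (l.filter (fun i => decide (T i))) (run S l U) i := by
        intro U
        have hmem : i ∈ l.filter (fun i => decide (T i)) := by
          rw [List.mem_filter]; exact ⟨hil, by simpa using hTi⟩
        have hcongr : ∀ j ∈ l.filter (fun i => decide (T i)),
            run S (a :: l) U j = run S l U j := fun j hj => by
          rw [List.mem_filter] at hj
          exact run_cons_ne S (ne_of_mem_of_notMem' hj.1 hl.1) l U
        by_cases hTa : T a
        · rw [List.filter_cons_of_pos (by simpa using hTa), inv_cons_ne S hia,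
            inv_congr S hcongr i hmem]
        · rw [List.filter_cons_of_neg (by simpa using hTa), inv_congr S hcongr i hmem]
      simp_rw [heq]
      refine ih'.trans (mul_le_mul_of_nonneg_left (Real.sqrt_le_sqrt ?_) (by positivity))
      exact sum_filter_not_mono (T := T) _ (fun j => sq_nonneg _) a l

/-- Main estimate: the scheme on the sublist of `l` cut out by `T`, against the scheme on `l`,
driven by the same uniforms. `R` bounds the response of the small scheme at `i`. -/
theorem main_estimate (S : Scheme ι) (T B : ι → Prop) [DecidablePred T] [DecidablePred B]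
    (i : ι) (hTi : T i) {l : List ι} (hl : l.Nodup) (hi : i ∈ l) (R : ι → ℝ) (hR0 : ∀ z, 0 ≤ R z)
    (hresp : ∀ z ∈ l.filter (fun i => decide (T i)), ∀ (U : ι → I) (t : I),
      |(run S (l.filter (fun i => decide (T i))) U i : ℝ)
        - run S (l.filter (fun i => decide (T i))) (update U z t) i| ≤ R z * |(U z : ℝ) - t|) :
    ∫ U, |(run S (l.filter (fun i => decide (T i))) U i : ℝ) - run S l U i| ∂(unif ι)
      ≤ 2 * Real.sqrt (∑ z ∈ l.toFinset.filter (fun z => T z ∧ ¬ B z), R z ^ 2)
        + ∑ z ∈ l.toFinset.filter (fun z => T z ∧ B z), R z * (S.h / 4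
          * Real.sqrt (∑ j ∈ l.toFinset.filter (fun j => ¬ T j), (2 * S.h * S.c j z) ^ 2)) := by
  set l' := l.filter (fun i => decide (T i)) with hl'
  have hnd' : l'.Nodup := hl.filter _
  set zs := l'.filter (fun i => decide (¬ B i)) with hzs
  set ws := l'.filter (fun i => decide (B i)) with hws
  have hndz : zs.Nodup := hnd'.filter _
  have hndw : ws.Nodup := hnd'.filter _
  set F : (ι → I) → ℝ := fun U => (run S l' U i : ℝ) with hF
  have hFm : Measurable F :=
    measurable_subtype_coe.comp ((measurable_pi_apply i).comp (measurable_run S l'))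
  have hF1 : ∀ U, |F U| ≤ 1 := fun U => by
    rw [abs_of_nonneg (run S l' U i).2.1]; exact (run S l' U i).2.2
  have hil' : i ∈ l' := by rw [hl', List.mem_filter]; exact ⟨hi, by simpa using hTi⟩
  have hFdep : DependsOn F (lset l') := fun x y h => by
    have := run_congr S (l := l') (U := x) (U' := y) h i hil'
    show (run S l' x i : ℝ) = run S l' y i
    rw [this]
  have hFosc : ∀ z ∈ zs, ∀ x t, |F x - F (update x z t)| ≤ R z := fun z hz x t => by
    have hz' : z ∈ l' := by rw [hzs, List.mem_filter] at hz; exact hz.1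
    refine (hresp z hz' x t).trans ?_
    have h1 : |(x z : ℝ) - t| ≤ 1 := by
      rw [abs_le]; constructor <;> linarith [(x z).2.1, (x z).2.2, t.2.1, t.2.2]
    calc R z * |(x z : ℝ) - t| ≤ R z * 1 := mul_le_mul_of_nonneg_left h1 (hR0 z)
      _ = R z := mul_one _
  set Fm := avgs zs F with hFmdef
  have hFmm : Measurable Fm := avgs_measurable zs hFm
  have hFm1 : ∀ U, |Fm U| ≤ 1 := avgs_abs_le zs hF1
  have hFmdep : DependsOn Fm (lset ws) := by
    refine (avgs_dependsOn zs hFdep).mono ?_
    rintro j ⟨h1, h2⟩
    have h1' : j ∈ l' := h1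
    have h2' : j ∉ zs := h2
    show j ∈ ws
    rw [hws, List.mem_filter]
    refine ⟨h1', ?_⟩
    by_contra hB
    apply h2'
    rw [hzs, List.mem_filter]
    exact ⟨h1', by simpa using hB⟩
  have hFmlip : ∀ w ∈ ws, ∀ x t, |Fm x - Fm (update x w t)| ≤ R w * |(x w : ℝ) - t| := by
    intro w hw x t
    have hw' : w ∈ l' ∧ B w := by rw [hws, List.mem_filter] at hw; simpa using hw
    refine avgs_lip zs (w := w) ?_ hFm hF1 (a := x w) ?_ x rfl
    · intro h
      rw [hzs, List.mem_filter] at h
      simp only [decide_eq_true_eq] at h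
      exact h.2 hw'.2
    · intro y hy
      have := hresp w hw'.1 y t
      rw [hy] at this
      exact this
  -- Efron-Stein
  have hES : ∫ U, (F U - Fm U) ^ 2 ∂(unif ι)
      ≤ ∑ z ∈ l.toFinset.filter (fun z => T z ∧ ¬ B z), R z ^ 2 := by
    refine (efron_stein R zs hndz hFm hF1 hFosc).trans (le_of_eq ?_)
    rw [← List.sum_toFinset _ hndz]
    refine Finset.sum_congr ?_ fun _ _ => rfl
    ext z
    simp only [hzs, hl', List.mem_toFinset, List.mem_filter, decide_eq_true_eq, Finset.mem_filter]
    tauto
  have hD1m : Measurable fun U => F U - Fm U := hFm.sub hFmm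
  have hD1b : ∀ U, |F U - Fm U| ≤ 2 := fun U => by
    have := abs_sub (F U) (Fm U); linarith [hF1 U, hFm1 U]
  have hL1 : ∫ U, |F U - Fm U| ∂(unif ι)
      ≤ Real.sqrt (∑ z ∈ l.toFinset.filter (fun z => T z ∧ ¬ B z), R z ^ 2) :=
    integral_abs_le_sqrt (unif ι) hD1m hD1b hES
  -- the recovered uniforms
  set V : (ι → I) → (ι → I) := fun U => inv S l' (run S l U) with hV
  have hVm : Measurable V := (measurable_inv S l').comp (measurable_run S l)
  have hFV : ∀ U, F (V U) = run S l U i := fun U => by
    show ((run S l' (inv S l' (run S l U)) i : I) : ℝ) = _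
    rw [run_inv S hnd']
  have hlaw : ∫ U, |F (V U) - Fm (V U)| ∂(unif ι) = ∫ U, |F U - Fm U| ∂(unif ι) := by
    refine integral_inv_run S hl T (F := fun U => |F U - Fm U|) hD1m.norm (C := 2)
      (fun U => by rw [abs_abs]; exact hD1b U) ?_
    intro x y h
    have h1 : F x = F y := hFdep h
    have h2 : Fm x = Fm y := hFmdep fun j hj => h j (by
      have : j ∈ ws := hj
      rw [hws, List.mem_filter] at this
      exact this.1)
    show |F x - Fm x| = |F y - Fm y|
    rw [h1, h2]
  have hmid : ∀ U, |Fm U - Fm (V U)| ≤ (ws.map fun w => R w * |(U w : ℝ) - V U w|).sum :=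
    fun U => lip_list R ws hFmdep hFmlip hndw U (V U)
  have hmid' : ∀ U, |Fm U - Fm (V U)| ≤ ∑ w ∈ ws.toFinset, R w * |(U w : ℝ) - V U w| :=
    fun U => by
      rw [List.sum_toFinset _ hndw]
      exact hmid U
  have hUVm : ∀ w : ι, Measurable fun U : ι → I => |(U w : ℝ) - V U w| := fun w => by
    refine Measurable.norm (f := fun U : ι → I => (U w : ℝ) - V U w) ?_
    exact (measurable_subtype_coe.comp (measurable_pi_apply w)).sub
      (measurable_subtype_coe.comp ((measurable_pi_apply w).comp hVm))
  have hUVi : ∀ w : ι, Integrable (fun U : ι → I => |(U w : ℝ) - V U w|) (unif ι) := fun w =>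
    integrable_of_bdd (hUVm w) (C := 1) fun U => by
      rw [abs_abs, abs_le]
      constructor <;> linarith [(U w).2.1, (U w).2.2, (V U w).2.1, (V U w).2.2]
  have hmidint : ∫ U, |Fm U - Fm (V U)| ∂(unif ι)
      ≤ ∑ z ∈ l.toFinset.filter (fun z => T z ∧ B z), R z * (S.h / 4
          * Real.sqrt (∑ j ∈ l.toFinset.filter (fun j => ¬ T j), (2 * S.h * S.c j z) ^ 2)) := by
    have hset : ws.toFinset = l.toFinset.filter (fun z => T z ∧ B z) := by
      ext z
      simp only [hws, hl', List.mem_toFinset, List.mem_filter, decide_eq_true_eq,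
        Finset.mem_filter]
      tauto
    calc ∫ U, |Fm U - Fm (V U)| ∂(unif ι)
        ≤ ∫ U, ∑ w ∈ ws.toFinset, R w * |(U w : ℝ) - V U w| ∂(unif ι) := by
          refine integral_mono_of_nonneg (Filter.Eventually.of_forall fun U => abs_nonneg _)
            ?_ (Filter.Eventually.of_forall hmid')
          exact integrable_finsetSum _ fun w _ => (hUVi w).const_mul _
      _ = ∑ w ∈ ws.toFinset, R w * ∫ U, |(U w : ℝ) - V U w| ∂(unif ι) := by
          rw [integral_finsetSum _ fun w _ => (hUVi w).const_mul _]
          exact Finset.sum_congr rfl fun w _ => integral_const_mul _ _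
      _ ≤ _ := by
          rw [hset]
          refine Finset.sum_le_sum fun w hw => mul_le_mul_of_nonneg_left ?_ (hR0 w)
          rw [Finset.mem_filter, List.mem_toFinset] at hw
          exact integral_abs_unif_sub S T w hw.2.1 hl hw.1
  -- assembly
  have j1 : Integrable (fun U => |F U - Fm U|) (unif ι) :=
    integrable_of_bdd hD1m.norm (C := 2) fun U => by rw [abs_abs]; exact hD1b U
  have j3 : Integrable (fun U => |F (V U) - Fm (V U)|) (unif ι) :=
    integrable_of_bdd (hD1m.comp hVm).norm (C := 2) fun U => by rw [abs_abs]; exact hD1b _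
  have j2 : Integrable (fun U => |Fm U - Fm (V U)|) (unif ι) :=
    integrable_of_bdd (F := fun U => |Fm U - Fm (V U)|) (hFmm.sub (hFmm.comp hVm)).norm (C := 2)
      fun U => by
        rw [abs_abs]
        have := abs_sub (Fm U) (Fm (V U)); linarith [hFm1 U, hFm1 (V U)]
  have hpt : ∀ U, |(run S l' U i : ℝ) - run S l U i|
      ≤ (|F U - Fm U| + |Fm U - Fm (V U)|) + |F (V U) - Fm (V U)| := fun U => by
    rw [← hFV U]
    show |F U - F (V U)| ≤ _
    have e : F U - F (V U) = ((F U - Fm U) + (Fm U - Fm (V U))) - (F (V U) - Fm (V U)) := by ring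
    rw [e]
    exact (abs_sub _ _).trans (add_le_add (abs_add_le _ _) le_rfl)
  calc ∫ U, |(run S l' U i : ℝ) - run S l U i| ∂(unif ι)
      ≤ ∫ U, ((|F U - Fm U| + |Fm U - Fm (V U)|) + |F (V U) - Fm (V U)|) ∂(unif ι) :=
        integral_mono_of_nonneg (Filter.Eventually.of_forall fun U => abs_nonneg _)
          ((j1.add j2).add j3) (Filter.Eventually.of_forall hpt)
    _ = (∫ U, |F U - Fm U| ∂(unif ι) + ∫ U, |Fm U - Fm (V U)| ∂(unif ι))
        + ∫ U, |F (V U) - Fm (V U)| ∂(unif ι) := by
        have e1 : ∫ U, ((|F U - Fm U| + |Fm U - Fm (V U)|) + |F (V U) - Fm (V U)|) ∂(unif ι)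
            = ∫ U, (|F U - Fm U| + |Fm U - Fm (V U)|) ∂(unif ι)
              + ∫ U, |F (V U) - Fm (V U)| ∂(unif ι) := integral_add (j1.add j2) j3
        have e2 : ∫ U, (|F U - Fm U| + |Fm U - Fm (V U)|) ∂(unif ι)
            = ∫ U, |F U - Fm U| ∂(unif ι) + ∫ U, |Fm U - Fm (V U)| ∂(unif ι) :=
          integral_add j1 j2
        rw [e1, e2]
    _ ≤ _ := by
        rw [hlaw]
        linarith

end Vale.Agent.IsingFIID
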