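import Vale.Agent.IsingFIID.Scheme

/-!
# The sequential scheme: exact law, inverse, response to a change of one uniform
-/

open MeasureTheory Function Set
open scoped unitInterval ENNReal

namespace Vale.Agent.IsingFIID

variable {ι : Type*} [DecidableEq ι]

/-- The set of indices of a list. -/
def lset (l : List ι) : Set ι := {j | j ∈ l}

omit [DecidableEq ι] in
theorem mem_lset {l : List ι} {j : ι} : j ∈ lset l ↔ j ∈ l := Iff.rfl

theorem coe_toFinset (l : List ι) : ((l.toFinset : Finset ι) : Set ι) = lset l := by
  ext j; simp [mem_lset]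

theorem run_nil (S : Scheme ι) (U : ι → I) : run S [] U = U := rfl

theorem run_cons (S : Scheme ι) (i : ι) (l : List ι) (U : ι → I) : run S (i :: l) U
    = update (run S l U) i (GI (S.h * S.m l.toFinset i (run S l U)) (U i)) := rfl

theorem inv_cons (S : Scheme ι) (i : ι) (l : List ι) (y : ι → I) : inv S (i :: l) y
    = update (inv S l y) i (FI (S.h * S.m l.toFinset i y) (y i)) := rfl

theorem run_cons_self (S : Scheme ι) (i : ι) (l : List ι) (U : ι → I) : run S (i :: l) U i
    = GI (S.h * S.m l.toFinset i (run S l U)) (U i) := by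
  rw [run_cons, update_self]

theorem run_cons_ne (S : Scheme ι) {i j : ι} (h : j ≠ i) (l : List ι) (U : ι → I) :
    run S (i :: l) U j = run S l U j := by
  rw [run_cons, update_of_ne h]

theorem inv_cons_self (S : Scheme ι) (i : ι) (l : List ι) (y : ι → I) : inv S (i :: l) y i
    = FI (S.h * S.m l.toFinset i y) (y i) := by
  rw [inv_cons, update_self]

theorem inv_cons_ne (S : Scheme ι) {i j : ι} (h : j ≠ i) (l : List ι) (y : ι → I) :
    inv S (i :: l) y j = inv S l y j := by
  rw [inv_cons, update_of_ne h]

omit [DecidableEq ι] in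
theorem ne_of_mem_of_notMem' {l : List ι} {i j : ι} (hj : j ∈ l) (hi : i ∉ l) : j ≠ i :=
  fun h => hi (h ▸ hj)

theorem run_notMem (S : Scheme ι) {l : List ι} {j : ι} (hj : j ∉ l) (U : ι → I) :
    run S l U j = U j := by
  induction l with
  | nil => rfl
  | cons i l ih =>
    rw [List.mem_cons, not_or] at hj
    rw [run_cons_ne S hj.1, ih hj.2]

theorem inv_notMem (S : Scheme ι) {l : List ι} {j : ι} (hj : j ∉ l) (y : ι → I) :
    inv S l y j = y j := by
  induction l with
  | nil => rfl
  | cons i l ih =>
    rw [List.mem_cons, not_or] at hj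
    rw [inv_cons_ne S hj.1, ih hj.2]

theorem m_congr (S : Scheme ι) (l : List ι) (i : ι) {x y : ι → I} (h : ∀ j ∈ l, x j = y j) :
    S.m l.toFinset i x = S.m l.toFinset i y :=
  S.m_dep _ _ (by rw [coe_toFinset]; exact h)

/-- `run S l U` on `l` only depends on `U` on `l`. -/
theorem run_congr (S : Scheme ι) {l : List ι} {U U' : ι → I} (h : ∀ j ∈ l, U j = U' j) :
    ∀ j ∈ l, run S l U j = run S l U' j := by
  induction l with
  | nil => intro j hj; simp at hj
  | cons i l ih =>
    have h' : ∀ j ∈ l, U j = U' j := fun j hj => h j (List.mem_cons_of_mem _ hj)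
    intro j hj
    by_cases hji : j = i
    · subst hji
      rw [run_cons_self, run_cons_self, m_congr S l j (ih h'), h j List.mem_cons_self]
    · rw [run_cons_ne S hji, run_cons_ne S hji]
      exact ih h' j ((List.mem_cons.1 hj).resolve_left hji)

theorem inv_congr (S : Scheme ι) {l : List ι} {y y' : ι → I} (h : ∀ j ∈ l, y j = y' j) :
    ∀ j ∈ l, inv S l y j = inv S l y' j := by
  induction l with
  | nil => intro j hj; simp at hj
  | cons i l ih =>
    have h' : ∀ j ∈ l, y j = y' j := fun j hj => h j (List.mem_cons_of_mem _ hj)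
    intro j hj
    by_cases hji : j = i
    · subst hji
      rw [inv_cons_self, inv_cons_self, m_congr S l j h', h j List.mem_cons_self]
    · rw [inv_cons_ne S hji, inv_cons_ne S hji]
      exact ih h' j ((List.mem_cons.1 hj).resolve_left hji)

/-- `run` and changes of a coordinate outside the list. -/
theorem run_update (S : Scheme ι) {l : List ι} {i : ι} (hi : i ∉ l) (U : ι → I) (t : I) :
    run S l (update U i t) = update (run S l U) i t := by
  funext j
  by_cases hj : j ∈ l
  · have hji := ne_of_mem_of_notMem' hj hi
    rw [update_of_ne hji]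
    refine run_congr S (fun k hk => ?_) j hj
    exact update_of_ne (ne_of_mem_of_notMem' hk hi) _ _
  · rw [run_notMem S hj]
    by_cases hji : j = i
    · subst hji; rw [update_self, update_self]
    · rw [update_of_ne hji, update_of_ne hji, run_notMem S hj]

theorem inv_run (S : Scheme ι) {l : List ι} (hl : l.Nodup) (U : ι → I) :
    inv S l (run S l U) = U := by
  induction l with
  | nil => rfl
  | cons i l ih =>
    rw [List.nodup_cons] at hl
    funext j
    by_cases hji : j = i
    · subst hji
      rw [inv_cons_self, run_cons_self]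
      have : S.m l.toFinset j (run S (j :: l) U) = S.m l.toFinset j (run S l U) :=
        m_congr S l j fun k hk => run_cons_ne S (ne_of_mem_of_notMem' hk hl.1) l U
      rw [this, FI_GI (S.hm_abs _ _ _)]
    · rw [inv_cons_ne S hji]
      by_cases hj : j ∈ l
      · rw [inv_congr S (l := l) (y' := run S l U)
          (fun k hk => run_cons_ne S (ne_of_mem_of_notMem' hk hl.1) l U) j hj, ih hl.2]
      · rw [inv_notMem S hj, run_cons_ne S hji, run_notMem S hj]

theorem run_inv (S : Scheme ι) {l : List ι} (hl : l.Nodup) (y : ι → I) :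
    run S l (inv S l y) = y := by
  induction l with
  | nil => rfl
  | cons i l ih =>
    rw [List.nodup_cons] at hl
    have h1 : ∀ k ∈ l, inv S (i :: l) y k = inv S l y k := fun k hk =>
      inv_cons_ne S (ne_of_mem_of_notMem' hk hl.1) l y
    have h2 : ∀ k ∈ l, run S l (inv S (i :: l) y) k = y k := fun k hk => by
      rw [run_congr S h1 k hk, ih hl.2]
    funext j
    by_cases hji : j = i
    · subst hji
      rw [run_cons_self, m_congr S l j h2, inv_cons_self, GI_FI (S.hm_abs _ _ _)]
    · rw [run_cons_ne S hji]
      by_cases hj : j ∈ l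
      · exact h2 j hj
      · rw [run_notMem S hj, inv_cons_ne S hji, inv_notMem S hj]

theorem measurable_run (S : Scheme ι) (l : List ι) : Measurable (run S l) := by
  induction l with
  | nil => exact measurable_id
  | cons i l ih =>
    have h1 : Measurable fun U : ι → I => GI (S.h * S.m l.toFinset i (run S l U)) (U i) :=
      measurable_GI.comp ((((S.m_meas _ _).comp ih).const_mul _).prodMk (measurable_pi_apply i))
    have h2 : Measurable fun U : ι → I =>
        update (run S l U) i (GI (S.h * S.m l.toFinset i (run S l U)) (U i)) :=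
      (measurable_update_prod i).comp (ih.prodMk h1)
    exact h2

theorem measurable_inv (S : Scheme ι) (l : List ι) : Measurable (inv S l) := by
  induction l with
  | nil => exact measurable_id
  | cons i l ih =>
    have h1 : Measurable fun y : ι → I => FI (S.h * S.m l.toFinset i y) (y i) :=
      measurable_FI.comp (((S.m_meas _ _).const_mul _).prodMk (measurable_pi_apply i))
    have h2 : Measurable fun y : ι → I =>
        update (inv S l y) i (FI (S.h * S.m l.toFinset i y) (y i)) :=
      (measurable_update_prod i).comp (ih.prodMk h1)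
    exact h2

/-- Exact law of the scheme. -/
theorem run_law (S : Scheme ι) {l : List ι} (hl : l.Nodup) {f : (ι → I) → ℝ≥0∞}
    (hf : Measurable f) :
    ∫⁻ U, f (run S l U) ∂(unif ι) = ∫⁻ y, f y * ENNReal.ofReal (S.p l.toFinset y) ∂(unif ι) := by
  induction l generalizing f with
  | nil => simp [run, S.p_empty]
  | cons i l ih =>
    rw [List.nodup_cons] at hl
    have hiF : i ∉ l.toFinset := by simpa using hl.1
    have hiS : i ∉ (l.toFinset : Set ι) := by simpa using hl.1
    have hpm := S.p_meas (i :: l).toFinset
    have hf1 : Measurable fun U : ι → I => f (run S (i :: l) U) := hf.comp (measurable_run S _)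
    have hf2 : Measurable fun y : ι → I => f y * ENNReal.ofReal (S.p (i :: l).toFinset y) :=
      hf.mul hpm.ennreal_ofReal
    rw [lintegral_resample i hf1, lintegral_resample i hf2]
    set g : (ι → I) → ℝ≥0∞ := fun x =>
      ∫⁻ t : I, f (update x i t) * ENNReal.ofReal (1 + S.h * S.m l.toFinset i x * phi t) with hg
    have hgm : Measurable g := by
      have h1 : Measurable fun q : (ι → I) × I => f (update q.1 i q.2)
          * ENNReal.ofReal (1 + S.h * S.m l.toFinset i q.1 * phi q.2) := by
        refine (hf.comp (measurable_update_prod i)).mul (Measurable.ennreal_ofReal ?_)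
        exact measurable_const.add ((((S.m_meas _ _).comp measurable_fst).const_mul _).mul
          (phi_measurable'.comp measurable_snd))
      exact h1.lintegral_prod_right'
    have hL : ∀ U : ι → I, ∫⁻ t : I, f (run S (i :: l) (update U i t)) = g (run S l U) := by
      intro U
      have h1 : ∀ t : I, f (run S (i :: l) (update U i t))
          = f (update (run S l U) i (GI (S.h * S.m l.toFinset i (run S l U)) t)) := fun t => by
        rw [run_cons, run_update S hl.1, dependsOn_update (S.m_dep _ _) hiS, update_self,
          update_idem]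
      simp_rw [h1]
      exact lintegral_GI (S.hm_abs _ _ _) (hf.comp (measurable_update _))
    have hR : ∀ y : ι → I, ∫⁻ t : I, f (update y i t)
        * ENNReal.ofReal (S.p (i :: l).toFinset (update y i t))
        = g y * ENNReal.ofReal (S.p l.toFinset y) := by
      intro y
      have h1 : ∀ t : I, f (update y i t) * ENNReal.ofReal (S.p (i :: l).toFinset (update y i t))
          = ENNReal.ofReal (S.p l.toFinset y) * (f (update y i t)
            * ENNReal.ofReal (1 + S.h * S.m l.toFinset i y * phi t)) := fun t => by
        rw [List.toFinset_cons, S.p_insert _ _ _ hiF, dependsOn_update (S.p_dep _) hiS,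
          dependsOn_update (S.m_dep _ _) hiS, update_self, ENNReal.ofReal_mul (S.p_nonneg _ _)]
        ring
      simp_rw [h1]
      rw [lintegral_const_mul, mul_comm]
      refine (hf.comp (measurable_update _)).mul (Measurable.ennreal_ofReal ?_)
      exact measurable_const.add (phi_measurable'.const_mul _)
    rw [lintegral_congr hL, lintegral_congr hR]
    exact ih hl.2 hgm

/-- Exact law of the scheme, as measures. -/
theorem map_run (S : Scheme ι) {l : List ι} (hl : l.Nodup) :
    (unif ι).map (run S l)
      = (unif ι).withDensity (fun y => ENNReal.ofReal (S.p l.toFinset y)) := by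
  ext s hs
  rw [← lintegral_indicator_one hs, lintegral_map (measurable_one.indicator hs)
    (measurable_run S l), run_law S hl (measurable_one.indicator hs), withDensity_apply _ hs,
    ← lintegral_indicator hs]
  congr 1
  ext y
  by_cases hy : y ∈ s <;> simp [hy]

/-- Exact law of the scheme, bounded functions. -/
theorem integral_run (S : Scheme ι) {l : List ι} (hl : l.Nodup) {F : (ι → I) → ℝ}
    (hF : Measurable F) :
    ∫ U, F (run S l U) ∂(unif ι) = ∫ y, S.p l.toFinset y * F y ∂(unif ι) := by
  rw [← integral_map (measurable_run S l).aemeasurable hF.aestronglyMeasurable, map_run S hl,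
    integral_withDensity_eq_integral_toReal_smul (S.p_meas _).ennreal_ofReal
      (Filter.Eventually.of_forall fun _ => ENNReal.ofReal_lt_top)]
  congr 1
  ext y
  rw [ENNReal.toReal_ofReal (S.p_nonneg _ _), smul_eq_mul]

/-- Response of the scheme to a change of one uniform. -/
theorem response (S : Scheme ι) (z : ι) (R : ι → ℝ) {l : List ι} (hl : l.Nodup)
    (hR : ∀ i l', (i :: l') <:+ l →
      (if i = z then 2 else 0) + ∑ j ∈ l'.toFinset, 4 * S.h ^ 2 * S.c j i * R j ≤ R i)
    (U : ι → I) (t : I) :
    ∀ i ∈ l, |(run S l U i : ℝ) - run S l (update U z t) i| ≤ R i * |(U z : ℝ) - t| := by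
  induction l with
  | nil => intro i hi; simp at hi
  | cons a l ih =>
    rw [List.nodup_cons] at hl
    have ih' := ih hl.2 (fun i l' h => hR i l' (h.trans (List.suffix_cons a l)))
    intro i hi
    by_cases hia : i = a
    · subst hia
      rw [run_cons_self, run_cons_self]
      refine (abs_GI_sub_GI (S.hm_abs _ _ _) (S.hm_abs _ _ _) _ _).trans ?_
      rw [← mul_sub, abs_mul, abs_of_nonneg S.h_nonneg]
      have h1 := S.lip l.toFinset i (run S l U) (run S l (update U z t))
      have h2 : ∑ j ∈ l.toFinset, 8 * S.h * S.c j i
            * |(run S l U j : ℝ) - run S l (update U z t) j|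
          ≤ ∑ j ∈ l.toFinset, 8 * S.h * S.c j i * (R j * |(U z : ℝ) - t|) := by
        refine Finset.sum_le_sum fun j hj => ?_
        refine mul_le_mul_of_nonneg_left (ih' j (by simpa using hj)) ?_
        have := S.c_nonneg j i
        have := S.h_nonneg
        positivity
      have h3 : |(U i : ℝ) - update U z t i| ≤ (if i = z then 1 else 0) * |(U z : ℝ) - t| := by
        by_cases hiz : i = z
        · subst hiz; simp
        · simp [hiz]
      have h4 := hR i l (List.suffix_refl _)
      have h5 : S.h * (∑ j ∈ l.toFinset, 8 * S.h * S.c j i * (R j * |(U z : ℝ) - t|)) / 2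
          = (∑ j ∈ l.toFinset, 4 * S.h ^ 2 * S.c j i * R j) * |(U z : ℝ) - t| := by
        rw [Finset.mul_sum, Finset.sum_div, Finset.sum_mul]
        refine Finset.sum_congr rfl fun j _ => ?_
        ring
      have h6 : S.h * |S.m l.toFinset i (run S l U) - S.m l.toFinset i (run S l (update U z t))|
          / 2 ≤ (∑ j ∈ l.toFinset, 4 * S.h ^ 2 * S.c j i * R j) * |(U z : ℝ) - t| := by
        rw [← h5]
        have := mul_le_mul_of_nonneg_left (h1.trans h2) S.h_nonneg
        linarith
      have h7 : 2 * |(U i : ℝ) - update U z t i| ≤ (if i = z then 2 else 0) * |(U z : ℝ) - t| := by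
        by_cases hiz : i = z
        · subst hiz; simp
        · simp [hiz]
      calc 2 * |(U i : ℝ) - update U z t i|
            + S.h * |S.m l.toFinset i (run S l U) - S.m l.toFinset i (run S l (update U z t))| / 2
          ≤ (if i = z then 2 else 0) * |(U z : ℝ) - t|
            + (∑ j ∈ l.toFinset, 4 * S.h ^ 2 * S.c j i * R j) * |(U z : ℝ) - t| :=
            add_le_add h7 h6
        _ = ((if i = z then 2 else 0) + ∑ j ∈ l.toFinset, 4 * S.h ^ 2 * S.c j i * R j)
            * |(U z : ℝ) - t| := by ring
        _ ≤ R i * |(U z : ℝ) - t| := mul_le_mul_of_nonneg_right h4 (abs_nonneg _)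
    · rw [run_cons_ne S hia, run_cons_ne S hia]
      exact ih' i ((List.mem_cons.1 hi).resolve_left hia)

/-- Cutting off the later part of the scheme. -/
theorem run_append (S : Scheme ι) {l₁ l₂ : List ι} {i : ι} (hi : i ∉ l₁) (U : ι → I) :
    run S (l₁ ++ l₂) U i = run S l₂ U i := by
  induction l₁ with
  | nil => rfl
  | cons a l ih =>
    rw [List.mem_cons, not_or] at hi
    rw [List.cons_append, run_cons_ne S hi.1, ih hi.2]

theorem run_append_of_nodup (S : Scheme ι) {l₁ l₂ : List ι} (h : (l₁ ++ l₂).Nodup) {i : ι}
    (hi : i ∈ l₂) (U : ι → I) : run S (l₁ ++ l₂) U i = run S l₂ U i :=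
  run_append S (fun h1 => (List.nodup_append.1 h).2.2 i h1 i hi rfl) U

/-- Fixed point property of the scheme. -/
theorem run_fixed (S : Scheme ι) {l₁ l₂ : List ι} {i : ι} (h : (l₁ ++ i :: l₂).Nodup)
    (U : ι → I) : run S (l₁ ++ i :: l₂) U i
      = GI (S.h * S.m l₂.toFinset i (run S (l₁ ++ i :: l₂) U)) (U i) := by
  rw [run_append_of_nodup S h List.mem_cons_self, run_cons_self]
  congr 2
  refine m_congr S l₂ i fun j hj => ?_
  rw [run_append_of_nodup S h (List.mem_cons_of_mem _ hj)]
  have h2 : (i :: l₂).Nodup := (List.nodup_append.1 h).2.1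
  exact (run_cons_ne S (ne_of_mem_of_notMem' hj (List.nodup_cons.1 h2).1) l₂ U).symm

end Vale.Agent.IsingFIID
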