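import Vale.Agent.IsingFIID.OneDim

/-!
# Abstract sequential scheme

`S : Scheme ι` is a consistent family of densities `p A` on `[0,1]^A`, `A` finite, obtained by
successive noisy observations of spins.  `run S l U` generates the observations in the index list
`l` (reverse chronological order) from iid uniforms `U`, `inv S l` is its inverse.
-/

open MeasureTheory Function Set
open scoped unitInterval ENNReal

namespace Vale.Agent.IsingFIID

/-- Abstract data of a sequential scheme. -/
structure Scheme (ι : Type*) [DecidableEq ι] where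
  /-- strength of one observation -/
  h : ℝ
  h_nonneg : 0 ≤ h
  h_le : h ≤ 1 / 2
  /-- density of the observations in `A` -/
  p : Finset ι → (ι → I) → ℝ
  /-- posterior mean of the spin at the vertex of `i`, given the observations in `A` -/
  m : Finset ι → ι → (ι → I) → ℝ
  /-- covariance bounds -/
  c : ι → ι → ℝ
  c_nonneg : ∀ j i, 0 ≤ c j i
  p_empty : ∀ y, p ∅ y = 1
  p_insert : ∀ (A : Finset ι) (i : ι) (y : ι → I), i ∉ A → p (insert i A) y = p A y * (1 + h * m A i y * phi (y i))
  m_meas : ∀ A i, Measurable (m A i)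
  m_dep : ∀ A i, DependsOn (m A i) (A : Set ι)
  m_abs : ∀ A i y, |m A i y| ≤ 1
  mart : ∀ (A : Finset ι) (i j : ι), j ∉ A → ∃ q : (ι → I) → ℝ, DependsOn q (A : Set ι) ∧
    ∀ y, p (insert j A) y * m (insert j A) i y = p A y * m A i y + phi (y j) * q y
  incr : ∀ (A : Finset ι) (i j : ι) (y : ι → I), j ∉ A → |m (insert j A) i y - m A i y| ≤ 2 * h * c j i
  lip : ∀ (A : Finset ι) (i : ι) (y y' : ι → I), |m A i y - m A i y'| ≤ ∑ j ∈ A, 8 * h * c j i * |(y j : ℝ) - y' j|

variable {ι : Type*} [DecidableEq ι]

/-- Generate the observations in `l` (reverse chronological order) from `U`. -/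
noncomputable def run (S : Scheme ι) : List ι → (ι → I) → (ι → I)
  | [], U => U
  | i :: l, U => update (run S l U) i (GI (S.h * S.m l.toFinset i (run S l U)) (U i))

/-- Recover the uniforms from the observations. -/
noncomputable def inv (S : Scheme ι) : List ι → (ι → I) → (ι → I)
  | [], y => y
  | i :: l, y => update (inv S l y) i (FI (S.h * S.m l.toFinset i y) (y i))

namespace Scheme

variable (S : Scheme ι)

theorem hm_abs (A : Finset ι) (i : ι) (y : ι → I) : |S.h * S.m A i y| ≤ 1 / 2 := by
  rw [abs_mul, abs_of_nonneg S.h_nonneg]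
  calc S.h * |S.m A i y| ≤ (1 / 2) * 1 :=
        mul_le_mul S.h_le (S.m_abs A i y) (abs_nonneg _) (by norm_num)
    _ = 1 / 2 := by ring

theorem factor_bounds (A : Finset ι) (i : ι) (y : ι → I) (t : I) :
    1 / 2 ≤ 1 + S.h * S.m A i y * phi t ∧ 1 + S.h * S.m A i y * phi t ≤ 2 := by
  have h1 : |S.h * S.m A i y * phi t| ≤ 1 / 2 := by
    rw [abs_mul]
    calc |S.h * S.m A i y| * |phi t| ≤ (1 / 2) * 1 :=
          mul_le_mul (S.hm_abs A i y) (phi_abs_le t) (abs_nonneg _) (by norm_num)
      _ = 1 / 2 := by ring
  obtain ⟨h2, h3⟩ := abs_le.1 h1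
  constructor <;> linarith

theorem p_dep (A : Finset ι) : DependsOn (S.p A) (A : Set ι) := by
  induction A using Finset.induction_on with
  | empty => intro x y _; rw [S.p_empty, S.p_empty]
  | insert i A hi ih =>
    intro x y hxy
    have h1 : ∀ j ∈ (A : Set ι), x j = y j := fun j hj =>
      hxy j (by simp only [Finset.coe_insert, Set.mem_insert_iff]; exact Or.inr hj)
    rw [S.p_insert A i x hi, S.p_insert A i y hi, ih h1, S.m_dep A i h1, hxy i (by simp)]

theorem p_meas (A : Finset ι) : Measurable (S.p A) := by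
  induction A using Finset.induction_on with
  | empty =>
    have : S.p ∅ = fun _ => 1 := funext S.p_empty
    rw [this]; exact measurable_const
  | insert i A hi ih =>
    have : S.p (insert i A) = fun y => S.p A y * (1 + S.h * S.m A i y * phi (y i)) :=
      funext fun y => S.p_insert A i y hi
    rw [this]
    exact ih.mul (measurable_const.add (((S.m_meas A i).const_mul _).mul
      (phi_measurable'.comp (measurable_pi_apply i))))

theorem p_bounds (A : Finset ι) (y : ι → I) : 0 ≤ S.p A y ∧ S.p A y ≤ 2 ^ A.card := by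
  induction A using Finset.induction_on with
  | empty => rw [S.p_empty]; simp
  | insert i A hi ih =>
    obtain ⟨h1, h2⟩ := S.factor_bounds A i y (y i)
    rw [S.p_insert A i y hi, Finset.card_insert_of_notMem hi, pow_succ]
    exact ⟨mul_nonneg ih.1 (by linarith),
      mul_le_mul ih.2 h2 (by linarith) (by positivity)⟩

theorem p_nonneg (A : Finset ι) (y : ι → I) : 0 ≤ S.p A y := (S.p_bounds A y).1

theorem p_abs_le (A : Finset ι) (y : ι → I) : |S.p A y| ≤ 2 ^ A.card := by
  rw [abs_of_nonneg (S.p_nonneg A y)]
  exact (S.p_bounds A y).2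

/-- Averaging `p` over a new coordinate. -/
theorem avg_p {A : Finset ι} {j : ι} (hj : j ∉ A) : avg j (S.p (insert j A)) = S.p A := by
  funext y
  unfold avg
  have h1 : ∀ t : I, S.p (insert j A) (update y j t)
      = S.p A y + phi t * (S.p A y * (S.h * S.m A j y)) := fun t => by
    rw [S.p_insert A j _ hj, dependsOn_update (S.p_dep A) (by simpa using hj),
      dependsOn_update (S.m_dep A j) (by simpa using hj), update_self]
    ring
  simp_rw [h1]
  exact integral_add_phi _ _

/-- Averaging `p * m` over a new coordinate. -/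
theorem avg_pm {A : Finset ι} {j : ι} (hj : j ∉ A) (i : ι) :
    avg j (fun y => S.p (insert j A) y * S.m (insert j A) i y) = fun y => S.p A y * S.m A i y := by
  obtain ⟨q, hq, h⟩ := S.mart A i j hj
  funext y
  unfold avg
  have h1 : ∀ t : I, S.p (insert j A) (update y j t) * S.m (insert j A) i (update y j t)
      = S.p A y * S.m A i y + phi t * q y := fun t => by
    rw [h, dependsOn_update (S.p_dep A) (by simpa using hj),
      dependsOn_update (S.m_dep A i) (by simpa using hj), update_self,
      dependsOn_update hq (by simpa using hj)]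
  simp_rw [h1]
  exact integral_add_phi _ _

/-- Marginals: one coordinate. -/
theorem marginal_one {A : Finset ι} {j : ι} (hj : j ∉ A) {H : (ι → I) → ℝ} (hH : Measurable H)
    {D : ℝ} (hD : ∀ x, |H x| ≤ D) (hHj : ∀ x t, H (update x j t) = H x) :
    ∫ x, S.p (insert j A) x * H x ∂(unif ι) = ∫ x, S.p A x * H x ∂(unif ι) := by
  rw [integral_mul_avg j (S.p_meas _) hH (S.p_abs_le _) hD hHj, S.avg_p hj]

/-- Marginals: a function which does not depend on the coordinates in `B`. -/
theorem marginal (A B : Finset ι) (hAB : Disjoint A B) {H : (ι → I) → ℝ} (hH : Measurable H)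
    {D : ℝ} (hD : ∀ x, |H x| ≤ D) (hHB : ∀ j ∈ B, ∀ x t, H (update x j t) = H x) :
    ∫ x, S.p (A ∪ B) x * H x ∂(unif ι) = ∫ x, S.p A x * H x ∂(unif ι) := by
  induction B using Finset.induction_on with
  | empty => simp
  | insert j B hj ih =>
    rw [Finset.disjoint_insert_right] at hAB
    rw [Finset.union_insert, S.marginal_one (by simp [hAB.1, hj]) hH hD
      (hHB j (Finset.mem_insert_self _ _)),
      ih hAB.2 (fun k hk => hHB k (Finset.mem_insert_of_mem hk))]

/-- The information gained by additional observations. -/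
theorem info (i : ι) (A B : Finset ι) (hAB : Disjoint A B) :
    ∫ x, S.p (A ∪ B) x * (S.m (A ∪ B) i x - S.m A i x) ^ 2 ∂(unif ι)
      ≤ ∑ j ∈ B, (2 * S.h * S.c j i) ^ 2 := by
  induction B using Finset.induction_on with
  | empty => simp
  | insert j B hj ih =>
    rw [Finset.disjoint_insert_right] at hAB
    have hjA : j ∉ A ∪ B := by simp [hAB.1, hj]
    rw [Finset.union_insert, Finset.sum_insert hj]
    set E := A ∪ B with hE
    have ih' := ih hAB.2
    set a : (ι → I) → ℝ := fun x => S.m (insert j E) i x with ha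
    set b : (ι → I) → ℝ := fun x => S.m E i x with hb
    set e : (ι → I) → ℝ := fun x => S.m A i x with he
    have ham : Measurable a := S.m_meas _ _
    have hbm : Measurable b := S.m_meas _ _
    have hem : Measurable e := S.m_meas _ _
    have hbj : ∀ x t, b (update x j t) = b x := fun x t =>
      dependsOn_update (S.m_dep E i) (by simpa using hjA) x t
    have hej : ∀ x t, e (update x j t) = e x := fun x t =>
      dependsOn_update (S.m_dep A i) (by simpa using hAB.1) x t
    have hb1 : ∀ x, |b x| ≤ 1 := S.m_abs E i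
    have he1 : ∀ x, |e x| ≤ 1 := S.m_abs A i
    have ha1 : ∀ x, |a x| ≤ 1 := S.m_abs _ i
    have hbe : ∀ x, |b x - e x| ≤ 2 := fun x => by
      have := abs_sub (b x) (e x); linarith [hb1 x, he1 x]
    have hp := S.p_meas (insert j E)
    have hpC := S.p_abs_le (insert j E)
    have hpm := S.p_meas E
    have hpEC := S.p_abs_le E
    set C : ℝ := 2 ^ (insert j E).card with hC
    have hC0 : 0 ≤ C := by positivity
    -- the three terms
    have i1 : Integrable (fun x => S.p (insert j E) x * (a x - b x) ^ 2) (unif ι) :=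
      integrable_of_bdd (hp.mul ((ham.sub hbm).pow_const 2)) (C := C * 2 ^ 2) fun x => by
        rw [abs_mul, abs_pow]
        have h3 : |a x - b x| ≤ 2 := by
          have := abs_sub (a x) (b x); linarith [ha1 x, hb1 x]
        exact mul_le_mul (hpC x) (pow_le_pow_left₀ (abs_nonneg _) h3 2) (by positivity) hC0
    have i2 : Integrable (fun x => S.p (insert j E) x * (b x - e x) ^ 2) (unif ι) :=
      integrable_of_bdd (hp.mul ((hbm.sub hem).pow_const 2)) (C := C * 2 ^ 2) fun x => by
        rw [abs_mul, abs_pow]
        exact mul_le_mul (hpC x) (pow_le_pow_left₀ (abs_nonneg _) (hbe x) 2) (by positivity) hC0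
    have i3 : Integrable (fun x => (S.p (insert j E) x * a x) * (b x - e x)) (unif ι) :=
      integrable_of_bdd ((hp.mul ham).mul (hbm.sub hem)) (C := C * 1 * 2) fun x => by
        rw [abs_mul, abs_mul]
        exact mul_le_mul (mul_le_mul (hpC x) (ha1 x) (abs_nonneg _) hC0) (hbe x)
          (abs_nonneg _) (by positivity)
    have i4 : Integrable (fun x => S.p (insert j E) x * (b x * (b x - e x))) (unif ι) :=
      integrable_of_bdd (hp.mul (hbm.mul (hbm.sub hem))) (C := C * (1 * 2)) fun x => by
        rw [abs_mul, abs_mul]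
        exact mul_le_mul (hpC x) (mul_le_mul (hb1 x) (hbe x) (abs_nonneg _) (by norm_num))
          (by positivity) hC0
    have hpa : ∀ x, |S.p (insert j E) x * a x| ≤ C := fun x => by
      rw [abs_mul]
      calc _ ≤ C * 1 := mul_le_mul (hpC x) (ha1 x) (abs_nonneg _) hC0
        _ = C := by ring
    have e3 : ∫ x, (S.p (insert j E) x * a x) * (b x - e x) ∂(unif ι)
        = ∫ x, (S.p E x * b x) * (b x - e x) ∂(unif ι) := by
      have g1 := integral_mul_avg j (F := fun x => S.p (insert j E) x * a x)
        (H := fun x => b x - e x) (hp.mul ham) (hbm.sub hem) hpa hbe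
        (fun x t => by simp only [hbj, hej])
      rw [g1, ha, S.avg_pm hjA i]
    have e4 : ∫ x, S.p (insert j E) x * (b x * (b x - e x)) ∂(unif ι)
        = ∫ x, S.p E x * (b x * (b x - e x)) ∂(unif ι) :=
      S.marginal_one hjA (hbm.mul (hbm.sub hem)) (D := 2) (fun x => by
        rw [abs_mul]
        calc |b x| * |b x - e x| ≤ 1 * 2 :=
              mul_le_mul (hb1 x) (hbe x) (abs_nonneg _) (by norm_num)
          _ = 2 := by ring) (fun x t => by simp only [hbj, hej])
    have e2 : ∫ x, S.p (insert j E) x * (b x - e x) ^ 2 ∂(unif ι)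
        = ∫ x, S.p E x * (b x - e x) ^ 2 ∂(unif ι) :=
      S.marginal_one hjA ((hbm.sub hem).pow_const 2) (D := 2 ^ 2) (fun x => by
        rw [abs_pow]; exact pow_le_pow_left₀ (abs_nonneg _) (hbe x) 2)
        (fun x t => by simp only [hbj, hej])
    have hexp : ∀ x, S.p (insert j E) x * (a x - e x) ^ 2
        = (S.p (insert j E) x * (a x - b x) ^ 2 + S.p (insert j E) x * (b x - e x) ^ 2)
          + 2 * ((S.p (insert j E) x * a x) * (b x - e x)
            - S.p (insert j E) x * (b x * (b x - e x))) := fun x => by ring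
    have hint : ∫ x, S.p (insert j E) x * (a x - e x) ^ 2 ∂(unif ι)
        = ∫ x, S.p (insert j E) x * (a x - b x) ^ 2 ∂(unif ι)
          + ∫ x, S.p E x * (b x - e x) ^ 2 ∂(unif ι) := by
      have f1 := integral_congr_ae (μ := unif ι) (Filter.Eventually.of_forall hexp)
      have f2 : ∫ x, ((S.p (insert j E) x * (a x - b x) ^ 2
          + S.p (insert j E) x * (b x - e x) ^ 2)
          + 2 * ((S.p (insert j E) x * a x) * (b x - e x)
            - S.p (insert j E) x * (b x * (b x - e x)))) ∂(unif ι)
          = ∫ x, (S.p (insert j E) x * (a x - b x) ^ 2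
          + S.p (insert j E) x * (b x - e x) ^ 2) ∂(unif ι)
          + ∫ x, 2 * ((S.p (insert j E) x * a x) * (b x - e x)
            - S.p (insert j E) x * (b x * (b x - e x))) ∂(unif ι) :=
        integral_add (i1.add i2) ((i3.sub i4).const_mul 2)
      have f3 : ∫ x, (S.p (insert j E) x * (a x - b x) ^ 2
          + S.p (insert j E) x * (b x - e x) ^ 2) ∂(unif ι)
          = ∫ x, S.p (insert j E) x * (a x - b x) ^ 2 ∂(unif ι)
          + ∫ x, S.p (insert j E) x * (b x - e x) ^ 2 ∂(unif ι) := integral_add i1 i2
      have f4 : ∫ x, ((S.p (insert j E) x * a x) * (b x - e x)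
            - S.p (insert j E) x * (b x * (b x - e x))) ∂(unif ι)
          = ∫ x, (S.p (insert j E) x * a x) * (b x - e x) ∂(unif ι)
          - ∫ x, S.p (insert j E) x * (b x * (b x - e x)) ∂(unif ι) := integral_sub i3 i4
      have f5 : ∫ x, (S.p E x * b x) * (b x - e x) ∂(unif ι)
          = ∫ x, S.p E x * (b x * (b x - e x)) ∂(unif ι) :=
        integral_congr_ae (Filter.Eventually.of_forall fun x => by ring)
      rw [f1, f2, f3, integral_const_mul, f4, e2, e3, e4, f5]
      ring
    rw [hint]
    refine add_le_add ?_ ih'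
    have hone : ∫ x, S.p (insert j E) x * (2 * S.h * S.c j i) ^ 2 ∂(unif ι)
        = (2 * S.h * S.c j i) ^ 2 := by
      have h1 := S.marginal ∅ (insert j E) (by simp) (H := fun _ => (2 * S.h * S.c j i) ^ 2)
        measurable_const (D := |(2 * S.h * S.c j i) ^ 2|) (fun _ => le_refl _) (fun _ _ _ _ => rfl)
      rw [Finset.empty_union] at h1
      rw [h1]
      simp [S.p_empty]
    rw [← hone]
    refine integral_mono i1 (integrable_of_bdd (hp.mul measurable_const)
      (C := C * |(2 * S.h * S.c j i) ^ 2|) fun x => by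
        rw [abs_mul]; exact mul_le_mul_of_nonneg_right (hpC x) (abs_nonneg _)) fun x => ?_
    refine mul_le_mul_of_nonneg_left ?_ (S.p_nonneg _ _)
    have := pow_le_pow_left₀ (abs_nonneg _) (S.incr E i j x hjA) 2
    simpa [sq_abs] using this

end Scheme

end Vale.Agent.IsingFIID
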