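import Vale.Agent.IsingFIID.Tree
import Vale.Agent.IsingFIID.Defs

/-!
# Finite volume weights of the free Ising measure on a tree (P161 part (a))
-/

namespace Vale.Agent.IsingFIID

open SimpleGraph

variable {V : Type*}

/-- Weight of an edge: `(1 + θ η_u η_v) / 2`. -/
noncomputable def edgeWt (θ : ℝ) (η : V → ℝ) : Sym2 V → ℝ :=
  Sym2.lift ⟨fun u v => (1 + θ * (η u * η v)) / 2, fun u v => by simp only [mul_comm (η u)]⟩

@[simp] lemma edgeWt_mk (θ : ℝ) (η : V → ℝ) (u v : V) :
    edgeWt θ η s(u, v) = (1 + θ * (η u * η v)) / 2 := rfl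

/-- The weight of a configuration `η` (with values `±1`) on the finite connected set `D`. -/
noncomputable def wt (G : SimpleGraph V) (θ : ℝ) (D : Finset V) (η : V → ℝ) : ℝ :=
  1 / 2 * ∏ e ∈ edgesIn G D, edgeWt θ η e

/-- The `±1` configuration coded by a finite set (the set of the plus spins). -/
noncomputable def spinF [DecidableEq V] (S : Finset V) (v : V) : ℝ := if v ∈ S then 1 else -1

/-- Expectation with respect to the finite volume weights. -/
noncomputable def Zsum [DecidableEq V] (G : SimpleGraph V) (θ : ℝ) (D : Finset V)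
    (f : (V → ℝ) → ℝ) : ℝ :=
  ∑ S ∈ D.powerset, wt G θ D (spinF S) * f (spinF S)

lemma mem_edgesIn {G : SimpleGraph V} {D : Finset V} {u v : V} :
    s(u, v) ∈ edgesIn G D ↔ u ∈ D ∧ v ∈ D ∧ G.Adj u v := by
  classical
  simp [edgesIn, and_assoc]

section basic

variable [DecidableEq V] {G : SimpleGraph V} {θ : ℝ}

lemma spinF_eq (S : Finset V) (v : V) : spinF S v = 1 ∨ spinF S v = -1 := by
  unfold spinF
  split_ifs
  · exact Or.inl rfl
  · exact Or.inr rfl

@[simp] lemma spinF_mul_self (S : Finset V) (v : V) : spinF S v * spinF S v = 1 := by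
  rcases spinF_eq S v with h | h <;> rw [h] <;> norm_num

lemma abs_spinF (S : Finset V) (v : V) : |spinF S v| = 1 := by
  rcases spinF_eq S v with h | h <;> rw [h] <;> norm_num

lemma spinF_insert (S : Finset V) (x : V) : spinF (insert x S) = Function.update (spinF S) x 1 := by
  ext v
  by_cases h : v = x
  · subst h; simp [spinF]
  · simp [spinF, h]

lemma spinF_of_notMem {S : Finset V} {x : V} (h : x ∉ S) :
    spinF S = Function.update (spinF S) x (-1) := by
  ext v
  by_cases h' : v = x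
  · subst h'; simp [spinF, h]
  · simp [h']

omit [DecidableEq V] in
lemma edgeWt_nonneg (h0 : 0 ≤ θ) (h1 : θ ≤ 1) {η : V → ℝ} (hη : ∀ v, |η v| ≤ 1) (e : Sym2 V) :
    0 ≤ edgeWt θ η e := by
  induction e using Sym2.ind with
  | _ u v =>
    rw [edgeWt_mk]
    have h : |θ * (η u * η v)| ≤ 1 := by
      rw [abs_mul, abs_mul, abs_of_nonneg h0]
      have := mul_le_mul (hη u) (hη v) (abs_nonneg _) zero_le_one
      calc θ * (|η u| * |η v|) ≤ 1 * (1 * 1) :=
            mul_le_mul h1 this (mul_nonneg (abs_nonneg _) (abs_nonneg _)) zero_le_one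
        _ = 1 := by norm_num
    have := (abs_le.1 h).1
    linarith

omit [DecidableEq V] in
lemma wt_nonneg (h0 : 0 ≤ θ) (h1 : θ ≤ 1) (D : Finset V) {η : V → ℝ} (hη : ∀ v, |η v| ≤ 1) :
    0 ≤ wt G θ D η :=
  mul_nonneg (by norm_num) (Finset.prod_nonneg fun e _ => edgeWt_nonneg h0 h1 hη e)

lemma wt_spinF_nonneg (h0 : 0 ≤ θ) (h1 : θ ≤ 1) (D : Finset V) (S : Finset V) :
    0 ≤ wt G θ D (spinF S) :=
  wt_nonneg h0 h1 D fun v => (abs_spinF S v).le

omit [DecidableEq V] in
lemma wt_congr {D : Finset V} {η η' : V → ℝ} (h : ∀ v ∈ D, η v = η' v) :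
    wt G θ D η = wt G θ D η' := by
  unfold wt
  congr 1
  refine Finset.prod_congr rfl ?_
  intro e he
  induction e using Sym2.ind with
  | _ u v =>
    rw [mem_edgesIn] at he
    rw [edgeWt_mk, edgeWt_mk, h u he.1, h v he.2.1]

lemma edgesIn_insert {E : Finset V} {x x' : V} (hx : x ∉ E) (hx' : x' ∈ E) (hadj : G.Adj x x')
    (huniq : ∀ u ∈ E, G.Adj x u → u = x') :
    edgesIn G (insert x E) = insert s(x, x') (edgesIn G E) ∧ s(x, x') ∉ edgesIn G E := by
  constructor
  · ext e
    induction e using Sym2.ind with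
    | _ u v =>
      rw [Finset.mem_insert, mem_edgesIn, mem_edgesIn, Finset.mem_insert, Finset.mem_insert,
        Sym2.eq_iff]
      constructor
      · rintro ⟨hu | hu, hv | hv, h⟩
        · subst hu; subst hv; exact absurd rfl h.ne
        · subst hu; exact Or.inl (Or.inl ⟨rfl, huniq v hv h⟩)
        · subst hv; exact Or.inl (Or.inr ⟨huniq u hu h.symm, rfl⟩)
        · exact Or.inr ⟨hu, hv, h⟩
      · rintro ((⟨rfl, rfl⟩ | ⟨rfl, rfl⟩) | ⟨hu, hv, h⟩)
        · exact ⟨Or.inl rfl, Or.inr hx', hadj⟩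
        · exact ⟨Or.inr hx', Or.inl rfl, hadj.symm⟩
        · exact ⟨Or.inr hu, Or.inr hv, h⟩
  · rw [mem_edgesIn]
    exact fun h => hx h.1

lemma wt_insert {E : Finset V} {x x' : V} (hx : x ∉ E) (hx' : x' ∈ E) (hadj : G.Adj x x')
    (huniq : ∀ u ∈ E, G.Adj x u → u = x') (η : V → ℝ) :
    wt G θ (insert x E) η = wt G θ E η * ((1 + θ * (η x * η x')) / 2) := by
  obtain ⟨h1, h2⟩ := edgesIn_insert hx hx' hadj huniq
  unfold wt
  rw [h1, Finset.prod_insert h2, edgeWt_mk]
  ring

lemma Zsum_insert {E : Finset V} {x x' : V} (hx : x ∉ E) (hx' : x' ∈ E) (hadj : G.Adj x x')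
    (huniq : ∀ u ∈ E, G.Adj x u → u = x') (f : (V → ℝ) → ℝ) :
    Zsum G θ (insert x E) f = Zsum G θ E (fun η =>
      (1 - θ * η x') / 2 * f (Function.update η x (-1)) +
      (1 + θ * η x') / 2 * f (Function.update η x 1)) := by
  have hne : x' ≠ x := fun h => hx (h ▸ hx')
  unfold Zsum
  rw [Finset.sum_powerset_insert hx, ← Finset.sum_add_distrib]
  refine Finset.sum_congr rfl ?_
  intro S hS
  have hxS : x ∉ S := fun h => hx (Finset.mem_powerset.1 hS h)
  have hw : ∀ t : ℝ, wt G θ (insert x E) (Function.update (spinF S) x t)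
      = wt G θ E (spinF S) * ((1 + θ * (t * spinF S x')) / 2) := by
    intro t
    rw [wt_insert hx hx' hadj huniq]
    congr 1
    · refine wt_congr fun v hv => ?_
      rw [Function.update_of_ne]
      rintro rfl
      exact hx hv
    · rw [Function.update_self, Function.update_of_ne hne]
  rw [spinF_insert, hw 1]
  have h1 : wt G θ (insert x E) (spinF S) * f (spinF S) =
      wt G θ E (spinF S) * ((1 + θ * ((-1) * spinF S x')) / 2) *
        f (Function.update (spinF S) x (-1)) := by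
    rw [← hw (-1), ← spinF_of_notMem hxS]
  rw [h1]
  ring

lemma Zsum_consistency_step {E : Finset V} {x x' : V} (hx : x ∉ E) (hx' : x' ∈ E)
    (hadj : G.Adj x x') (huniq : ∀ u ∈ E, G.Adj x u → u = x') {f : (V → ℝ) → ℝ}
    (hf : DependsOn f (E : Set V)) :
    Zsum G θ (insert x E) f = Zsum G θ E f := by
  rw [Zsum_insert hx hx' hadj huniq]
  unfold Zsum
  refine Finset.sum_congr rfl fun S _ => ?_
  have h : ∀ t : ℝ, f (Function.update (spinF S) x t) = f (spinF S) := by
    intro t
    apply hf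
    intro v hv
    rw [Function.update_of_ne]
    rintro rfl
    exact hx (by exact_mod_cast hv)
  simp only [h]
  ring

theorem Zsum_of_subset (hG : G.IsTree) {D D'' : Finset V}
    (hD : (G.induce (D : Set V)).Connected) (hD'' : (G.induce (D'' : Set V)).Connected)
    (hsub : D ⊆ D'') {f : (V → ℝ) → ℝ} (hf : DependsOn f (D : Set V)) :
    Zsum G θ D'' f = Zsum G θ D f := by
  refine grow_induction hG (P := fun E => Zsum G θ E f = Zsum G θ D f) hD rfl ?_ D'' hD'' hsub
  intro E x x' _ hDE hx hx' hadj huniq ih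
  rw [Zsum_consistency_step hx hx' hadj huniq (hf.mono (by exact_mod_cast hDE)), ih]

omit [DecidableEq V] in
lemma edgesIn_singleton (v : V) : edgesIn G {v} = ∅ := by
  ext e
  induction e using Sym2.ind with
  | _ a b =>
    rw [mem_edgesIn]
    simp only [Finset.mem_singleton, Finset.notMem_empty, iff_false, not_and]
    rintro rfl rfl
    exact fun h => h.ne rfl

lemma Zsum_singleton (v : V) (f : (V → ℝ) → ℝ) :
    Zsum G θ {v} f = 1 / 2 * (f (spinF ∅) + f (spinF {v})) := by
  unfold Zsum wt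
  rw [edgesIn_singleton]
  have : ({v} : Finset V).powerset = {∅, {v}} := by
    ext S
    simp [Finset.subset_singleton_iff]
  rw [this, Finset.sum_pair (by simp : (∅ : Finset V) ≠ {v})]
  simp
  ring

theorem Zsum_one (hG : G.IsTree) {D : Finset V} (hD : (G.induce (D : Set V)).Connected) :
    Zsum G θ D (fun _ => 1) = 1 := by
  refine leaf_induction hG (P := fun D => Zsum G θ D (fun _ => 1) = 1) ?_ ?_ D hD
  · intro v
    rw [Zsum_singleton]
    norm_num
  · intro E x x' _ hx hx' hadj huniq ih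
    rw [Zsum_consistency_step hx hx' hadj huniq (fun _ _ _ => rfl), ih]

/-- Any two finite connected sets give the same value of `Zsum` for a common local function. -/
theorem Zsum_eq_of_dependsOn (hG : G.IsTree) [G.LocallyFinite] {D D' : Finset V}
    (hD : (G.induce (D : Set V)).Connected) (hD' : (G.induce (D' : Set V)).Connected)
    {f : (V → ℝ) → ℝ} (hf : DependsOn f (D : Set V)) (hf' : DependsOn f (D' : Set V)) :
    Zsum G θ D f = Zsum G θ D' f := by
  obtain ⟨⟨o, _⟩⟩ := hD.nonempty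
  obtain ⟨n, hn⟩ := exists_subset_ballF hG.connected o (D ∪ D')
  rw [← Zsum_of_subset hG hD (ballF_connected hG o n) (Finset.union_subset_left hn) hf,
    Zsum_of_subset hG hD' (ballF_connected hG o n) (Finset.union_subset_right hn) hf']

lemma Zsum_add (D : Finset V) (f g : (V → ℝ) → ℝ) :
    Zsum G θ D (fun η => f η + g η) = Zsum G θ D f + Zsum G θ D g := by
  unfold Zsum
  rw [← Finset.sum_add_distrib]
  exact Finset.sum_congr rfl fun S _ => by ring

lemma Zsum_sub (D : Finset V) (f g : (V → ℝ) → ℝ) :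
    Zsum G θ D (fun η => f η - g η) = Zsum G θ D f - Zsum G θ D g := by
  unfold Zsum
  rw [← Finset.sum_sub_distrib]
  exact Finset.sum_congr rfl fun S _ => by ring

lemma Zsum_const_mul (D : Finset V) (c : ℝ) (f : (V → ℝ) → ℝ) :
    Zsum G θ D (fun η => c * f η) = c * Zsum G θ D f := by
  unfold Zsum
  rw [Finset.mul_sum]
  exact Finset.sum_congr rfl fun S _ => by ring

lemma Zsum_congr {D : Finset V} {f g : (V → ℝ) → ℝ} (h : ∀ S ⊆ D, f (spinF S) = g (spinF S)) :
    Zsum G θ D f = Zsum G θ D g := by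
  unfold Zsum
  exact Finset.sum_congr rfl fun S hS => by rw [h S (Finset.mem_powerset.1 hS)]

lemma Zsum_mono (h0 : 0 ≤ θ) (h1 : θ ≤ 1) {D : Finset V} {f g : (V → ℝ) → ℝ}
    (h : ∀ S ⊆ D, f (spinF S) ≤ g (spinF S)) : Zsum G θ D f ≤ Zsum G θ D g := by
  unfold Zsum
  exact Finset.sum_le_sum fun S hS =>
    mul_le_mul_of_nonneg_left (h S (Finset.mem_powerset.1 hS)) (wt_spinF_nonneg h0 h1 D S)

lemma abs_Zsum_le (h0 : 0 ≤ θ) (h1 : θ ≤ 1) {D : Finset V} {f g : (V → ℝ) → ℝ}
    (h : ∀ S ⊆ D, |f (spinF S)| ≤ g (spinF S)) : |Zsum G θ D f| ≤ Zsum G θ D g := by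
  rw [abs_le]
  constructor
  · have h2 := Zsum_mono (G := G) (θ := θ) h0 h1 (D := D) (f := fun η => (-1) * g η) (g := f)
      (fun S hS => by have := (abs_le.1 (h S hS)).1; linarith)
    rw [Zsum_const_mul] at h2
    linarith
  · exact Zsum_mono h0 h1 fun S hS => (abs_le.1 (h S hS)).2

end basic

end Vale.Agent.IsingFIID
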