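import Mathlib

/-!
# Combinatorics of finite connected vertex sets of a tree (P161 part (a))
-/

namespace Vale.Agent.IsingFIID

open SimpleGraph

variable {V : Type*} {G : SimpleGraph V}

/-- In a tree, the neighbour of `x` which is closer to `o` is unique. -/
lemma parent_unique (hG : G.IsTree) {o x u w : V} (hu : G.Adj x u) (hw : G.Adj x w)
    (h1 : G.dist o x = G.dist o u + 1) (h2 : G.dist o x = G.dist o w + 1) : u = w := by
  obtain ⟨p, hp⟩ := hG.connected.exists_walk_length_eq_dist o u
  obtain ⟨q, hq⟩ := hG.connected.exists_walk_length_eq_dist o w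
  have hp' : (p.concat hu.symm).IsPath := by
    apply Walk.isPath_of_length_eq_dist
    rw [Walk.length_concat, hp, h1]
  have hq' : (q.concat hw.symm).IsPath := by
    apply Walk.isPath_of_length_eq_dist
    rw [Walk.length_concat, hq, h2]
  have h := (hG.isAcyclic.subsingleton_path _ _).elim ⟨_, hp'⟩ ⟨_, hq'⟩
  have h' := congrArg (fun r : G.Path o x => (r : G.Walk o x).penultimate) h
  simpa using h'

/-- Every vertex different from the root has a parent. -/
lemma exists_parent (hG : G.IsTree) {o x : V} (hx : x ≠ o) :
    ∃ u, G.Adj x u ∧ G.dist o x = G.dist o u + 1 := by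
  obtain ⟨p, hp⟩ := hG.connected.exists_walk_length_eq_dist x o
  cases p with
  | nil => exact absurd rfl hx
  | @cons _ u _ h p =>
    refine ⟨u, h, ?_⟩
    have h1 : G.dist u o ≤ p.length := dist_le p
    rw [Walk.length_cons] at hp
    have h2 : G.dist x o ≤ G.dist x u + G.dist u o := hG.connected.dist_triangle
    have h3 : G.dist x u = 1 := dist_eq_one_iff_adj.2 h
    rw [dist_comm (u := o) (v := x), dist_comm (u := o) (v := u)]
    omega

/-- `D` is closed under taking parents towards the root `o ∈ D`. -/
def RootClosed (G : SimpleGraph V) (o : V) (D : Set V) : Prop :=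
  o ∈ D ∧ ∀ x ∈ D, ∀ u, G.Adj x u → G.dist o x = G.dist o u + 1 → u ∈ D

lemma RootClosed.connected (hG : G.IsTree) {o : V} {D : Set V} (h : RootClosed G o D) :
    (G.induce D).Connected := by
  rw [connected_iff_exists_forall_reachable]
  refine ⟨⟨o, h.1⟩, ?_⟩
  have key : ∀ n : ℕ, ∀ x (hx : x ∈ D), G.dist o x = n →
      (G.induce D).Reachable ⟨o, h.1⟩ ⟨x, hx⟩ := by
    intro n
    induction n with
    | zero =>
      intro x hx hd
      have : o = x := hG.connected.dist_eq_zero_iff.1 hd
      subst this
      exact Reachable.refl _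
    | succ n ih =>
      intro x hx hd
      have hne : x ≠ o := by
        rintro rfl
        simp at hd
      obtain ⟨u, hu, hdu⟩ := exists_parent hG hne
      have huD := h.2 x hx u hu hdu
      refine (ih u huD (by omega)).trans ?_
      refine Adj.reachable ?_
      rw [comap_adj]
      exact hu.symm
  rintro ⟨x, hx⟩
  exact key _ x hx rfl

lemma rootClosed_of_connected (hG : G.IsTree) {D : Set V} (h : (G.induce D).Connected)
    {o : V} (ho : o ∈ D) : RootClosed G o D := by
  refine ⟨ho, ?_⟩
  intro x hx u hu hd
  obtain ⟨p, hp⟩ := h.exists_isPath ⟨x, hx⟩ ⟨o, ho⟩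
  -- the path in `D` from `x` to `o`, pushed to `G`
  obtain ⟨q, hqp, hsupp⟩ : ∃ q : G.Walk x o, q.IsPath ∧ ∀ y ∈ q.support, y ∈ D := by
    refine ⟨p.map (Embedding.induce D).toHom,
      Walk.IsPath.map (f := (Embedding.induce (G := G) D).toHom)
        (Embedding.induce (G := G) D).injective hp, ?_⟩
    intro y hy
    have hy' := (Walk.support_map (f := (Embedding.induce (G := G) D).toHom) p).subst
      (motive := fun l => y ∈ l) hy
    simp only [List.mem_map] at hy'
    obtain ⟨z, _, rfl⟩ := hy'
    exact z.2
  -- shortest path through `u`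
  obtain ⟨r, hr⟩ := hG.connected.exists_walk_length_eq_dist u o
  have hr' : (Walk.cons hu r).IsPath := by
    apply Walk.isPath_of_length_eq_dist
    rw [Walk.length_cons, hr, dist_comm (u := x), hd, dist_comm (u := u)]
  have heq := (hG.isAcyclic.subsingleton_path _ _).elim ⟨_, hr'⟩ ⟨_, hqp⟩
  have heq' : Walk.cons hu r = q := congrArg (fun r : G.Path x o => (r : G.Walk x o)) heq
  apply hsupp
  rw [← heq']
  simp

lemma rootClosed_iff (hG : G.IsTree) {D : Set V} {o : V} :
    RootClosed G o D ↔ o ∈ D ∧ (G.induce D).Connected :=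
  ⟨fun h => ⟨h.1, h.connected hG⟩, fun h => rootClosed_of_connected hG h.2 h.1⟩

section growth

variable [DecidableEq V]

omit [DecidableEq V] in
lemma induce_singleton_connected (v : V) :
    (G.induce ((({v} : Finset V)) : Set V)).Connected := by
  rw [connected_iff_exists_forall_reachable]
  refine ⟨⟨v, by simp⟩, ?_⟩
  rintro ⟨w, hw⟩
  have : w = v := by simpa using hw
  subst this
  exact Reachable.refl _

/-- If `D ⊂ D''` are finite connected, one can peel off a leaf of `D''` outside `D`. -/
lemma exists_leaf_diff (hG : G.IsTree) {D D'' : Finset V}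
    (hD : (G.induce (D : Set V)).Connected) (hD'' : (G.induce (D'' : Set V)).Connected)
    (hsub : D ⊆ D'') (hne : D ≠ D'') :
    ∃ x ∈ D'', x ∉ D ∧ (G.induce ((D''.erase x : Finset V) : Set V)).Connected ∧
      ∃ x' ∈ D''.erase x, G.Adj x x' ∧ ∀ u ∈ D''.erase x, G.Adj x u → u = x' := by
  obtain ⟨⟨o, ho⟩⟩ := hD.nonempty
  have ho' : o ∈ D := by simpa using ho
  have ho'' : o ∈ D'' := hsub ho'
  have hcl := rootClosed_of_connected hG hD ho
  have hcl'' := rootClosed_of_connected hG hD'' (o := o) (by exact_mod_cast ho'')
  have hnon : (D'' \ D).Nonempty := by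
    rw [Finset.sdiff_nonempty]
    intro h
    exact hne (Finset.Subset.antisymm hsub h)
  obtain ⟨x, hx, hmax⟩ := Finset.exists_max_image (D'' \ D) (fun x => G.dist o x) hnon
  rw [Finset.mem_sdiff] at hx
  obtain ⟨hxD'', hxD⟩ := hx
  have hxo : x ≠ o := by rintro rfl; exact hxD ho'
  -- no vertex of `D''` is a child of `x`
  have hchild : ∀ u ∈ D'', G.Adj x u → G.dist o u = G.dist o x + 1 → False := by
    intro u hu hadj hd
    by_cases huD : u ∈ D
    · exact hxD (by simpa using hcl.2 u (by exact_mod_cast huD) x hadj.symm (by omega))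
    · have := hmax u (Finset.mem_sdiff.2 ⟨hu, huD⟩)
      omega
  obtain ⟨x', hadj', hd'⟩ := exists_parent hG hxo
  have hx'D'' : x' ∈ D'' := by simpa using hcl''.2 x (by exact_mod_cast hxD'') x' hadj' hd'
  refine ⟨x, hxD'', hxD, ?_, x', ?_, hadj', ?_⟩
  · refine RootClosed.connected hG (o := o) ⟨?_, ?_⟩
    · simpa using ⟨ho'', hxo.symm⟩
    · intro y hy u hu hd
      have hy' : y ∈ D'' ∧ y ≠ x := by simpa using hy
      have huD : u ∈ D'' := by simpa using hcl''.2 y (by exact_mod_cast hy'.1) u hu hd
      have hux : u ≠ x := by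
        rintro rfl
        exact hchild y hy'.1 hu.symm hd
      simpa using ⟨huD, hux⟩
  · rw [Finset.mem_erase]
    exact ⟨hadj'.ne', hx'D''⟩
  · intro u hu hadj
    rw [Finset.mem_erase] at hu
    rcases hG.dist_eq_dist_add_one_of_adj o hadj with h | h
    · exact parent_unique hG hadj hadj' h hd'
    · exact (hchild u hu.2 hadj h).elim

/-- Growth principle: a property of finite connected sets that is stable under adding a leaf
passes from `D` to every larger finite connected set. -/
theorem grow_induction (hG : G.IsTree) {P : Finset V → Prop} {D : Finset V}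
    (hD : (G.induce (D : Set V)).Connected) (base : P D)
    (step : ∀ (E : Finset V) (x x' : V), (G.induce (E : Set V)).Connected → D ⊆ E → x ∉ E →
      x' ∈ E → G.Adj x x' → (∀ u ∈ E, G.Adj x u → u = x') → P E → P (insert x E)) :
    ∀ D'' : Finset V, (G.induce (D'' : Set V)).Connected → D ⊆ D'' → P D'' := by
  have key : ∀ n : ℕ, ∀ D'' : Finset V, (G.induce (D'' : Set V)).Connected → D ⊆ D'' →
      D''.card = n → P D'' := by
    intro n
    induction n with
    | zero =>
      intro D'' hc hs hn
      obtain ⟨⟨o, ho⟩⟩ := hc.nonempty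
      rw [Finset.card_eq_zero] at hn
      subst hn
      simp at ho
    | succ n ih =>
      intro D'' hc hs hn
      by_cases hne : D = D''
      · rw [← hne]; exact base
      obtain ⟨x, hx, hxD, hconn, x', hx', hadj, huniq⟩ := exists_leaf_diff hG hD hc hs hne
      have hsub : D ⊆ D''.erase x := by
        intro y hy
        rw [Finset.mem_erase]
        exact ⟨fun h => hxD (h ▸ hy), hs hy⟩
      have := step (D''.erase x) x x' hconn hsub (Finset.notMem_erase _ _) hx' hadj huniq
        (ih _ hconn hsub (by rw [Finset.card_erase_of_mem hx]; omega))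
      rwa [Finset.insert_erase hx] at this
  intro D'' hc hs
  exact key _ D'' hc hs rfl

/-- Leaf induction for finite connected sets of a tree. -/
theorem leaf_induction (hG : G.IsTree) {P : Finset V → Prop} (single : ∀ v, P {v})
    (step : ∀ (E : Finset V) (x x' : V), (G.induce (E : Set V)).Connected → x ∉ E →
      x' ∈ E → G.Adj x x' → (∀ u ∈ E, G.Adj x u → u = x') → P E → P (insert x E)) :
    ∀ D : Finset V, (G.induce (D : Set V)).Connected → P D := by
  intro D hD
  obtain ⟨⟨o, ho⟩⟩ := hD.nonempty
  exact grow_induction hG (induce_singleton_connected o) (single o)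
    (fun E x x' hE _ => step E x x' hE) D hD (by simpa using ho)

end growth

section balls

variable [DecidableEq V]

/-- The closed ball of radius `n` as a finset. -/
def ballF (G : SimpleGraph V) [G.LocallyFinite] (v : V) : ℕ → Finset V
  | 0 => {v}
  | n + 1 => ballF G v n ∪ (ballF G v n).biUnion (fun u => G.neighborFinset u)

lemma mem_ballF [G.LocallyFinite] (hG : G.Connected) {v u : V} {n : ℕ} :
    u ∈ ballF G v n ↔ G.dist v u ≤ n := by
  induction n generalizing u with
  | zero =>
    simp only [ballF, Finset.mem_singleton, nonpos_iff_eq_zero]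
    rw [hG.dist_eq_zero_iff]
    exact eq_comm
  | succ n ih =>
    simp only [ballF, Finset.mem_union, Finset.mem_biUnion, mem_neighborFinset]
    constructor
    · rintro (h | ⟨w, hw, hadj⟩)
      · exact (ih.1 h).trans (Nat.le_succ _)
      · have h1 := ih.1 hw
        have h2 : G.dist v u ≤ G.dist v w + G.dist w u := hG.dist_triangle
        have h3 : G.dist w u = 1 := dist_eq_one_iff_adj.2 hadj
        omega
    · intro h
      by_cases hle : G.dist v u ≤ n
      · exact Or.inl (ih.2 hle)
      · right
        obtain ⟨p, hp⟩ := hG.exists_walk_length_eq_dist u v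
        cases p with
        | nil =>
          exfalso
          simp at hle
        | @cons _ w _ hadj p =>
          refine ⟨w, ih.2 ?_, hadj.symm⟩
          rw [Walk.length_cons] at hp
          have h1 : G.dist w v ≤ p.length := dist_le p
          rw [dist_comm] at h1
          rw [dist_comm (u := u)] at hp
          omega

lemma ballF_connected [G.LocallyFinite] (hG : G.IsTree) (v : V) (n : ℕ) :
    (G.induce ((ballF G v n : Finset V) : Set V)).Connected := by
  refine RootClosed.connected hG (o := v) ⟨?_, ?_⟩
  · rw [Finset.mem_coe, mem_ballF hG.connected]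
    simp
  · intro x hx u _ hd
    rw [Finset.mem_coe, mem_ballF hG.connected] at hx ⊢
    omega

lemma self_mem_ballF [G.LocallyFinite] (hG : G.Connected) (v : V) (n : ℕ) :
    v ∈ ballF G v n := by
  rw [mem_ballF hG]
  simp

lemma ballF_mono [G.LocallyFinite] (hG : G.Connected) (v : V) {m n : ℕ} (h : m ≤ n) :
    ballF G v m ⊆ ballF G v n := by
  intro u hu
  rw [mem_ballF hG] at hu ⊢
  exact hu.trans h

/-- Every finite set of vertices lies in a ball. -/
lemma exists_subset_ballF [G.LocallyFinite] (hG : G.Connected) (v : V) (A : Finset V) :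
    ∃ n, A ⊆ ballF G v n := by
  refine ⟨A.sup (fun u => G.dist v u), ?_⟩
  intro u hu
  rw [mem_ballF hG]
  exact Finset.le_sup (f := fun u => G.dist v u) hu

end balls

end Vale.Agent.IsingFIID
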